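import Mathlib

/-!
# P004E, module W (part 3): Abel summation over the primes
-/

open MeasureTheory Set Filter Topology intervalIntegral

namespace P004E.Abel

/-- Abel summation with a logarithmic main term -/
lemma abel_log {c : ℕ → ℝ} {κ C a b : ℝ} {f f' : ℝ → ℂ} (ha : 1 ≤ a) (hab : a ≤ b)
    (hc : ∀ x : ℝ, 1 ≤ x → |∑ k ∈ Finset.Icc 0 ⌊x⌋₊, c k - κ * Real.log x| ≤ C)
    (hf : ∀ t ∈ Icc a b, HasDerivAt f (f' t) t) (hf' : ContinuousOn f' (Icc a b)) :
    ‖∑ k ∈ Finset.Ioc ⌊a⌋₊ ⌊b⌋₊, f k * (c k : ℂ) - κ * ∫ t in a..b, f t * (t : ℂ)⁻¹‖ ≤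
      C * (‖f a‖ + ‖f b‖ + ∫ t in a..b, ‖f' t‖) := by
  have hC : 0 ≤ C := (abs_nonneg _).trans (hc 1 le_rfl)
  have hI : IntegrableOn f' (Icc a b) := hf'.integrableOn_Icc
  have hder : EqOn (deriv f) f' (Icc a b) := fun t ht => (hf t ht).deriv
  have hdI : IntegrableOn (deriv f) (Icc a b) :=
    hI.congr_fun (fun t ht => (hder ht).symm) measurableSet_Icc
  have h1 := sum_mul_eq_sub_sub_integral_mul (fun k => (c k : ℂ)) (f := f) (a := a) (b := b)
    (by linarith) hab (fun t ht => (hf t ht).differentiableAt) hdI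
  set A : ℝ → ℂ := fun t => ∑ k ∈ Finset.Icc 0 ⌊t⌋₊, (c k : ℂ) with hA
  have hAI : IntegrableOn (fun t => f' t * A t) (Icc a b) :=
    integrableOn_mul_sum_Icc (fun k => (c k : ℂ)) (by linarith) hI
  have e1 : ∫ t in Ioc a b, deriv f t * ∑ k ∈ Finset.Icc 0 ⌊t⌋₊, (c k : ℂ) =
      ∫ t in a..b, f' t * A t := by
    rw [integral_of_le hab]
    refine setIntegral_congr_fun measurableSet_Ioc fun t ht => ?_
    rw [hder (Ioc_subset_Icc_self ht)]
  rw [e1] at h1
  -- the logarithmic part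
  have hlogd : ∀ t ∈ uIcc a b, HasDerivAt (fun t : ℝ => ((Real.log t : ℝ) : ℂ)) ((t : ℂ)⁻¹) t := by
    intro t ht
    rw [uIcc_of_le hab] at ht
    have h0 : t ≠ 0 := by linarith [ht.1]
    have := (Real.hasDerivAt_log h0).ofReal_comp
    simpa using this
  have hlogc : ContinuousOn (fun t : ℝ => ((Real.log t : ℝ) : ℂ)) (Icc a b) := by
    intro t ht
    rw [← uIcc_of_le hab] at ht
    exact (hlogd t ht).continuousAt.continuousWithinAt
  have hinvc : ContinuousOn (fun t : ℝ => (t : ℂ)⁻¹) (Icc a b) := by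
    refine ContinuousOn.inv₀ (by fun_prop) fun t ht => ?_
    have h0 : t ≠ 0 := by linarith [ht.1]
    exact_mod_cast h0
  have h2 := intervalIntegral.integral_mul_deriv_eq_deriv_mul (u := f) (u' := f')
    (v := fun t : ℝ => ((Real.log t : ℝ) : ℂ)) (v' := fun t : ℝ => (t : ℂ)⁻¹) (a := a) (b := b)
    (fun t ht => hf t (by rwa [uIcc_of_le hab] at ht)) hlogd
    (by rw [intervalIntegrable_iff_integrableOn_Icc_of_le hab]; exact hI)
    (by
      rw [intervalIntegrable_iff_integrableOn_Icc_of_le hab]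
      exact hinvc.integrableOn_Icc)
  have hiA : IntervalIntegrable (fun t => f' t * A t) volume a b := by
    rw [intervalIntegrable_iff_integrableOn_Icc_of_le hab]; exact hAI
  have hiL : IntervalIntegrable (fun t => f' t * ((Real.log t : ℝ) : ℂ)) volume a b := by
    rw [intervalIntegrable_iff_integrableOn_Icc_of_le hab]
    exact (hf'.mul hlogc).integrableOn_Icc
  have h3 : ∑ k ∈ Finset.Ioc ⌊a⌋₊ ⌊b⌋₊, f k * (c k : ℂ) - κ * ∫ t in a..b, f t * (t : ℂ)⁻¹ =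
      f b * (A b - κ * (Real.log b : ℝ)) - f a * (A a - κ * (Real.log a : ℝ)) -
        ∫ t in a..b, f' t * (A t - κ * (Real.log t : ℝ)) := by
    have e2 : ∫ t in a..b, f' t * (A t - κ * (Real.log t : ℝ)) =
        (∫ t in a..b, f' t * A t) - κ * ∫ t in a..b, f' t * ((Real.log t : ℝ) : ℂ) := by
      rw [← intervalIntegral.integral_const_mul, ← intervalIntegral.integral_sub hiA
        (hiL.const_mul _)]
      refine intervalIntegral.integral_congr fun t _ => ?_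
      ring
    rw [h1, h2, e2]
    simp only [hA]
    ring
  have hAb : ∀ x : ℝ, 1 ≤ x → ‖A x - κ * (Real.log x : ℝ)‖ ≤ C := by
    intro x hx
    have := hc x hx
    have e3 : A x - κ * (Real.log x : ℝ) =
        ((∑ k ∈ Finset.Icc 0 ⌊x⌋₊, c k - κ * Real.log x : ℝ) : ℂ) := by
      simp only [hA]
      push_cast
      rfl
    rw [e3, Complex.norm_real]
    exact this
  rw [h3]
  have h4 : ‖∫ t in a..b, f' t * (A t - κ * (Real.log t : ℝ))‖ ≤ C * ∫ t in a..b, ‖f' t‖ := by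
    rw [← intervalIntegral.integral_const_mul]
    refine intervalIntegral.norm_integral_le_of_norm_le hab
      (Eventually.of_forall fun t ht => ?_) ?_
    · rw [norm_mul, mul_comm]
      exact mul_le_mul_of_nonneg_right (hAb t (ha.trans ht.1.le)) (norm_nonneg _)
    · rw [intervalIntegrable_iff_integrableOn_Icc_of_le hab]
      exact (hf'.norm.integrableOn_Icc).const_mul _
  calc ‖f b * (A b - κ * (Real.log b : ℝ)) - f a * (A a - κ * (Real.log a : ℝ)) -
        ∫ t in a..b, f' t * (A t - κ * (Real.log t : ℝ))‖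
      ≤ ‖f b * (A b - κ * (Real.log b : ℝ))‖ + ‖f a * (A a - κ * (Real.log a : ℝ))‖ +
        ‖∫ t in a..b, f' t * (A t - κ * (Real.log t : ℝ))‖ :=
        (norm_sub_le _ _).trans (by gcongr; exact norm_sub_le _ _)
    _ ≤ ‖f b‖ * C + ‖f a‖ * C + C * ∫ t in a..b, ‖f' t‖ := by
        rw [norm_mul, norm_mul]
        gcongr
        · exact hAb b (ha.trans hab)
        · exact hAb a ha
    _ = _ := by ring

/-- the same in the variable `log t` -/
lemma abel_exp {c : ℕ → ℝ} {κ C u₀ u₁ : ℝ} {φ φ' : ℝ → ℂ} (h0 : 0 ≤ u₀) (h01 : u₀ ≤ u₁)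
    (hc : ∀ x : ℝ, 1 ≤ x → |∑ k ∈ Finset.Icc 0 ⌊x⌋₊, c k - κ * Real.log x| ≤ C)
    (hφ : ∀ u ∈ Icc u₀ u₁, HasDerivAt φ (φ' u) u) (hφ' : ContinuousOn φ' (Icc u₀ u₁)) :
    ‖∑ k ∈ Finset.Ioc ⌊Real.exp u₀⌋₊ ⌊Real.exp u₁⌋₊, φ (Real.log k) * (c k : ℂ) -
      κ * ∫ u in u₀..u₁, φ u‖ ≤
      C * (‖φ u₀‖ + ‖φ u₁‖ + ∫ u in u₀..u₁, ‖φ' u‖) := by
  have hab : Real.exp u₀ ≤ Real.exp u₁ := Real.exp_le_exp.2 h01
  have ha : 1 ≤ Real.exp u₀ := Real.one_le_exp h0
  have hlog : ∀ t ∈ Icc (Real.exp u₀) (Real.exp u₁), Real.log t ∈ Icc u₀ u₁ := by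
    intro t ht
    have ht0 : 0 < t := by linarith [ht.1]
    exact ⟨(Real.le_log_iff_exp_le ht0).2 ht.1, (Real.log_le_iff_le_exp ht0).2 ht.2⟩
  have hd : ∀ t ∈ Icc (Real.exp u₀) (Real.exp u₁),
      HasDerivAt (fun t => φ (Real.log t)) (((t⁻¹ : ℝ) : ℂ) * φ' (Real.log t)) t := by
    intro t ht
    have ht0 : t ≠ 0 := by linarith [ht.1]
    exact (HasDerivAt.scomp t (hφ _ (hlog t ht)) (Real.hasDerivAt_log ht0)).congr_deriv
      Complex.real_smul
  have hlc : ContinuousOn Real.log (Icc (Real.exp u₀) (Real.exp u₁)) :=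
    Real.continuousOn_log.mono fun t ht => by
      have : t ≠ 0 := by linarith [ht.1]
      simpa using this
  have hic : ContinuousOn (fun t : ℝ => t⁻¹) (Icc (Real.exp u₀) (Real.exp u₁)) :=
    ContinuousOn.inv₀ continuousOn_id fun t ht => by
      have : t ≠ 0 := by linarith [ht.1]
      simpa using this
  have hcont : ContinuousOn (fun t => ((t⁻¹ : ℝ) : ℂ) * φ' (Real.log t))
      (Icc (Real.exp u₀) (Real.exp u₁)) :=
    (Complex.continuous_ofReal.comp_continuousOn hic).mul (hφ'.comp hlc hlog)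
  have h1 := abel_log ha hab hc hd hcont
  have hφc : ContinuousOn φ (Icc u₀ u₁) := fun u hu => (hφ u hu).continuousAt.continuousWithinAt
  have hlogd : ∀ t ∈ uIcc (Real.exp u₀) (Real.exp u₁), HasDerivAt Real.log (t⁻¹) t := by
    intro t ht
    rw [uIcc_of_le hab] at ht
    exact Real.hasDerivAt_log (by linarith [ht.1])
  have himg : Real.log '' uIcc (Real.exp u₀) (Real.exp u₁) ⊆ Icc u₀ u₁ := by
    rintro _ ⟨t, ht, rfl⟩
    rw [uIcc_of_le hab] at ht
    exact hlog t ht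
  have h2 : ∫ t in Real.exp u₀..Real.exp u₁, φ (Real.log t) * (t : ℂ)⁻¹ = ∫ u in u₀..u₁, φ u := by
    have := intervalIntegral.integral_comp_smul_deriv' (f := Real.log) (f' := fun t => t⁻¹)
      (g := φ) (a := Real.exp u₀) (b := Real.exp u₁) hlogd (by rwa [uIcc_of_le hab])
      (hφc.mono himg)
    rw [Real.log_exp, Real.log_exp] at this
    rw [← this]
    refine intervalIntegral.integral_congr fun t _ => ?_
    simp [mul_comm]
  have h3 : ∫ t in Real.exp u₀..Real.exp u₁, ‖((t⁻¹ : ℝ) : ℂ) * φ' (Real.log t)‖ =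
      ∫ u in u₀..u₁, ‖φ' u‖ := by
    have := intervalIntegral.integral_comp_smul_deriv' (f := Real.log) (f' := fun t => t⁻¹)
      (g := fun u => ‖φ' u‖) (a := Real.exp u₀) (b := Real.exp u₁) hlogd
      (by rwa [uIcc_of_le hab]) (hφ'.norm.mono himg)
    rw [Real.log_exp, Real.log_exp] at this
    rw [← this]
    refine intervalIntegral.integral_congr fun t ht => ?_
    rw [uIcc_of_le hab] at ht
    have ht0 : 0 < t := by linarith [ht.1]
    simp only [norm_mul, Complex.norm_real, Real.norm_eq_abs, abs_of_pos (inv_pos.2 ht0),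
      smul_eq_mul, Function.comp]
  rw [h2, h3, Real.log_exp, Real.log_exp] at h1
  exact h1

/-! ### the functions `e^{-wu}/u` -/

lemma hasDerivAt_kern {w : ℂ} {u : ℝ} (hu : 0 < u) :
    HasDerivAt (fun u : ℝ => Complex.exp (-w * u) * (u : ℂ)⁻¹)
      (-w * Complex.exp (-w * u) * (u : ℂ)⁻¹ - Complex.exp (-w * u) * ((u : ℂ) ^ 2)⁻¹) u := by
  have hu0 : (u : ℂ) ≠ 0 := by exact_mod_cast hu.ne'
  have h1 : HasDerivAt (fun u : ℝ => (u : ℂ)) 1 u := Complex.ofRealCLM.hasDerivAt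
  have h2 : HasDerivAt (fun u : ℝ => Complex.exp (-w * u)) (Complex.exp (-w * u) * (-w * 1)) u :=
    (h1.const_mul (-w)).cexp
  have h3 : HasDerivAt (fun u : ℝ => (u : ℂ)⁻¹) (-1 / (u : ℂ) ^ 2) u := h1.inv hu0
  exact (h2.fun_mul h3).congr_deriv (by ring)

lemma norm_exp_le {w : ℂ} {u : ℝ} (hw : 0 ≤ w.re) (hu : 0 ≤ u) : ‖Complex.exp (-w * u)‖ ≤ 1 := by
  rw [Complex.norm_exp]
  apply Real.exp_le_one_iff.2
  simp only [Complex.mul_re, Complex.neg_re, Complex.ofReal_re, Complex.neg_im, Complex.ofReal_im]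
  nlinarith

/-- the exponential integral -/
lemma E1_le {s u₀ u₁ : ℝ} (hs : 0 < s) (h0 : 0 < u₀) (h01 : u₀ ≤ u₁) :
    ∫ u in u₀..u₁, Real.exp (-s * u) / u ≤ Real.log (1 + 1 / (s * u₀)) := by
  set G : ℝ → ℝ := fun u => -(Real.exp (-s * u) * Real.log (1 + 1 / (s * u))) with hG
  set G' : ℝ → ℝ := fun u => s * Real.exp (-s * u) * Real.log (1 + 1 / (s * u)) +
    Real.exp (-s * u) / (u * (1 + s * u)) with hG'
  have hGd : ∀ u, 0 < u → HasDerivAt G (G' u) u := by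
    intro u hu
    have h1 : HasDerivAt (fun u : ℝ => Real.exp (-s * u)) (Real.exp (-s * u) * (-s * 1)) u :=
      ((hasDerivAt_id u).const_mul (-s)).exp
    have h2 : HasDerivAt (fun u : ℝ => s * u) (s * 1) u := (hasDerivAt_id u).const_mul s
    have h3 : HasDerivAt (fun u : ℝ => 1 + 1 / (s * u))
        ((0 * (s * u) - 1 * (s * 1)) / (s * u) ^ 2) u :=
      ((hasDerivAt_const u (1 : ℝ)).fun_div h2 (by positivity)).const_add 1
    have h4 := h3.log (by positivity)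
    have h5 := (h1.fun_mul h4).fun_neg
    refine h5.congr_deriv ?_
    simp only [hG']
    have e1 : (0 * (s * u) - 1 * (s * 1)) / (s * u) ^ 2 / (1 + 1 / (s * u)) =
        -(1 / (u * (1 + s * u))) := by
      field_simp
      ring
    rw [e1]
    ring
  have hle : ∀ u, 0 < u → Real.exp (-s * u) / u ≤ G' u := by
    intro u hu
    have hx : 0 < s * u := by positivity
    have h6 : 1 / (1 + s * u) ≤ Real.log (1 + 1 / (s * u)) := by
      have := Real.one_sub_inv_le_log_of_pos (x := 1 + 1 / (s * u)) (by positivity)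
      refine le_trans (le_of_eq ?_) this
      field_simp
      ring
    have h7 : Real.exp (-s * u) / u = s * Real.exp (-s * u) * (1 / (1 + s * u)) +
        Real.exp (-s * u) / (u * (1 + s * u)) := by
      field_simp
      ring
    rw [h7]
    simp only [hG']
    have : 0 < s * Real.exp (-s * u) := by positivity
    gcongr
  have hcontG' : ContinuousOn G' (Icc u₀ u₁) := by
    intro u hu
    have hu0 : 0 < u := h0.trans_le hu.1
    have h8 : ContinuousAt (fun u : ℝ => 1 + 1 / (s * u)) u := by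
      refine continuousAt_const.add (continuousAt_const.div (by fun_prop) (by positivity))
    have h9 : ContinuousAt (fun u : ℝ => Real.log (1 + 1 / (s * u))) u :=
      h8.log (by positivity)
    have h10 : ContinuousAt (fun u : ℝ => Real.exp (-s * u) / (u * (1 + s * u))) u :=
      ContinuousAt.div (by fun_prop) (by fun_prop) (by positivity)
    have h11 : ContinuousAt (fun u : ℝ => s * Real.exp (-s * u)) u := by fun_prop
    exact ((h11.mul h9).add h10).continuousWithinAt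
  have hcontE : ContinuousOn (fun u : ℝ => Real.exp (-s * u) / u) (Icc u₀ u₁) :=
    ContinuousOn.div (by fun_prop) (by fun_prop) fun u hu => (h0.trans_le hu.1).ne'
  have hi1 : IntervalIntegrable G' volume u₀ u₁ := by
    rw [intervalIntegrable_iff_integrableOn_Icc_of_le h01]; exact hcontG'.integrableOn_Icc
  have hi2 : IntervalIntegrable (fun u : ℝ => Real.exp (-s * u) / u) volume u₀ u₁ := by
    rw [intervalIntegrable_iff_integrableOn_Icc_of_le h01]; exact hcontE.integrableOn_Icc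
  have h12 : ∫ u in u₀..u₁, G' u = G u₁ - G u₀ :=
    intervalIntegral.integral_eq_sub_of_hasDerivAt (fun u hu => by
      rw [uIcc_of_le h01] at hu
      exact hGd u (h0.trans_le hu.1)) hi1
  have h13 : ∫ u in u₀..u₁, Real.exp (-s * u) / u ≤ ∫ u in u₀..u₁, G' u :=
    intervalIntegral.integral_mono_on h01 hi2 hi1 fun u hu => hle u (h0.trans_le hu.1)
  have hu1 : 0 < u₁ := h0.trans_le h01
  have h14 : G u₁ ≤ 0 := by
    simp only [hG]
    have : 0 ≤ Real.log (1 + 1 / (s * u₁)) := Real.log_nonneg (by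
      have : 0 < 1 / (s * u₁) := by positivity
      linarith)
    have h15 : 0 < Real.exp (-s * u₁) := Real.exp_pos _
    nlinarith
  have h15 : -G u₀ ≤ Real.log (1 + 1 / (s * u₀)) := by
    simp only [hG, neg_neg]
    have h16 : 0 ≤ Real.log (1 + 1 / (s * u₀)) := Real.log_nonneg (by
      have : 0 < 1 / (s * u₀) := by positivity
      linarith)
    refine mul_le_of_le_one_left h16 (Real.exp_le_one_iff.2 ?_)
    have : 0 < s * u₀ := by positivity
    linarith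
  linarith

lemma integral_inv_sq {u₀ u₁ : ℝ} (h0 : 0 < u₀) (h01 : u₀ ≤ u₁) :
    ∫ u in u₀..u₁, 1 / u ^ 2 ≤ 1 / u₀ := by
  have hd : ∀ u ∈ uIcc u₀ u₁, HasDerivAt (fun u : ℝ => -(1 / u)) (1 / u ^ 2) u := by
    intro u hu
    rw [uIcc_of_le h01] at hu
    have hu0 : u ≠ 0 := (h0.trans_le hu.1).ne'
    refine (((hasDerivAt_const u (1 : ℝ)).fun_div (hasDerivAt_id' u) hu0).fun_neg).congr_deriv ?_
    ring
  have hc : ContinuousOn (fun u : ℝ => 1 / u ^ 2) (Icc u₀ u₁) :=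
    ContinuousOn.div (by fun_prop) (by fun_prop) fun u hu =>
      pow_ne_zero _ (h0.trans_le hu.1).ne'
  have hi : IntervalIntegrable (fun u : ℝ => 1 / u ^ 2) volume u₀ u₁ := by
    rw [intervalIntegrable_iff_integrableOn_Icc_of_le h01]; exact hc.integrableOn_Icc
  rw [intervalIntegral.integral_eq_sub_of_hasDerivAt hd hi]
  have : 0 < 1 / u₁ := by
    have := h0.trans_le h01
    positivity
  linarith

lemma contOn_kern' {w : ℂ} {u₀ u₁ : ℝ} (h0 : 0 < u₀) : ContinuousOn (fun u : ℝ =>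
    -w * Complex.exp (-w * u) * (u : ℂ)⁻¹ - Complex.exp (-w * u) * ((u : ℂ) ^ 2)⁻¹)
    (Icc u₀ u₁) := by
  have hne : ∀ u ∈ Icc u₀ u₁, (u : ℂ) ≠ 0 := fun u hu => by
    have := (h0.trans_le hu.1).ne'
    exact_mod_cast this
  have h1 : ContinuousOn (fun u : ℝ => (u : ℂ)⁻¹) (Icc u₀ u₁) :=
    ContinuousOn.inv₀ (by fun_prop) hne
  have h2 : ContinuousOn (fun u : ℝ => ((u : ℂ) ^ 2)⁻¹) (Icc u₀ u₁) :=
    ContinuousOn.inv₀ (by fun_prop) fun u hu => pow_ne_zero _ (hne u hu)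
  have h3 : ContinuousOn (fun u : ℝ => Complex.exp (-w * u)) (Icc u₀ u₁) := by fun_prop
  exact ((continuousOn_const.mul h3).mul h1).sub (h3.mul h2)

/-- the total variation of the kernel -/
lemma kern_var {w : ℂ} (hw : 0 < w.re) {u₀ u₁ : ℝ} (h0 : 0 < u₀) (h01 : u₀ ≤ u₁) :
    ∫ u in u₀..u₁, ‖-w * Complex.exp (-w * u) * (u : ℂ)⁻¹ -
      Complex.exp (-w * u) * ((u : ℂ) ^ 2)⁻¹‖ ≤
      ‖w‖ * Real.log (1 + 1 / (w.re * u₀)) + 1 / u₀ := by
  have hc := contOn_kern' (w := w) (u₁ := u₁) h0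
  have hi : IntervalIntegrable (fun u : ℝ => ‖-w * Complex.exp (-w * u) * (u : ℂ)⁻¹ -
      Complex.exp (-w * u) * ((u : ℂ) ^ 2)⁻¹‖) volume u₀ u₁ := by
    rw [intervalIntegrable_iff_integrableOn_Icc_of_le h01]; exact hc.norm.integrableOn_Icc
  have hcontE : ContinuousOn (fun u : ℝ => Real.exp (-w.re * u) / u) (Icc u₀ u₁) :=
    ContinuousOn.div (by fun_prop) (by fun_prop) fun u hu => (h0.trans_le hu.1).ne'
  have hcontS : ContinuousOn (fun u : ℝ => 1 / u ^ 2) (Icc u₀ u₁) :=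
    ContinuousOn.div (by fun_prop) (by fun_prop) fun u hu =>
      pow_ne_zero _ (h0.trans_le hu.1).ne'
  have hi1 : IntervalIntegrable (fun u : ℝ => ‖w‖ * (Real.exp (-w.re * u) / u)) volume u₀ u₁ := by
    rw [intervalIntegrable_iff_integrableOn_Icc_of_le h01]
    exact hcontE.integrableOn_Icc.const_mul _
  have hi2 : IntervalIntegrable (fun u : ℝ => 1 / u ^ 2) volume u₀ u₁ := by
    rw [intervalIntegrable_iff_integrableOn_Icc_of_le h01]; exact hcontS.integrableOn_Icc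
  have h1 : ∫ u in u₀..u₁, ‖-w * Complex.exp (-w * u) * (u : ℂ)⁻¹ -
      Complex.exp (-w * u) * ((u : ℂ) ^ 2)⁻¹‖ ≤
      ∫ u in u₀..u₁, (‖w‖ * (Real.exp (-w.re * u) / u) + 1 / u ^ 2) := by
    refine intervalIntegral.integral_mono_on h01 hi (hi1.add hi2) fun u hu => ?_
    have hu0 : 0 < u := h0.trans_le hu.1
    have e1 : ‖Complex.exp (-w * u)‖ = Real.exp (-w.re * u) := by
      rw [Complex.norm_exp]
      simp
    refine (norm_sub_le _ _).trans ?_
    rw [norm_mul, norm_mul, norm_neg, norm_mul, norm_inv, norm_inv, norm_pow, Complex.norm_real,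
      Real.norm_eq_abs, abs_of_pos hu0, e1]
    have e2 : Real.exp (-w.re * u) ≤ 1 := Real.exp_le_one_iff.2 (by nlinarith)
    have e3 : Real.exp (-w.re * u) * (u ^ 2)⁻¹ ≤ 1 / u ^ 2 := by
      rw [one_div]
      exact mul_le_of_le_one_left (by positivity) e2
    have e4 : ‖w‖ * Real.exp (-w.re * u) * u⁻¹ = ‖w‖ * (Real.exp (-w.re * u) / u) := by ring
    rw [e4]
    linarith
  rw [intervalIntegral.integral_add hi1 hi2, intervalIntegral.integral_const_mul] at h1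
  have h2 := E1_le hw h0 h01
  have h3 := integral_inv_sq h0 h01
  have h4 : ‖w‖ * ∫ u in u₀..u₁, Real.exp (-w.re * u) / u ≤
      ‖w‖ * Real.log (1 + 1 / (w.re * u₀)) := by gcongr
  linarith

/-- integration by parts for the kernel -/
lemma kern_int {w : ℂ} (hw : 0 ≤ w.re) (hw0 : w ≠ 0) {u₀ u₁ : ℝ} (h0 : 0 < u₀) (h01 : u₀ ≤ u₁) :
    ‖∫ u in u₀..u₁, Complex.exp (-w * u) * (u : ℂ)⁻¹‖ ≤ 3 / (‖w‖ * u₀) := by
  have hwn : 0 < ‖w‖ := norm_pos_iff.2 hw0
  have hu1 : 0 < u₁ := h0.trans_le h01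
  have hne : ∀ u ∈ Icc u₀ u₁, (u : ℂ) ≠ 0 := fun u hu => by
    have := (h0.trans_le hu.1).ne'
    exact_mod_cast this
  have h1 : ContinuousOn (fun u : ℝ => (u : ℂ)⁻¹) (Icc u₀ u₁) :=
    ContinuousOn.inv₀ (by fun_prop) hne
  have h2 : ContinuousOn (fun u : ℝ => -1 / (u : ℂ) ^ 2) (Icc u₀ u₁) :=
    ContinuousOn.div (by fun_prop) (by fun_prop) fun u hu => pow_ne_zero _ (hne u hu)
  have h3 : ContinuousOn (fun u : ℝ => Complex.exp (-w * u)) (Icc u₀ u₁) := by fun_prop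
  have hd1 : ∀ u ∈ uIcc u₀ u₁, HasDerivAt (fun u : ℝ => (u : ℂ)⁻¹) (-1 / (u : ℂ) ^ 2) u := by
    intro u hu
    rw [uIcc_of_le h01] at hu
    have h1 : HasDerivAt (fun u : ℝ => (u : ℂ)) 1 u := Complex.ofRealCLM.hasDerivAt
    exact h1.inv (hne u hu)
  have hd2 : ∀ u ∈ uIcc u₀ u₁, HasDerivAt (fun u : ℝ => -w⁻¹ * Complex.exp (-w * u))
      (Complex.exp (-w * u)) u := by
    intro u _
    have h1 : HasDerivAt (fun u : ℝ => (u : ℂ)) 1 u := Complex.ofRealCLM.hasDerivAt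
    have h2 : HasDerivAt (fun u : ℝ => Complex.exp (-w * u)) (Complex.exp (-w * u) * (-w * 1)) u :=
      (h1.const_mul (-w)).cexp
    refine (h2.const_mul (-w⁻¹)).congr_deriv ?_
    have : w⁻¹ * w = 1 := inv_mul_cancel₀ hw0
    linear_combination Complex.exp (-w * u) * this
  have h4 := intervalIntegral.integral_mul_deriv_eq_deriv_mul hd1 hd2
    (by rw [intervalIntegrable_iff_integrableOn_Icc_of_le h01]; exact h2.integrableOn_Icc)
    (by rw [intervalIntegrable_iff_integrableOn_Icc_of_le h01]; exact h3.integrableOn_Icc)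
  have e0 : ∫ u in u₀..u₁, Complex.exp (-w * u) * (u : ℂ)⁻¹ =
      ∫ u in u₀..u₁, (u : ℂ)⁻¹ * Complex.exp (-w * u) :=
    intervalIntegral.integral_congr fun u _ => mul_comm _ _
  rw [e0, h4]
  have e1 : ∀ u : ℝ, 0 < u → ‖(u : ℂ)⁻¹ * (-w⁻¹ * Complex.exp (-w * u))‖ ≤ 1 / (‖w‖ * u) := by
    intro u hu
    rw [norm_mul, norm_mul, norm_neg, norm_inv, norm_inv, Complex.norm_real, Real.norm_eq_abs,
      abs_of_pos hu]
    have := norm_exp_le hw hu.le
    calc u⁻¹ * (‖w‖⁻¹ * ‖Complex.exp (-w * u)‖) ≤ u⁻¹ * (‖w‖⁻¹ * 1) := by gcongr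
      _ = _ := by rw [mul_one, one_div, mul_inv, mul_comm]
  have e2 : ‖∫ u in u₀..u₁, -1 / (u : ℂ) ^ 2 * (-w⁻¹ * Complex.exp (-w * u))‖ ≤
      1 / (‖w‖ * u₀) := by
    have hcontS : ContinuousOn (fun u : ℝ => 1 / u ^ 2) (Icc u₀ u₁) :=
      ContinuousOn.div (by fun_prop) (by fun_prop) fun u hu =>
        pow_ne_zero _ (h0.trans_le hu.1).ne'
    have h5 : ‖∫ u in u₀..u₁, -1 / (u : ℂ) ^ 2 * (-w⁻¹ * Complex.exp (-w * u))‖ ≤
        ∫ u in u₀..u₁, ‖w‖⁻¹ * (1 / u ^ 2) := by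
      refine intervalIntegral.norm_integral_le_of_norm_le h01
        (Eventually.of_forall fun u hu => ?_) ?_
      · have hu0 : 0 < u := h0.trans hu.1
        rw [norm_mul, norm_div, norm_neg, norm_one, norm_pow, norm_mul, norm_neg, norm_inv,
          Complex.norm_real, Real.norm_eq_abs, abs_of_pos hu0]
        have := norm_exp_le hw hu0.le
        calc 1 / u ^ 2 * (‖w‖⁻¹ * ‖Complex.exp (-w * u)‖) ≤ 1 / u ^ 2 * (‖w‖⁻¹ * 1) := by gcongr
          _ = _ := by ring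
      · rw [intervalIntegrable_iff_integrableOn_Icc_of_le h01]
        exact hcontS.integrableOn_Icc.const_mul _
    rw [intervalIntegral.integral_const_mul] at h5
    refine h5.trans ?_
    have := integral_inv_sq h0 h01
    calc ‖w‖⁻¹ * ∫ u in u₀..u₁, 1 / u ^ 2 ≤ ‖w‖⁻¹ * (1 / u₀) := by gcongr
      _ = _ := by rw [one_div, one_div, mul_inv]
  have e3 := e1 u₁ hu1
  have e4 := e1 u₀ h0
  have e5 : 1 / (‖w‖ * u₁) ≤ 1 / (‖w‖ * u₀) := by
    apply one_div_le_one_div_of_le (by positivity)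
    gcongr
  calc _ ≤ ‖(u₁ : ℂ)⁻¹ * (-w⁻¹ * Complex.exp (-w * u₁))‖ +
        ‖(u₀ : ℂ)⁻¹ * (-w⁻¹ * Complex.exp (-w * u₀))‖ +
        ‖∫ u in u₀..u₁, -1 / (u : ℂ) ^ 2 * (-w⁻¹ * Complex.exp (-w * u))‖ :=
        (norm_sub_le _ _).trans (by gcongr; exact norm_sub_le _ _)
    _ ≤ 1 / (‖w‖ * u₀) + 1 / (‖w‖ * u₀) + 1 / (‖w‖ * u₀) := by linarith
    _ = _ := by ring

/-- the real part of the integral of the kernel -/
lemma kern_re {w : ℂ} (hw : 0 ≤ w.re) (hw0 : w ≠ 0) {u₀ u₁ : ℝ} (h0 : 0 < u₀) (h01 : u₀ ≤ u₁) :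
    (∫ u in u₀..u₁, Complex.exp (-w * u) * (u : ℂ)⁻¹).re ≤
      Real.log (1 + 1 / (‖w‖ * u₀)) + 3 := by
  have hwn : 0 < ‖w‖ := norm_pos_iff.2 hw0
  have hcontK : ∀ a b : ℝ, 0 < a → ContinuousOn
      (fun u : ℝ => Complex.exp (-w * u) * (u : ℂ)⁻¹) (Icc a b) := by
    intro a b ha
    refine ContinuousOn.mul (by fun_prop) (ContinuousOn.inv₀ (by fun_prop) fun u hu => ?_)
    have := (ha.trans_le hu.1).ne'
    exact_mod_cast this
  have hiK : ∀ a b : ℝ, 0 < a → a ≤ b → IntervalIntegrable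
      (fun u : ℝ => Complex.exp (-w * u) * (u : ℂ)⁻¹) volume a b := by
    intro a b ha hab
    rw [intervalIntegrable_iff_integrableOn_Icc_of_le hab]
    exact (hcontK a b ha).integrableOn_Icc
  -- the trivial bound
  have htriv : ∀ b : ℝ, u₀ ≤ b → (∫ u in u₀..b, Complex.exp (-w * u) * (u : ℂ)⁻¹).re ≤
      Real.log (b / u₀) := by
    intro b hb
    have h1 : ‖∫ u in u₀..b, Complex.exp (-w * u) * (u : ℂ)⁻¹‖ ≤ ∫ u in u₀..b, u⁻¹ := by
      refine intervalIntegral.norm_integral_le_of_norm_le hb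
        (Eventually.of_forall fun u hu => ?_) ?_
      · have hu0 : 0 < u := h0.trans hu.1
        rw [norm_mul, norm_inv, Complex.norm_real, Real.norm_eq_abs, abs_of_pos hu0]
        exact mul_le_of_le_one_left (by positivity) (norm_exp_le hw hu0.le)
      · rw [intervalIntegrable_iff_integrableOn_Icc_of_le hb]
        refine ContinuousOn.integrableOn_Icc (ContinuousOn.inv₀ continuousOn_id fun u hu => ?_)
        exact (h0.trans_le hu.1).ne'
    rw [integral_inv_of_pos h0 (h0.trans_le hb)] at h1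
    exact (Complex.re_le_norm _).trans h1
  have hlog1 : 0 ≤ Real.log (1 + 1 / (‖w‖ * u₀)) := Real.log_nonneg (by
    have : 0 < 1 / (‖w‖ * u₀) := by positivity
    linarith)
  set U := max u₀ (1 / ‖w‖) with hU
  have hUu : u₀ ≤ U := le_max_left _ _
  have hU0 : 0 < U := h0.trans_le hUu
  have hUlog : Real.log (U / u₀) ≤ Real.log (1 + 1 / (‖w‖ * u₀)) := by
    apply Real.log_le_log (by positivity)
    rw [div_le_iff₀ h0]
    have e1 : (1 + 1 / (‖w‖ * u₀)) * u₀ = u₀ + 1 / ‖w‖ := by field_simp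
    rw [e1]
    refine max_le ?_ ?_
    · have : 0 < 1 / ‖w‖ := by positivity
      linarith
    · linarith
  rcases le_total u₁ U with h | h
  · refine (htriv u₁ h01).trans ?_
    have : Real.log (u₁ / u₀) ≤ Real.log (U / u₀) := by
      apply Real.log_le_log (div_pos (h0.trans_le h01) h0)
      gcongr
    linarith
  · have h2 : ∫ u in u₀..u₁, Complex.exp (-w * u) * (u : ℂ)⁻¹ =
        (∫ u in u₀..U, Complex.exp (-w * u) * (u : ℂ)⁻¹) +
          ∫ u in U..u₁, Complex.exp (-w * u) * (u : ℂ)⁻¹ :=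
      (intervalIntegral.integral_add_adjacent_intervals (hiK _ _ h0 hUu) (hiK _ _ hU0 h)).symm
    rw [h2, Complex.add_re]
    have h3 := htriv U hUu
    have h4 := kern_int hw hw0 hU0 h
    have h5 : 3 / (‖w‖ * U) ≤ 3 := by
      rw [div_le_iff₀ (by positivity)]
      have : 1 ≤ ‖w‖ * U := by
        calc (1 : ℝ) = ‖w‖ * (1 / ‖w‖) := by field_simp
          _ ≤ ‖w‖ * U := by gcongr; exact le_max_right _ _
      linarith
    have h6 := Complex.re_le_norm (∫ u in U..u₁, Complex.exp (-w * u) * (u : ℂ)⁻¹)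
    linarith

/-- the sums over the primes: real parts -/
theorem prime_re {c : ℕ → ℝ} {κ C : ℝ} (hκ : 0 ≤ κ)
    (hc : ∀ x : ℝ, 1 ≤ x → |∑ k ∈ Finset.Icc 0 ⌊x⌋₊, c k - κ * Real.log x| ≤ C)
    {w : ℂ} (hw : 0 < w.re) {u₀ u₁ : ℝ} (h0 : 0 < u₀) (h01 : u₀ ≤ u₁) :
    (∑ k ∈ Finset.Ioc ⌊Real.exp u₀⌋₊ ⌊Real.exp u₁⌋₊,
      Complex.exp (-w * (Real.log k : ℝ)) * ((Real.log k : ℝ) : ℂ)⁻¹ * (c k : ℂ)).re ≤
      κ * (Real.log (1 + 1 / (‖w‖ * u₀)) + 3) +
        C * (3 / u₀ + ‖w‖ * Real.log (1 + 1 / (w.re * u₀))) := by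
  have hC : 0 ≤ C := (abs_nonneg _).trans (hc 1 le_rfl)
  have hw0 : w ≠ 0 := fun h => by rw [h] at hw; simp at hw
  have h1 := abel_exp (φ := fun u : ℝ => Complex.exp (-w * u) * (u : ℂ)⁻¹) h0.le h01 hc
    (fun u hu => hasDerivAt_kern (h0.trans_le hu.1)) (contOn_kern' h0)
  have h2 := kern_var hw h0 h01
  have h3 := kern_re hw.le hw0 h0 h01
  have hk : ∀ u : ℝ, u₀ ≤ u → ‖Complex.exp (-w * u) * (u : ℂ)⁻¹‖ ≤ 1 / u₀ := by
    intro u hu
    have hu0 : 0 < u := h0.trans_le hu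
    rw [norm_mul, norm_inv, Complex.norm_real, Real.norm_eq_abs, abs_of_pos hu0, one_div]
    calc ‖Complex.exp (-w * u)‖ * u⁻¹ ≤ 1 * u₀⁻¹ := by
          gcongr
          exact norm_exp_le hw.le hu0.le
      _ = _ := one_mul _
  set A := ∑ k ∈ Finset.Ioc ⌊Real.exp u₀⌋₊ ⌊Real.exp u₁⌋₊,
      Complex.exp (-w * (Real.log k : ℝ)) * ((Real.log k : ℝ) : ℂ)⁻¹ * (c k : ℂ) with hA
  set B := ∫ u in u₀..u₁, Complex.exp (-w * u) * (u : ℂ)⁻¹ with hB
  have h4 : A.re ≤ (κ * B).re + ‖A - κ * B‖ := by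
    have := Complex.re_le_norm (A - κ * B)
    rw [Complex.sub_re] at this
    linarith
  have h5 : ((κ : ℂ) * B).re = κ * B.re := Complex.re_ofReal_mul _ _
  have h6 : κ * B.re ≤ κ * (Real.log (1 + 1 / (‖w‖ * u₀)) + 3) := by gcongr
  have h7 : ‖A - κ * B‖ ≤ C * (3 / u₀ + ‖w‖ * Real.log (1 + 1 / (w.re * u₀))) := by
    refine h1.trans ?_
    have a1 := hk u₀ le_rfl
    have a2 := hk u₁ h01
    have e : 3 / u₀ = 1 / u₀ + 1 / u₀ + 1 / u₀ := by ring
    rw [e]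
    exact mul_le_mul_of_nonneg_left (by linarith) hC
  rw [h5] at h4
  linarith

/-- the sums over the primes without a main term -/
theorem prime_norm {c : ℕ → ℝ} {C : ℝ}
    (hc : ∀ x : ℝ, 1 ≤ x → |∑ k ∈ Finset.Icc 0 ⌊x⌋₊, c k| ≤ C)
    {w : ℂ} (hw : 0 < w.re) {u₀ u₁ : ℝ} (h0 : 0 < u₀) (h01 : u₀ ≤ u₁) :
    ‖∑ k ∈ Finset.Ioc ⌊Real.exp u₀⌋₊ ⌊Real.exp u₁⌋₊,
      Complex.exp (-w * (Real.log k : ℝ)) * ((Real.log k : ℝ) : ℂ)⁻¹ * (c k : ℂ)‖ ≤
        C * (3 / u₀ + ‖w‖ * Real.log (1 + 1 / (w.re * u₀))) := by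
  have hC : 0 ≤ C := (abs_nonneg _).trans (hc 1 le_rfl)
  have h1 := abel_exp (κ := 0) (φ := fun u : ℝ => Complex.exp (-w * u) * (u : ℂ)⁻¹) h0.le h01
    (by simpa using hc)
    (fun u hu => hasDerivAt_kern (h0.trans_le hu.1)) (contOn_kern' h0)
  have h2 := kern_var hw h0 h01
  have hk : ∀ u : ℝ, u₀ ≤ u → ‖Complex.exp (-w * u) * (u : ℂ)⁻¹‖ ≤ 1 / u₀ := by
    intro u hu
    have hu0 : 0 < u := h0.trans_le hu
    rw [norm_mul, norm_inv, Complex.norm_real, Real.norm_eq_abs, abs_of_pos hu0, one_div]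
    calc ‖Complex.exp (-w * u)‖ * u⁻¹ ≤ 1 * u₀⁻¹ := by
          gcongr
          exact norm_exp_le hw.le hu0.le
      _ = _ := one_mul _
  rw [Complex.ofReal_zero, zero_mul, sub_zero] at h1
  refine h1.trans ?_
  have a1 := hk u₀ le_rfl
  have a2 := hk u₁ h01
  have e : 3 / u₀ = 1 / u₀ + 1 / u₀ + 1 / u₀ := by ring
  rw [e]
  exact mul_le_mul_of_nonneg_left (by linarith) hC

end P004E.Abel
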