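import Vale.Agent.P004E.H3.Zi

/-!
# P004E, module W (part 7): the second moment of the mollified blocks
-/

open Finset Real

namespace P004G.E3W

open P004E (zi nb li Ib gp Mi BlkOK)
open P004.H293 (EE E1 EE_nonneg EE_mono EE_add EE_mul_left EE_const EE_prod E1_const
  E1_mono DepOn)
open P004G.H293 (Lp tt norm_tt_le norm_tt_le' abs_lam_le QN mem_QN three_le ffx)

variable [Crv] {C₀ c₀ η y₀ θ z L : ℝ} {S : ℕ → Finset ℕ} {c : ℕ → ℕ → ℝ}

/-- the second moment of one block -/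
noncomputable def bl (S : ℕ → Finset ℕ) (c : ℕ → ℕ → ℝ) (y₀ θ z L : ℝ) (i : ℕ) (ζ : ℂ) : ℝ :=
  EE (Ib y₀ θ z L i) (fun ω => Mi S c i (ffx ω) ^ 2 *
    ∏ p ∈ Ib y₀ θ z L i, ‖Lp p (1 + ζ) (ω p)‖ ^ 2)

lemma Ib_one {i : ℕ} : ∀ p ∈ Ib y₀ θ z L i, 1 ≤ p := fun _ hp => (mem_Ib.1 hp).2.1.one_lt.le

lemma bl_nonneg (i : ℕ) (ζ : ℂ) : 0 ≤ bl S c y₀ θ z L i ζ := by
  refine EE_nonneg Ib_one fun ω _ => ?_
  have : 0 ≤ ∏ p ∈ Ib y₀ θ z L i, ‖Lp p (1 + ζ) (ω p)‖ ^ 2 :=
    Finset.prod_nonneg fun _ _ => by positivity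
  positivity

lemma bl_close {i : ℕ} {ζ : ℂ} {x : ℝ}
    (hx : EE (Ib y₀ θ z L i) (fun ω =>
      ‖(Mi S c i (ffx ω) : ℂ) * (∏ p ∈ Ib y₀ θ z L i, Lp p (1 + ζ) (ω p)) - 1‖ ^ 2) ≤ x) :
    bl S c y₀ θ z L i ζ ≤ (1 + √x) ^ 2 := by
  set F : (ℕ → ℝ) → ℝ := fun ω =>
    ‖(Mi S c i (ffx ω) : ℂ) * (∏ p ∈ Ib y₀ θ z L i, Lp p (1 + ζ) (ω p)) - 1‖ with hF
  have h1 : bl S c y₀ θ z L i ζ ≤ EE (Ib y₀ θ z L i) (fun ω => F ω ^ 2 + (2 * F ω + 1)) := by
    refine EE_mono Ib_one fun ω _ => ?_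
    have e1 : Mi S c i (ffx ω) ^ 2 * ∏ p ∈ Ib y₀ θ z L i, ‖Lp p (1 + ζ) (ω p)‖ ^ 2 =
        ‖(Mi S c i (ffx ω) : ℂ) * (∏ p ∈ Ib y₀ θ z L i, Lp p (1 + ζ) (ω p))‖ ^ 2 := by
      rw [norm_mul, mul_pow, Complex.norm_real, Real.norm_eq_abs, sq_abs, norm_prod,
        Finset.prod_pow]
    rw [e1]
    set w := (Mi S c i (ffx ω) : ℂ) * (∏ p ∈ Ib y₀ θ z L i, Lp p (1 + ζ) (ω p)) with hw
    have e2 : ‖w‖ ≤ F ω + 1 := by
      have := norm_add_le (w - 1) 1
      rw [sub_add_cancel, norm_one] at this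
      exact this
    calc ‖w‖ ^ 2 ≤ (F ω + 1) ^ 2 := by gcongr
      _ = _ := by ring
  have h2 : EE (Ib y₀ θ z L i) F ≤ √(EE (Ib y₀ θ z L i) (fun ω => F ω ^ 2)) := by
    have := EE_cs (Ib_one (y₀ := y₀) (θ := θ) (z := z) (L := L) (i := i)) F (fun _ => 1)
    simp only [mul_one, one_pow, EE_const, Real.sqrt_one] at this
    exact this
  rw [EE_add (Ib y₀ θ z L i) (fun ω => F ω ^ 2) (fun ω => 2 * F ω + 1),
    EE_add (Ib y₀ θ z L i) (fun ω => 2 * F ω) (fun _ => 1), EE_mul_left, EE_const] at h1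
  have h3 : 0 ≤ EE (Ib y₀ θ z L i) (fun ω => F ω ^ 2) :=
    EE_nonneg Ib_one fun ω _ => by positivity
  have h4 : √(EE (Ib y₀ θ z L i) (fun ω => F ω ^ 2)) ≤ √x := Real.sqrt_le_sqrt hx
  have h5 : x = √x ^ 2 := (Real.sq_sqrt (h3.trans hx)).symm
  have h6 : (1 + √x) ^ 2 = x + 2 * √x + 1 := by
    rw [add_sq, ← h5]; ring
  rw [h6]
  linarith

lemma E1_Lp4_nonneg {p : ℕ} (hp : 1 ≤ p) (ζ : ℂ) : 0 ≤ E1 p (fun x => ‖Lp p (1 + ζ) x‖ ^ 4) := by
  have := E1_mono hp (G := fun _ => 0) (H := fun x => ‖Lp p (1 + ζ) x‖ ^ 4)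
    (fun x _ => by positivity)
  rwa [E1_const] at this

lemma bl_four (hc : StCoef) {i : ℕ} {ζ : ℂ} (hζ : 0 ≤ ζ.re) {x : ℝ}
    (hx : EE (Ib y₀ θ z L i) (fun ω => Mi S c i (ffx ω) ^ 4) ≤ Real.exp x) :
    bl S c y₀ θ z L i ζ ≤
      Real.exp (x / 2 + 1500000 * ∑ p ∈ Ib y₀ θ z L i, (1 : ℝ) / p) := by
  have h1 := EE_cs (Ib_one (y₀ := y₀) (θ := θ) (z := z) (L := L) (i := i))
    (fun ω => Mi S c i (ffx ω) ^ 2) (fun ω => ∏ p ∈ Ib y₀ θ z L i, ‖Lp p (1 + ζ) (ω p)‖ ^ 2)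
  have e1 : (fun ω : ℕ → ℝ => (Mi S c i (ffx ω) ^ 2) ^ 2) = fun ω => Mi S c i (ffx ω) ^ 4 := by
    funext ω
    rw [← pow_mul]
  have e2 : (fun ω : ℕ → ℝ => (∏ p ∈ Ib y₀ θ z L i, ‖Lp p (1 + ζ) (ω p)‖ ^ 2) ^ 2) =
      fun ω => ∏ p ∈ Ib y₀ θ z L i, ‖Lp p (1 + ζ) (ω p)‖ ^ 4 := by
    funext ω
    rw [← Finset.prod_pow]
    exact Finset.prod_congr rfl fun p _ => by rw [← pow_mul]
  rw [e1, e2, EE_prod (Ib y₀ θ z L i) (fun p x => ‖Lp p (1 + ζ) x‖ ^ 4)] at h1
  refine h1.trans ?_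
  have h2 : ∏ p ∈ Ib y₀ θ z L i, E1 p (fun x => ‖Lp p (1 + ζ) x‖ ^ 4) ≤
      Real.exp (3000000 * ∑ p ∈ Ib y₀ θ z L i, (1 : ℝ) / p) := by
    rw [Finset.mul_sum, Real.exp_sum]
    refine Finset.prod_le_prod (fun p hp => E1_Lp4_nonneg (Ib_one p hp) ζ) fun p hp => ?_
    obtain ⟨-, hpp, hpb, -⟩ := mem_Ib.1 hp
    refine (P004G.H293.E1_Lp4 hc hpp (three_le hpp hpb) hζ).trans ?_
    have h3 : ‖tt p ζ‖ ^ 2 ≤ 1 / p := by
      rw [← P004G.H293.inv_sqrt_sq hpp.pos]
      have := norm_tt_le' (three_le hpp hpb) hζ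
      gcongr
    linarith [Real.add_one_le_exp (3000000 * (1 / (p : ℝ)))]
  have h3 : √(EE (Ib y₀ θ z L i) (fun ω => Mi S c i (ffx ω) ^ 4)) ≤ Real.exp (x / 2) := by
    refine (Real.sqrt_le_sqrt hx).trans (le_of_eq ?_)
    rw [← Real.exp_half]
  have h4 : √(∏ p ∈ Ib y₀ θ z L i, E1 p (fun x => ‖Lp p (1 + ζ) x‖ ^ 4)) ≤
      Real.exp (1500000 * ∑ p ∈ Ib y₀ θ z L i, (1 : ℝ) / p) := by
    refine (Real.sqrt_le_sqrt h2).trans (le_of_eq ?_)
    rw [← Real.exp_half]
    congr 1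
    ring
  rw [Real.exp_add]
  gcongr

lemma sqrt_add3 {a b d : ℝ} (ha : 0 ≤ a) (hb : 0 ≤ b) (hd : 0 ≤ d) :
    √(a + b + d) ≤ √a + √b + √d := by
  rw [Real.sqrt_le_left (by positivity)]
  nlinarith [Real.sq_sqrt ha, Real.sq_sqrt hb, Real.sq_sqrt hd, Real.sqrt_nonneg a,
    Real.sqrt_nonneg b, Real.sqrt_nonneg d, mul_nonneg (Real.sqrt_nonneg a) (Real.sqrt_nonneg b),
    mul_nonneg (Real.sqrt_nonneg a) (Real.sqrt_nonneg d),
    mul_nonneg (Real.sqrt_nonneg b) (Real.sqrt_nonneg d)]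

/-- the exponent -/
noncomputable def A1 (C₀ : ℝ) : ℝ := C₀ + 36000000

/-- the constant -/
noncomputable def Kb (C₀ : ℝ) : ℝ :=
  Real.exp (2 * √C₀ * (2 + 2 * √8 + (√K32 + 16 * √K54)))

lemma sum_exp_li (hz : 0 < z) (hθ : 0 < θ) (h1 : 1 ≤ li θ z 0) (h2 : 2 ≤ c₀ * θ * li θ z 0)
    (hc₀ : 0 < c₀) (J : Finset ℕ) : ∑ i ∈ J, Real.exp (-c₀ * li θ z i / 2) ≤ 2 := by
  refine half_sum (fun k j => ?_) fun i _ => ?_
  · have h3 : li θ z k + θ * j * li θ z 0 ≤ li θ z (k + j) := by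
      have e1 : li θ z (k + j) = (1 + θ) ^ j * li θ z k := by
        rw [li_eq' hz, li_eq' hz k, pow_add]; ring
      have e2 := one_add_le_pow hθ j
      have e3 : li θ z 0 ≤ li θ z k := by
        have := li_ge hz hθ (by linarith) k
        have : 0 ≤ li θ z 0 * (θ * k) := by positivity
        nlinarith
      rw [e1]
      have e4 : (1 + θ * j) * li θ z k ≤ (1 + θ) ^ j * li θ z k := by
        gcongr
        linarith
      have e5 : θ * j * li θ z 0 ≤ θ * j * li θ z k := by gcongr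
      nlinarith
    have h4 : ((1 : ℝ) / 2) ^ j = Real.exp (-Real.log 2 * j) := by
      rw [Real.exp_mul, Real.exp_neg, Real.exp_log (by norm_num), Real.rpow_natCast]
      norm_num
    rw [h4, ← Real.exp_add]
    apply Real.exp_le_exp.2
    have h5 : c₀ * (li θ z k + θ * j * li θ z 0) ≤ c₀ * li θ z (k + j) := by gcongr
    have h6 : Real.log 2 * j ≤ c₀ * (θ * j * li θ z 0) / 2 := by
      have h7 : Real.log 2 ≤ 1 := by linarith [Real.log_two_lt_d9]
      have h8 : (0 : ℝ) ≤ j := by positivity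
      have h9 : 2 * (j : ℝ) ≤ c₀ * θ * li θ z 0 * j := by gcongr
      nlinarith
    linarith
  · apply Real.exp_le_one_iff.2
    have := li_one_le hz hθ h1 i
    have : 0 < c₀ * li θ z i := by positivity
    linarith

/-- the product of the blocks -/
theorem bl_prod (hc : StCoef) (hC₀ : 1 ≤ C₀) (hc₀ : 0 < c₀) (hz : 0 < z) (hθ : 0 < θ)
    (h1 : 1 ≤ li θ z 0) (h2 : 2 ≤ c₀ * θ * li θ z 0) (hL : 0 < L) (hLz : 1 ≤ L * z)
    (hB : BlkOK C₀ c₀ η y₀ θ z L S c) {i₀ : ℕ} (hi₀ : i₀ ≤ nb θ z L) {ζ : ℂ} (hζ : 0 ≤ ζ.re)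
    (hζ1 : ζ.re ≤ 1) :
    ∏ i ∈ Ico i₀ (nb θ z L + 1), bl S c y₀ θ z L i ζ ≤
      Kb C₀ * (1 + ‖ζ‖ * (L * zi θ z i₀)) ^ A1 C₀ * (1 + ‖ζ‖ * L) ^ (A1 C₀ * θ) := by
  classical
  set n := nb θ z L with hn
  set J := Ico i₀ (n + 1) with hJ
  set T := ‖ζ‖ with hT
  have hT0 : 0 ≤ T := norm_nonneg _
  set J1 := J.filter (fun i => 1 < T * (L * zi θ z i)) with hJ1
  set J2 := J.filter (fun i => ¬ 1 < T * (L * zi θ z i)) with hJ2
  have hA1 : 0 < A1 C₀ := by unfold A1; linarith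
  have hsplit : ∏ i ∈ J, bl S c y₀ θ z L i ζ =
      (∏ i ∈ J1, bl S c y₀ θ z L i ζ) * ∏ i ∈ J2, bl S c y₀ θ z L i ζ :=
    (Finset.prod_filter_mul_prod_filter_not J _ _).symm
  have hin : ∀ i ∈ J, i ≤ n := fun i hi => by
    have := (mem_Ico.1 hi).2
    omega
  -- the large blocks
  have hbig : ∏ i ∈ J1, bl S c y₀ θ z L i ζ ≤ Real.exp (A1 C₀ * ∑ i ∈ J1, li θ z i) := by
    rw [Finset.mul_sum, Real.exp_sum]
    refine Finset.prod_le_prod (fun i _ => bl_nonneg i ζ) fun i hi => ?_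
    have hi' := hin i (mem_filter.1 hi).1
    refine (bl_four hc hζ (hB.four i hi')).trans (Real.exp_le_exp.2 ?_)
    have h3 := sum_inv_Ib (y₀ := y₀) hz hθ h1 hL hLz hi'
    have h4 := li_one_le hz hθ h1 i
    unfold A1
    have h5 : C₀ * (1 + li θ z i) / 2 ≤ C₀ * li θ z i := by nlinarith
    linarith
  have hl : A1 C₀ * ∑ i ∈ J1, li θ z i ≤
      A1 C₀ * (Real.log (1 + T * (L * zi θ z i₀)) + θ * Real.log (1 + T * L)) := by
    refine mul_le_mul_of_nonneg_left ?_ hA1.le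
    have hp0 : 0 ≤ T * (L * zi θ z i₀) := by
      have := zi_pos (θ := θ) hz i₀
      positivity
    have hq0 : 0 ≤ T * L := by positivity
    rcases J1.eq_empty_or_nonempty with h | h
    · rw [h, Finset.sum_empty]
      have a1 : 0 ≤ Real.log (1 + T * (L * zi θ z i₀)) := Real.log_nonneg (by linarith)
      have a2 : 0 ≤ Real.log (1 + T * L) := Real.log_nonneg (by linarith)
      positivity
    · set k := J1.max' h with hk
      have hkJ : k ∈ J1 := J1.max'_mem h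
      obtain ⟨hkJ', hkT⟩ := mem_filter.1 hkJ
      have hsub : J1 ⊆ Ico i₀ (k + 1) := by
        intro i hi
        have := J1.le_max' i hi
        have h5 := (mem_Ico.1 (mem_filter.1 hi).1).1
        rw [mem_Ico]
        omega
      have h3 : ∑ i ∈ J1, li θ z i ≤ ∑ i ∈ Ico i₀ (k + 1), li θ z i :=
        Finset.sum_le_sum_of_subset_of_nonneg hsub fun i _ _ => by
          linarith [li_one_le hz hθ h1 i]
      have h4 : ∑ i ∈ Ico i₀ (k + 1), li θ z i =
          Real.log (zi θ z i₀) - Real.log (zi θ z (k + 1)) := by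
        have h5 : i₀ ≤ k + 1 := by
          have := (mem_Ico.1 hkJ').1
          omega
        rw [Finset.sum_congr rfl fun i _ => li_eq hz i]
        rw [Finset.sum_Ico_eq_sub _ h5, Finset.sum_range_sub', Finset.sum_range_sub']
        ring
      have hk0 := zi_pos (θ := θ) hz k
      have hTL : 0 < T * L := by
        by_contra hcon
        have : T * L = 0 := le_antisymm (not_lt.1 hcon) hq0
        rw [← mul_assoc, this, zero_mul] at hkT
        linarith
      have h6 : -Real.log (zi θ z k) ≤ Real.log (T * L) := by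
        rw [← Real.log_inv]
        apply Real.log_le_log (by positivity)
        rw [inv_le_comm₀ hk0 hTL, inv_le_iff_one_le_mul₀ hTL]
        linarith
      have h7 : Real.log (zi θ z (k + 1)) = (1 + θ) * Real.log (zi θ z k) := by
        rw [zi_succ hz, Real.log_rpow hk0]
      have h8 : Real.log (zi θ z i₀) + Real.log (T * L) = Real.log (T * (L * zi θ z i₀)) := by
        rw [← Real.log_mul (zi_pos hz _).ne' hTL.ne']
        congr 1
        ring
      have h9 : Real.log (T * (L * zi θ z i₀)) ≤ Real.log (1 + T * (L * zi θ z i₀)) := by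
        apply Real.log_le_log
        · have := zi_pos (θ := θ) hz i₀
          rw [← mul_assoc]
          positivity
        · linarith
      have h10 : Real.log (T * L) ≤ Real.log (1 + T * L) := Real.log_le_log hTL (by linarith)
      have h11 : θ * Real.log (T * L) ≤ θ * Real.log (1 + T * L) := by gcongr
      have h12 : θ * -Real.log (zi θ z k) ≤ θ * Real.log (T * L) := by gcongr
      linarith
  -- the small blocks
  have hsmall : ∏ i ∈ J2, bl S c y₀ θ z L i ζ ≤ Kb C₀ := by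
    set e32 : ℕ → ℝ := fun i => ∑ p ∈ Ib y₀ θ z L i, (p : ℝ) ^ (-3 / 2 : ℝ) with he32
    have he320 : ∀ i, 0 ≤ e32 i := fun i => Finset.sum_nonneg fun _ _ => by positivity
    have hone : ∀ i ∈ J2, bl S c y₀ θ z L i ζ ≤ Real.exp (2 * √C₀ *
        (Real.exp (-c₀ * li θ z i / 2) + √8 * (T * (L * zi θ z i)) + √(e32 i))) := by
      intro i hi
      have hi' := hin i (mem_filter.1 hi).1
      have h3 := bl_close (hB.close i hi' (1 + ζ) (by
        rw [Complex.add_re, Complex.one_re]; linarith) (by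
        rw [Complex.add_re, Complex.one_re]; linarith) (by
        rw [add_sub_cancel_left]; exact not_lt.1 (mem_filter.1 hi).2))
      have h4 : ‖(1 + ζ : ℂ) - 1‖ = T := by rw [add_sub_cancel_left]
      rw [h4] at h3
      have h5 := sum_log2_Ib (y₀ := y₀) (θ := θ) hLz hi'
      set l2 := ∑ p ∈ Ib y₀ θ z L i, Real.log p ^ 2 / (p : ℝ) with hl2
      have hl20 : 0 ≤ l2 := Finset.sum_nonneg fun _ _ => by positivity
      have h6 : √(C₀ * (Real.exp (-c₀ * li θ z i) + T ^ 2 * l2 + e32 i)) ≤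
          √C₀ * (Real.exp (-c₀ * li θ z i / 2) + √8 * (T * (L * zi θ z i)) + √(e32 i)) := by
        rw [Real.sqrt_mul (by linarith)]
        refine mul_le_mul_of_nonneg_left ?_ (Real.sqrt_nonneg _)
        refine (sqrt_add3 (Real.exp_pos _).le (by positivity) (he320 i)).trans ?_
        have h7 : √(Real.exp (-c₀ * li θ z i)) = Real.exp (-c₀ * li θ z i / 2) := by
          rw [← Real.exp_half]
        have h8 : √(T ^ 2 * l2) ≤ √8 * (T * (L * zi θ z i)) := by
          have hzi := zi_pos (θ := θ) hz i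
          calc √(T ^ 2 * l2) ≤ √(T ^ 2 * (8 * (L * zi θ z i) ^ 2)) := by
                apply Real.sqrt_le_sqrt
                gcongr
            _ = √(8 * (T * (L * zi θ z i)) ^ 2) := by congr 1; ring
            _ = √8 * (T * (L * zi θ z i)) := by
                rw [Real.sqrt_mul (by norm_num), Real.sqrt_sq (by positivity)]
        rw [h7]
        linarith
      refine h3.trans ?_
      have h9 : (1 + √(C₀ * (Real.exp (-c₀ * li θ z i) + T ^ 2 * l2 + e32 i))) ^ 2 ≤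
          Real.exp (2 * √(C₀ * (Real.exp (-c₀ * li θ z i) + T ^ 2 * l2 + e32 i))) := by
        rw [show (2 : ℝ) * √(C₀ * (Real.exp (-c₀ * li θ z i) + T ^ 2 * l2 + e32 i)) =
          ((2 : ℕ) : ℝ) * √(C₀ * (Real.exp (-c₀ * li θ z i) + T ^ 2 * l2 + e32 i)) by norm_num,
          Real.exp_nat_mul]
        refine pow_le_pow_left₀ (by positivity) ?_ 2
        linarith [Real.add_one_le_exp (√(C₀ * (Real.exp (-c₀ * li θ z i) + T ^ 2 * l2 + e32 i)))]
      refine h9.trans (Real.exp_le_exp.2 ?_)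
      rw [mul_assoc]
      linarith
    have hprod : ∏ i ∈ J2, bl S c y₀ θ z L i ζ ≤ Real.exp (∑ i ∈ J2, 2 * √C₀ *
        (Real.exp (-c₀ * li θ z i / 2) + √8 * (T * (L * zi θ z i)) + √(e32 i))) := by
      rw [Real.exp_sum]
      exact Finset.prod_le_prod (fun i _ => bl_nonneg i ζ) hone
    refine hprod.trans ?_
    unfold Kb
    apply Real.exp_le_exp.2
    rw [← Finset.mul_sum, Finset.sum_add_distrib, Finset.sum_add_distrib, ← Finset.mul_sum]
    have s1 := sum_exp_li hz hθ h1 h2 hc₀ J2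
    have s2 : ∑ i ∈ J2, T * (L * zi θ z i) ≤ 2 := by
      refine half_sum (fun k j => ?_) fun i hi => not_lt.1 (mem_filter.1 hi).2
      have := zi_half_pow hz hθ h1 k j
      calc T * (L * zi θ z (k + j)) ≤ T * (L * (zi θ z k * (1 / 2) ^ j)) := by gcongr
        _ = _ := by ring
    have s3 : ∑ i ∈ J2, √(e32 i) ≤ √K32 + 16 * √K54 := by
      have h3 : ∑ i ∈ J2, √(e32 i) ≤ ∑ i ∈ range (n + 1), √(e32 i) := by
        refine Finset.sum_le_sum_of_subset_of_nonneg (fun i hi => ?_) fun i _ _ =>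
          Real.sqrt_nonneg _
        rw [mem_range]
        have := hin i (mem_filter.1 hi).1
        omega
      rw [Finset.sum_range_succ] at h3
      have h4 : √(e32 n) ≤ √K32 := by
        apply Real.sqrt_le_sqrt
        have := sum32 (Ib y₀ θ z L n)
        simp only [he32]
        refine le_trans (le_of_eq ?_) this
        refine Finset.sum_congr rfl fun p _ => ?_
        congr 1
        norm_num
      have h5 : ∀ i ∈ range n, √(e32 i) ≤ (8 * √K54) * (1 / 2) ^ (n - 1 - i) := by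
        intro i hi
        have hi' : i < n := mem_range.1 hi
        have h6 : √(e32 i) ≤ √K54 * Real.exp (-(L * zi θ z (i + 1) / 4) / 2) := by
          have := Real.sqrt_le_sqrt (sum_32_Ib (y₀ := y₀) (θ := θ) (z := z) (L := L) hi')
          rwa [Real.sqrt_mul K54_nonneg, ← Real.exp_half] at this
        have h7 : (2 : ℝ) ^ (n - 1 - i) ≤ L * zi θ z (i + 1) := by
          have h8 := zi_half_pow hz hθ h1 (i + 1) (n - 1 - i)
          rw [show i + 1 + (n - 1 - i) = n by omega] at h8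
          have h9 := nb_ge (θ := θ) hLz le_rfl
          rw [← hn] at h9
          have h10 : (1 : ℝ) ≤ L * zi θ z (i + 1) * (1 / 2) ^ (n - 1 - i) := by
            calc (1 : ℝ) ≤ L * zi θ z n := h9
              _ ≤ L * (zi θ z (i + 1) * (1 / 2) ^ (n - 1 - i)) := by gcongr
              _ = _ := by ring
          rw [one_div, inv_pow, ← div_eq_mul_inv, le_div_iff₀ (by positivity)] at h10
          linarith
        have h8 : Real.exp (-(L * zi θ z (i + 1) / 4) / 2) ≤ 8 * (1 / 2) ^ (n - 1 - i) := by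
          set y := L * zi θ z (i + 1) with hy
          have hy0 : 0 < y := lt_of_lt_of_le (by positivity) h7
          have h9 : Real.exp (-(y / 4) / 2) ≤ 8 / y := by
            have h10 : y / 8 ≤ Real.exp (y / 8) := by
              linarith [Real.add_one_le_exp (y / 8)]
            have e : -(y / 4) / 2 = -(y / 8) := by ring
            rw [e, Real.exp_neg, show (8 : ℝ) / y = (y / 8)⁻¹ by rw [inv_div]]
            exact inv_anti₀ (by positivity) h10
          refine h9.trans ?_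
          rw [one_div, inv_pow, div_eq_mul_inv]
          gcongr
        calc √(e32 i) ≤ √K54 * Real.exp (-(L * zi θ z (i + 1) / 4) / 2) := h6
          _ ≤ √K54 * (8 * (1 / 2) ^ (n - 1 - i)) := by gcongr
          _ = _ := by ring
      have h6 : ∑ i ∈ range n, √(e32 i) ≤ 16 * √K54 := by
        refine (Finset.sum_le_sum h5).trans ?_
        rw [← Finset.mul_sum, Finset.sum_range_reflect (fun j => (1 / 2 : ℝ) ^ j)]
        have h7 := (summable_geometric_of_lt_one (r := (1 / 2 : ℝ)) (by norm_num)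
          (by norm_num)).sum_le_tsum (range n) (fun _ _ => by positivity)
        rw [tsum_geometric_of_lt_one (by norm_num) (by norm_num)] at h7
        norm_num at h7
        have h8 := Real.sqrt_nonneg K54
        nlinarith
      linarith
    have hC0 : 0 ≤ 2 * √C₀ := by positivity
    refine mul_le_mul_of_nonneg_left ?_ hC0
    have h8 : √8 * ∑ i ∈ J2, T * (L * zi θ z i) ≤ 2 * √8 := by
      have := Real.sqrt_nonneg 8
      nlinarith
    linarith
  rw [hsplit]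
  have h3 : Real.exp (A1 C₀ * (Real.log (1 + T * (L * zi θ z i₀)) + θ * Real.log (1 + T * L))) =
      (1 + T * (L * zi θ z i₀)) ^ A1 C₀ * (1 + T * L) ^ (A1 C₀ * θ) := by
    have hp0 : 0 ≤ T * (L * zi θ z i₀) := by
      have := zi_pos (θ := θ) hz i₀
      positivity
    have hq0 : 0 ≤ T * L := by positivity
    rw [Real.rpow_def_of_pos (by linarith), Real.rpow_def_of_pos (by linarith), ← Real.exp_add]
    congr 1
    ring
  calc (∏ i ∈ J1, bl S c y₀ θ z L i ζ) * ∏ i ∈ J2, bl S c y₀ θ z L i ζ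
      ≤ Real.exp (A1 C₀ * (Real.log (1 + T * (L * zi θ z i₀)) + θ * Real.log (1 + T * L))) *
        Kb C₀ := by
        refine mul_le_mul (hbig.trans (Real.exp_le_exp.2 hl)) hsmall
          (Finset.prod_nonneg fun i _ => bl_nonneg i ζ) (Real.exp_pos _).le
    _ = _ := by rw [h3]; ring

end P004G.E3W
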