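import Vale.Agent.P004G.H128.Pass3
import Vale.Agent.P004G.H293.RA
import Vale.Agent.P004G.H293.SP

/-!
# P004E, module W (part 1): complex-valued expectations in the random model
-/

open Finset Real

namespace P004G.E3W

open P004.H293

/-- complex expectation over the coordinates in `S` -/
noncomputable def EEc (S : Finset ℕ) (F : (ℕ → ℝ) → ℂ) : ℂ :=
  (EE S (fun ω => (F ω).re) : ℂ) + (EE S (fun ω => (F ω).im) : ℂ) * Complex.I

lemma EEc_re (S : Finset ℕ) (F : (ℕ → ℝ) → ℂ) : (EEc S F).re = EE S (fun ω => (F ω).re) := by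
  simp [EEc]

lemma EEc_im (S : Finset ℕ) (F : (ℕ → ℝ) → ℂ) : (EEc S F).im = EE S (fun ω => (F ω).im) := by
  simp [EEc]

lemma EEc_congr {S : Finset ℕ} {F G : (ℕ → ℝ) → ℂ} (h : ∀ ω, Adm S ω → F ω = G ω) :
    EEc S F = EEc S G := by
  unfold EEc
  rw [EE_congr (F := fun ω => (F ω).re) (G := fun ω => (G ω).re) fun ω hω => by rw [h ω hω],
    EE_congr (F := fun ω => (F ω).im) (G := fun ω => (G ω).im) fun ω hω => by rw [h ω hω]]

lemma EEc_mul_left (S : Finset ℕ) (c : ℂ) (F : (ℕ → ℝ) → ℂ) :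
    EEc S (fun ω => c * F ω) = c * EEc S F := by
  apply Complex.ext
  · rw [EEc_re, Complex.mul_re, EEc_re, EEc_im, ← EE_mul_left, ← EE_mul_left, ← EE_sub]
    simp only [Complex.mul_re]
  · rw [EEc_im, Complex.mul_im, EEc_re, EEc_im, ← EE_mul_left, ← EE_mul_left, ← EE_add]
    simp only [Complex.mul_im]

lemma EEc_ofReal (S : Finset ℕ) (F : (ℕ → ℝ) → ℝ) :
    EEc S (fun ω => (F ω : ℂ)) = (EE S F : ℂ) := by
  unfold EEc
  simp [EE_const]

lemma norm_EEc_le {S : Finset ℕ} (hS : ∀ p ∈ S, 1 ≤ p) (F : (ℕ → ℝ) → ℂ) :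
    ‖EEc S F‖ ≤ EE S (fun ω => ‖F ω‖) := by
  have h0 : 0 ≤ EE S (fun ω => ‖F ω‖) := EE_nonneg hS fun ω _ => norm_nonneg _
  rcases eq_or_ne (EEc S F) 0 with h | h
  · rw [h, norm_zero]; exact h0
  have hz : 0 < ‖EEc S F‖ := norm_pos_iff.2 h
  set z := EEc S F with hzdef
  have h1 : ‖z‖ ^ 2 = ((starRingEnd ℂ) z * z).re := by
    rw [← Complex.normSq_eq_conj_mul_self, Complex.ofReal_re, Complex.normSq_eq_norm_sq]
  have h2 : ((starRingEnd ℂ) z * z).re ≤ ‖z‖ * EE S (fun ω => ‖F ω‖) := by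
    conv_lhs => rw [hzdef]
    rw [← EEc_mul_left, EEc_re, ← EE_mul_left]
    refine EE_mono hS fun ω _ => ?_
    refine (Complex.re_le_norm _).trans ?_
    rw [norm_mul, RCLike.norm_conj]
  have h3 : ‖z‖ * ‖z‖ ≤ ‖z‖ * EE S (fun ω => ‖F ω‖) := by
    rw [← sq, h1]; exact h2
  exact le_of_mul_le_mul_left h3 hz

/-- `F` depends only on the coordinates in `S` -/
def DepC (S : Finset ℕ) (F : (ℕ → ℝ) → ℂ) : Prop :=
  ∀ ω ω' : ℕ → ℝ, (∀ p ∈ S, ω p = ω' p) → F ω = F ω'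

lemma DepC.mono {S T : Finset ℕ} {F : (ℕ → ℝ) → ℂ} (h : DepC S F) (hST : S ⊆ T) : DepC T F :=
  fun ω ω' hω => h ω ω' fun p hp => hω p (hST hp)

lemma DepC.mul {S : Finset ℕ} {F G : (ℕ → ℝ) → ℂ} (hF : DepC S F) (hG : DepC S G) :
    DepC S (fun ω => F ω * G ω) := by
  intro ω ω' h
  simp only [hF ω ω' h, hG ω ω' h]

lemma DepC.prod {ι : Type*} {S : Finset ℕ} (T : Finset ι) {F : ι → (ℕ → ℝ) → ℂ}
    (hF : ∀ i ∈ T, DepC S (F i)) : DepC S (fun ω => ∏ i ∈ T, F i ω) := by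
  intro ω ω' h
  exact Finset.prod_congr rfl fun i hi => hF i hi ω ω' h

lemma DepC.re {S : Finset ℕ} {F : (ℕ → ℝ) → ℂ} (h : DepC S F) : DepOn S (fun ω => (F ω).re) :=
  fun ω ω' hω => by simp only [h ω ω' hω]

lemma DepC.im {S : Finset ℕ} {F : (ℕ → ℝ) → ℂ} (h : DepC S F) : DepOn S (fun ω => (F ω).im) :=
  fun ω ω' hω => by simp only [h ω ω' hω]

/-- independence -/
theorem EEc_union {S T : Finset ℕ} (hST : Disjoint S T) {F G : (ℕ → ℝ) → ℂ} (hF : DepC S F)
    (hG : DepC T G) : EEc (S ∪ T) (fun ω => F ω * G ω) = EEc S F * EEc T G := by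
  apply Complex.ext
  · rw [EEc_re, Complex.mul_re, EEc_re, EEc_re, EEc_im, EEc_im, ← EE_union hST hF.re hG.re,
      ← EE_union hST hF.im hG.im, ← EE_sub]
    simp only [Complex.mul_re]
  · rw [EEc_im, Complex.mul_im, EEc_re, EEc_re, EEc_im, EEc_im, ← EE_union hST hF.re hG.im,
      ← EE_union hST hF.im hG.re, ← EE_add]
    simp only [Complex.mul_im]

/-- independence over a finite family of pairwise disjoint blocks -/
theorem EEc_biUnion {ι : Type*} [DecidableEq ι] (J : Finset ι) (I : ι → Finset ℕ)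
    (hI : (J : Set ι).PairwiseDisjoint I) (F : ι → (ℕ → ℝ) → ℂ)
    (hF : ∀ i ∈ J, DepC (I i) (F i)) :
    EEc (J.biUnion I) (fun ω => ∏ i ∈ J, F i ω) = ∏ i ∈ J, EEc (I i) (F i) := by
  classical
  induction J using Finset.induction_on with
  | empty =>
    have := EEc_ofReal ∅ (fun _ => 1)
    rw [EE_const] at this
    simpa using this
  | insert i J hi ih =>
    have hI' : (J : Set ι).PairwiseDisjoint I := hI.subset (by simp)
    rw [Finset.biUnion_insert, Finset.prod_insert hi,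
      ← ih hI' (fun j hj => hF j (mem_insert_of_mem hj)), ← EEc_union]
    · congr 1
      funext ω
      rw [Finset.prod_insert hi]
    · rw [Finset.disjoint_biUnion_right]
      intro j hj
      exact hI (by simp) (by simp [hj]) (fun h => hi (h ▸ hj))
    · exact hF i (mem_insert_self _ _)
    · refine DepC.prod J fun j hj => (hF j (mem_insert_of_mem hj)).mono ?_
      exact Finset.subset_biUnion_of_mem I hj

/-- expectation over one coordinate -/
noncomputable def E1c (p : ℕ) (G : ℝ → ℂ) : ℂ :=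
  1 / p * G 0 + (1 - 1 / p) / 2 * (G 1 + G (-1))

lemma EEc_singleton (p : ℕ) (G : ℝ → ℂ) : EEc {p} (fun ω => G (ω p)) = E1c p G := by
  have hr : ∀ r : ℝ, ((1 : ℂ) / p) = ((1 / p : ℝ) : ℂ) := fun _ => by push_cast; rfl
  apply Complex.ext
  · rw [EEc_re, EE_singleton p (fun x => (G x).re)]
    unfold E1 E1c
    rw [hr 0, show ((1 : ℂ) - ((1 / p : ℝ) : ℂ)) / 2 = (((1 - 1 / p) / 2 : ℝ) : ℂ) by
      push_cast; ring]
    rw [Complex.add_re, Complex.re_ofReal_mul, Complex.re_ofReal_mul, Complex.add_re]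
  · rw [EEc_im, EE_singleton p (fun x => (G x).im)]
    unfold E1 E1c
    rw [hr 0, show ((1 : ℂ) - ((1 / p : ℝ) : ℂ)) / 2 = (((1 - 1 / p) / 2 : ℝ) : ℂ) by
      push_cast; ring]
    rw [Complex.add_im, Complex.im_ofReal_mul, Complex.im_ofReal_mul, Complex.add_im]

/-- the expectation of a product of functions of single coordinates -/
theorem EEc_prod (S : Finset ℕ) (G : ℕ → ℝ → ℂ) :
    EEc S (fun ω => ∏ p ∈ S, G p (ω p)) = ∏ p ∈ S, E1c p (G p) := by
  classical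
  have h := EEc_biUnion S (fun p => {p}) (by
    intro p _ q _ hpq
    simpa [Function.onFun] using hpq) (fun p ω => G p (ω p)) (by
    intro p _ ω ω' h
    simp only
    rw [h p (by simp)])
  simp only [EEc_singleton] at h
  rw [← h]
  congr 1
  ext p
  simp

/-- coordinates on which the function does not depend can be dropped -/
theorem EEc_of_dep {S T : Finset ℕ} (hST : S ⊆ T) {F : (ℕ → ℝ) → ℂ} (hF : DepC S F) :
    EEc T F = EEc S F := by
  unfold EEc
  rw [EE_of_depOn hST hF.re, EE_of_depOn hST hF.im]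

/-! ### the expectation over the random characters -/

/-- the complex expectation over the random characters -/
noncomputable def ENc (N : ℕ) (G : (ℕ → ℝ) → ℂ) : ℂ :=
  ∑ ω : Fin N → SignType, ((∏ i : Fin N, wp i (ω i) : ℝ) : ℂ) * G (Xf ω)

lemma ENc_re (N : ℕ) (G : (ℕ → ℝ) → ℂ) : (ENc N G).re = EN N (fun X => (G X).re) := by
  unfold ENc EN
  rw [Complex.re_sum]
  exact Finset.sum_congr rfl fun ω _ => Complex.re_ofReal_mul _ _

lemma ENc_im (N : ℕ) (G : (ℕ → ℝ) → ℂ) : (ENc N G).im = EN N (fun X => (G X).im) := by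
  unfold ENc EN
  rw [Complex.im_sum]
  exact Finset.sum_congr rfl fun ω _ => Complex.im_ofReal_mul _ _

theorem ENc_eq (N : ℕ) (G : (ℕ → ℝ) → ℂ) :
    ENc N G = EEc (range N) (fun ω => G (P004.H628.ffx ω)) := by
  apply Complex.ext
  · rw [ENc_re, EEc_re, P004.H628.EN_eq]
  · rw [ENc_im, EEc_im, P004.H628.EN_eq]

lemma ENc_ofReal (N : ℕ) (G : (ℕ → ℝ) → ℝ) : ENc N (fun X => (G X : ℂ)) = (EN N G : ℂ) := by
  unfold ENc EN
  push_cast
  rfl

/-- Cauchy-Schwarz for the weighted expectation -/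
lemma EE_cs {S : Finset ℕ} (hS : ∀ p ∈ S, 1 ≤ p) (F G : (ℕ → ℝ) → ℝ) :
    EE S (fun ω => F ω * G ω) ≤ √(EE S (fun ω => F ω ^ 2)) * √(EE S (fun ω => G ω ^ 2)) := by
  have hA : 0 ≤ EE S (fun ω => F ω ^ 2) := EE_nonneg hS fun ω _ => sq_nonneg _
  have hB : 0 ≤ EE S (fun ω => G ω ^ 2) := EE_nonneg hS fun ω _ => sq_nonneg _
  rw [← Real.sqrt_mul hA]
  refine Real.le_sqrt_of_sq_le ?_
  have hq : ∀ t : ℝ, 0 ≤ EE S (fun ω => F ω ^ 2) * (t * t) +
      2 * EE S (fun ω => F ω * G ω) * t + EE S (fun ω => G ω ^ 2) := by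
    intro t
    have h1 : 0 ≤ EE S (fun ω => (t * F ω + G ω) ^ 2) := EE_nonneg hS fun ω _ => sq_nonneg _
    have h2 : EE S (fun ω => (t * F ω + G ω) ^ 2) = EE S (fun ω => F ω ^ 2) * (t * t) +
        2 * EE S (fun ω => F ω * G ω) * t + EE S (fun ω => G ω ^ 2) := by
      have e : (fun ω : ℕ → ℝ => (t * F ω + G ω) ^ 2) = fun ω =>
          (t * t) * F ω ^ 2 + (2 * t) * (F ω * G ω) + G ω ^ 2 := by
        funext ω; ring
      rw [e, EE_add S (fun ω => (t * t) * F ω ^ 2 + (2 * t) * (F ω * G ω)) (fun ω => G ω ^ 2),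
        EE_add S (fun ω => (t * t) * F ω ^ 2) (fun ω => (2 * t) * (F ω * G ω)),
        EE_mul_left, EE_mul_left]
      ring
    rwa [h2] at h1
  have hd := discrim_le_zero hq
  unfold discrim at hd
  nlinarith

end P004G.E3W
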