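import Vale.Agent.P004E.H3.EC

/-!
# P004E, module W (part 4): the two-point Euler factor
-/

open Finset Real

namespace P004G.E3W

variable [Crv]

open P004G.H293 (Lp tt norm_tt_le norm_tt_le' den_lower' abs_lam_le Lp_eq inv_sqrt_le inv_sqrt_sq)

/-- second order expansion of the Euler factor -/
lemma inv_expand {l : ℝ} (hl : |l| ≤ 2) {t : ℂ} {r : ℝ} (ht : ‖t‖ ≤ r) (hr : r ≤ 3 / 5) :
    ‖(1 - l * t + t ^ 2)⁻¹ - (1 + l * t + ((l : ℂ) ^ 2 - 1) * t ^ 2)‖ ≤ 100 * r ^ 3 ∧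
    ‖(1 - l * t + t ^ 2)⁻¹‖ ≤ 25 / 4 ∧ ‖1 + l * t + ((l : ℂ) ^ 2 - 1) * t ^ 2‖ ≤ 4 := by
  have hr0 : 0 ≤ r := (norm_nonneg _).trans ht
  set D : ℂ := 1 - l * t + t ^ 2 with hD
  have hDn : 4 / 25 ≤ ‖D‖ := den_lower' hl (ht.trans hr)
  have hD0 : D ≠ 0 := by
    intro h; rw [h, norm_zero] at hDn; norm_num at hDn
  have hl' : ‖(l : ℂ)‖ ≤ 2 := by simpa using hl
  have h2 : ‖D⁻¹‖ ≤ 25 / 4 := by
    rw [norm_inv, show (25 / 4 : ℝ) = (4 / 25)⁻¹ by norm_num]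
    exact inv_anti₀ (by norm_num) hDn
  have hl2 : ‖(l : ℂ) ^ 2 - 1‖ ≤ 3 := by
    have e : (l : ℂ) ^ 2 - 1 = ((l ^ 2 - 1 : ℝ) : ℂ) := by push_cast; ring
    rw [e, Complex.norm_real, Real.norm_eq_abs, abs_le]
    have h3 : l ^ 2 ≤ 4 := by
      have := sq_le_sq' (abs_le.1 hl).1 (abs_le.1 hl).2
      linarith
    constructor
    · nlinarith [sq_nonneg l]
    · linarith
  have hl3 : ‖2 * (l : ℂ) - (l : ℂ) ^ 3‖ ≤ 12 := by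
    calc ‖2 * (l : ℂ) - (l : ℂ) ^ 3‖ ≤ ‖2 * (l : ℂ)‖ + ‖(l : ℂ) ^ 3‖ := norm_sub_le _ _
      _ = 2 * ‖(l : ℂ)‖ + ‖(l : ℂ)‖ ^ 3 := by rw [norm_mul, norm_pow]; simp
      _ ≤ 2 * 2 + 2 ^ 3 := by gcongr
      _ = 12 := by norm_num
  refine ⟨?_, h2, ?_⟩
  · have heq : D⁻¹ - (1 + l * t + ((l : ℂ) ^ 2 - 1) * t ^ 2) =
        -((2 * (l : ℂ) - (l : ℂ) ^ 3) * t ^ 3 + ((l : ℂ) ^ 2 - 1) * t ^ 4) * D⁻¹ := by
      field_simp
      rw [hD]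
      ring
    rw [heq, norm_mul, norm_neg]
    have h3 : ‖(2 * (l : ℂ) - (l : ℂ) ^ 3) * t ^ 3 + ((l : ℂ) ^ 2 - 1) * t ^ 4‖ ≤ 14 * r ^ 3 := by
      calc _ ≤ ‖(2 * (l : ℂ) - (l : ℂ) ^ 3) * t ^ 3‖ + ‖((l : ℂ) ^ 2 - 1) * t ^ 4‖ :=
            norm_add_le _ _
        _ = ‖2 * (l : ℂ) - (l : ℂ) ^ 3‖ * ‖t‖ ^ 3 + ‖(l : ℂ) ^ 2 - 1‖ * ‖t‖ ^ 4 := by
            rw [norm_mul, norm_mul, norm_pow, norm_pow]
        _ ≤ 12 * r ^ 3 + 3 * r ^ 4 := by gcongr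
        _ ≤ 14 * r ^ 3 := by
            have h5 : r ^ 4 ≤ 3 / 5 * r ^ 3 := by
              rw [pow_succ r 3, mul_comm]
              gcongr
            have h6 : 0 ≤ r ^ 3 := by positivity
            linarith
    calc _ ≤ 14 * r ^ 3 * (25 / 4) := by gcongr
      _ ≤ 100 * r ^ 3 := by
          have h6 : 0 ≤ r ^ 3 := by positivity
          linarith
  · calc ‖1 + l * t + ((l : ℂ) ^ 2 - 1) * t ^ 2‖ ≤ ‖1 + l * t‖ + ‖((l : ℂ) ^ 2 - 1) * t ^ 2‖ :=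
          norm_add_le _ _
      _ ≤ (‖(1 : ℂ)‖ + ‖l * t‖) + ‖((l : ℂ) ^ 2 - 1) * t ^ 2‖ := by gcongr; exact norm_add_le _ _
      _ = (1 + ‖(l : ℂ)‖ * ‖t‖) + ‖(l : ℂ) ^ 2 - 1‖ * ‖t‖ ^ 2 := by
          rw [norm_mul, norm_mul, norm_pow, norm_one]
      _ ≤ (1 + 2 * (3 / 5)) + 3 * (3 / 5) ^ 2 := by
          have := ht.trans hr
          gcongr
      _ ≤ 4 := by norm_num

/-- the second order term of the two-point factor -/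
noncomputable def qt (l : ℝ) (t u : ℂ) : ℂ :=
  (l : ℂ) ^ 2 * (t * u) + ((l : ℂ) ^ 2 - 1) * (t ^ 2 + u ^ 2)

lemma norm_qt_le {l : ℝ} (hl : |l| ≤ 2) {t u : ℂ} {r : ℝ} (ht : ‖t‖ ≤ r) (hu : ‖u‖ ≤ r) :
    ‖qt l t u‖ ≤ 10 * r ^ 2 := by
  have hr0 : 0 ≤ r := (norm_nonneg _).trans ht
  have h3 : l ^ 2 ≤ 4 := by
    have := sq_le_sq' (abs_le.1 hl).1 (abs_le.1 hl).2
    linarith
  have hl1 : ‖(l : ℂ) ^ 2‖ ≤ 4 := by
    rw [norm_pow, Complex.norm_real, Real.norm_eq_abs, sq_abs]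
    exact h3
  have hl2 : ‖(l : ℂ) ^ 2 - 1‖ ≤ 3 := by
    have e : (l : ℂ) ^ 2 - 1 = ((l ^ 2 - 1 : ℝ) : ℂ) := by push_cast; ring
    rw [e, Complex.norm_real, Real.norm_eq_abs, abs_le]
    constructor
    · nlinarith [sq_nonneg l]
    · linarith
  unfold qt
  calc _ ≤ ‖(l : ℂ) ^ 2 * (t * u)‖ + ‖((l : ℂ) ^ 2 - 1) * (t ^ 2 + u ^ 2)‖ := norm_add_le _ _
    _ ≤ ‖(l : ℂ) ^ 2‖ * (‖t‖ * ‖u‖) + ‖(l : ℂ) ^ 2 - 1‖ * (‖t‖ ^ 2 + ‖u‖ ^ 2) := by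
        rw [norm_mul, norm_mul, norm_mul, ← norm_pow, ← norm_pow]
        gcongr
        exact norm_add_le _ _
    _ ≤ 4 * (r * r) + 3 * (r ^ 2 + r ^ 2) := by gcongr
    _ = 10 * r ^ 2 := by ring

/-- the two-point factor, algebra -/
lemma two_point_alg {l : ℝ} (hl : |l| ≤ 2) {t u : ℂ} {r : ℝ} (ht : ‖t‖ ≤ r) (hu : ‖u‖ ≤ r)
    (hr : r ≤ 3 / 5) :
    ‖(r : ℂ) ^ 2 * 1 + (1 - (r : ℂ) ^ 2) / 2 *
      ((1 - l * t + t ^ 2)⁻¹ * (1 - l * u + u ^ 2)⁻¹ +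
        (1 - l * (-t) + (-t) ^ 2)⁻¹ * (1 - l * (-u) + (-u) ^ 2)⁻¹) - (1 + qt l t u)‖ ≤
      2000 * r ^ 3 := by
  have hr0 : 0 ≤ r := (norm_nonneg _).trans ht
  obtain ⟨a1, a2, a3⟩ := inv_expand hl ht hr
  obtain ⟨b1, b2, b3⟩ := inv_expand hl hu hr
  obtain ⟨c1, c2, c3⟩ := inv_expand hl (t := -t) (by rwa [norm_neg]) hr
  obtain ⟨d1, d2, d3⟩ := inv_expand hl (t := -u) (by rwa [norm_neg]) hr
  set A := (1 - l * t + t ^ 2)⁻¹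
  set B := (1 - l * u + u ^ 2)⁻¹
  set C := (1 - l * (-t) + (-t) ^ 2)⁻¹
  set D := (1 - l * (-u) + (-u) ^ 2)⁻¹
  set A' := 1 + l * t + ((l : ℂ) ^ 2 - 1) * t ^ 2 with hA'
  set B' := 1 + l * u + ((l : ℂ) ^ 2 - 1) * u ^ 2 with hB'
  set C' := 1 + l * (-t) + ((l : ℂ) ^ 2 - 1) * (-t) ^ 2 with hC'
  set D' := 1 + l * (-u) + ((l : ℂ) ^ 2 - 1) * (-u) ^ 2 with hD'
  have e1 : ‖A * B - A' * B'‖ ≤ 1025 * r ^ 3 := by
    have : A * B - A' * B' = (A - A') * B + A' * (B - B') := by ring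
    rw [this]
    calc _ ≤ ‖(A - A') * B‖ + ‖A' * (B - B')‖ := norm_add_le _ _
      _ = ‖A - A'‖ * ‖B‖ + ‖A'‖ * ‖B - B'‖ := by rw [norm_mul, norm_mul]
      _ ≤ (100 * r ^ 3) * (25 / 4) + 4 * (100 * r ^ 3) := by gcongr
      _ = _ := by ring
  have e2 : ‖C * D - C' * D'‖ ≤ 1025 * r ^ 3 := by
    have : C * D - C' * D' = (C - C') * D + C' * (D - D') := by ring
    rw [this]
    calc _ ≤ ‖(C - C') * D‖ + ‖C' * (D - D')‖ := norm_add_le _ _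
      _ = ‖C - C'‖ * ‖D‖ + ‖C'‖ * ‖D - D'‖ := by rw [norm_mul, norm_mul]
      _ ≤ (100 * r ^ 3) * (25 / 4) + 4 * (100 * r ^ 3) := by gcongr
      _ = _ := by ring
  have hl2 : ‖(l : ℂ) ^ 2 - 1‖ ≤ 3 := by
    have e : (l : ℂ) ^ 2 - 1 = ((l ^ 2 - 1 : ℝ) : ℂ) := by push_cast; ring
    have h3 : l ^ 2 ≤ 4 := by
      have := sq_le_sq' (abs_le.1 hl).1 (abs_le.1 hl).2
      linarith
    rw [e, Complex.norm_real, Real.norm_eq_abs, abs_le]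
    constructor
    · nlinarith [sq_nonneg l]
    · linarith
  have hq := norm_qt_le hl ht hu
  have e3 : ‖((l : ℂ) ^ 2 - 1) ^ 2 * (t ^ 2 * u ^ 2)‖ ≤ 9 * r ^ 3 := by
    rw [norm_mul, norm_mul, norm_pow, norm_pow, norm_pow]
    calc ‖(l : ℂ) ^ 2 - 1‖ ^ 2 * (‖t‖ ^ 2 * ‖u‖ ^ 2) ≤ 3 ^ 2 * (r ^ 2 * r ^ 2) := by gcongr
      _ = 9 * r ^ 3 * r := by ring
      _ ≤ 9 * r ^ 3 * 1 := by gcongr; linarith
      _ = _ := by ring
  have key : (r : ℂ) ^ 2 * 1 + (1 - (r : ℂ) ^ 2) / 2 * (A * B + C * D) - (1 + qt l t u) =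
      (1 - (r : ℂ) ^ 2) / 2 * ((A * B - A' * B') + (C * D - C' * D')) +
      (1 - (r : ℂ) ^ 2) * (((l : ℂ) ^ 2 - 1) ^ 2 * (t ^ 2 * u ^ 2)) - (r : ℂ) ^ 2 * qt l t u := by
    rw [hA', hB', hC', hD']
    unfold qt
    ring
  rw [key]
  have hr2 : ‖(1 - (r : ℂ) ^ 2)‖ ≤ 1 := by
    have e : (1 - (r : ℂ) ^ 2) = ((1 - r ^ 2 : ℝ) : ℂ) := by push_cast; ring
    rw [e, Complex.norm_real, Real.norm_eq_abs, abs_le]
    constructor <;> nlinarith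
  have hr3 : ‖(1 - (r : ℂ) ^ 2) / 2‖ ≤ 1 / 2 := by
    rw [norm_div]
    simp only [Complex.norm_ofNat]
    linarith
  have hrr : ‖(r : ℂ) ^ 2‖ = r ^ 2 := by
    rw [norm_pow, Complex.norm_real, Real.norm_eq_abs, abs_of_nonneg hr0]
  have h4 : r ^ 2 * (10 * r ^ 2) ≤ 6 * r ^ 3 := by
    calc r ^ 2 * (10 * r ^ 2) = 10 * r ^ 3 * r := by ring
      _ ≤ 10 * r ^ 3 * (3 / 5) := by gcongr
      _ = _ := by ring
  calc _ ≤ ‖(1 - (r : ℂ) ^ 2) / 2 * ((A * B - A' * B') + (C * D - C' * D'))‖ +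
        ‖(1 - (r : ℂ) ^ 2) * (((l : ℂ) ^ 2 - 1) ^ 2 * (t ^ 2 * u ^ 2))‖ +
        ‖(r : ℂ) ^ 2 * qt l t u‖ := (norm_sub_le _ _).trans (by gcongr; exact norm_add_le _ _)
    _ ≤ 1 / 2 * (1025 * r ^ 3 + 1025 * r ^ 3) + 1 * (9 * r ^ 3) + r ^ 2 * (10 * r ^ 2) := by
        rw [norm_mul ((r : ℂ) ^ 2) (qt l t u), norm_mul (1 - (r : ℂ) ^ 2),
          norm_mul ((1 - (r : ℂ) ^ 2) / 2), hrr]
        have := norm_add_le (A * B - A' * B') (C * D - C' * D')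
        gcongr
        linarith
    _ ≤ _ := by
        have h6 : 0 ≤ r ^ 3 := by positivity
        nlinarith

lemma conj_Lp {p : ℕ} (hp : 0 < p) (z : ℂ) (x : ℝ) : (starRingEnd ℂ) (Lp p (1 + z) x) =
    (1 - (lam p : ℂ) * (x * (starRingEnd ℂ) (tt p z)) + (x * (starRingEnd ℂ) (tt p z)) ^ 2)⁻¹ := by
  rw [Lp_eq hp]
  simp only [map_inv₀, map_add, map_sub, map_one, map_mul, map_pow, Complex.conj_ofReal]

/-- the two-point Euler factor -/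
theorem two_point (hc : StCoef) {p : ℕ} (hp : p.Prime) (hp3 : 3 ≤ p) {z z' : ℂ} (hz : 0 ≤ z.re)
    (hz' : 0 ≤ z'.re) :
    ‖E1c p (fun x => Lp p (1 + z) x * (starRingEnd ℂ) (Lp p (1 + z') x)) -
      (1 + qt (lam p) (tt p z) ((starRingEnd ℂ) (tt p z')))‖ ≤ 2000 * (p : ℝ) ^ (-(3 / 2) : ℝ) := by
  set r : ℝ := (p : ℝ) ^ (-(1 / 2) : ℝ) with hrdef
  have hp0 : (0 : ℝ) < p := by exact_mod_cast hp.pos
  have hr : r ≤ 3 / 5 := inv_sqrt_le hp3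
  have hr2 : r ^ 2 = 1 / p := inv_sqrt_sq hp.pos
  have hr3 : r ^ 3 = (p : ℝ) ^ (-(3 / 2) : ℝ) := by
    rw [hrdef, ← Real.rpow_natCast, ← Real.rpow_mul hp0.le]
    norm_num
  have h := two_point_alg (abs_lam_le hc hp) (t := tt p z) (u := (starRingEnd ℂ) (tt p z'))
    (r := r) (norm_tt_le' hp3 hz) (by rw [RCLike.norm_conj]; exact norm_tt_le' hp3 hz') hr
  rw [← hr3]
  refine le_trans (le_of_eq ?_) h
  congr 2
  unfold E1c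
  have e1 : ((1 : ℂ) / p) = (r : ℂ) ^ 2 := by
    have : ((r ^ 2 : ℝ) : ℂ) = ((1 / p : ℝ) : ℂ) := by rw [hr2]
    push_cast at this
    exact this.symm
  rw [e1]
  simp only [conj_Lp hp.pos, Lp_eq hp.pos]
  push_cast
  simp only [zero_mul, mul_zero, sub_zero, ne_eq, OfNat.ofNat_ne_zero, not_false_eq_true, zero_pow,
    add_zero, inv_one, one_mul, mul_one, neg_mul, map_inv₀, map_add, map_sub, map_one, map_mul,
    map_pow, map_neg, Complex.conj_ofReal]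

lemma norm_one_add_le (q : ℂ) : ‖1 + q‖ ≤ Real.exp (q.re + ‖q‖ ^ 2 / 2) := by
  refine (sq_le_sq₀ (norm_nonneg _) (Real.exp_pos _).le).1 ?_
  rw [← Real.exp_nat_mul]
  have h1 : ‖1 + q‖ ^ 2 = 1 + (2 * q.re + ‖q‖ ^ 2) := by
    rw [← Complex.normSq_eq_norm_sq, ← Complex.normSq_eq_norm_sq, Complex.normSq_apply,
      Complex.normSq_apply]
    simp only [Complex.add_re, Complex.one_re, Complex.add_im, Complex.one_im]
    ring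
  rw [h1]
  have := Real.add_one_le_exp (2 * q.re + ‖q‖ ^ 2)
  refine (by linarith : 1 + (2 * q.re + ‖q‖ ^ 2) ≤ Real.exp (2 * q.re + ‖q‖ ^ 2)).trans
    (le_of_eq ?_)
  congr 1
  push_cast
  ring

/-- exponential bound for the two-point factor -/
theorem two_point_exp (hc : StCoef) {p : ℕ} (hp : p.Prime) (hp3 : 3 ≤ p) {z z' : ℂ}
    (hz : 0 ≤ z.re) (hz' : 0 ≤ z'.re) :
    ‖E1c p (fun x => Lp p (1 + z) x * (starRingEnd ℂ) (Lp p (1 + z') x))‖ ≤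
      Real.exp ((qt (lam p) (tt p z) ((starRingEnd ℂ) (tt p z'))).re +
        200000 * (p : ℝ) ^ (-(3 / 2) : ℝ)) := by
  have h := two_point hc hp hp3 hz hz'
  set q := qt (lam p) (tt p z) ((starRingEnd ℂ) (tt p z')) with hq
  set ε : ℝ := (p : ℝ) ^ (-(3 / 2) : ℝ) with hε
  have hp0 : (0 : ℝ) < p := by exact_mod_cast hp.pos
  set r : ℝ := (p : ℝ) ^ (-(1 / 2) : ℝ) with hrdef
  have hr : r ≤ 3 / 5 := inv_sqrt_le hp3
  have hr0 : 0 ≤ r := by positivity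
  have hr3 : r ^ 3 = ε := by
    rw [hrdef, ← Real.rpow_natCast, ← Real.rpow_mul hp0.le]
    norm_num
    rfl
  have hqn : ‖q‖ ≤ 10 * r ^ 2 := norm_qt_le (abs_lam_le hc hp) (norm_tt_le' hp3 hz)
    (by rw [RCLike.norm_conj]; exact norm_tt_le' hp3 hz')
  have hqn' : ‖q‖ ≤ 18 / 5 := by nlinarith
  have hq2 : ‖q‖ ^ 2 / 2 ≤ 30 * ε := by
    have h1 : ‖q‖ ^ 2 ≤ (10 * r ^ 2) ^ 2 := by gcongr
    have h2 : (10 * r ^ 2) ^ 2 = 100 * r ^ 3 * r := by ring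
    have h3 : 100 * r ^ 3 * r ≤ 100 * r ^ 3 * (3 / 5) := by gcongr
    rw [← hr3]
    linarith
  have hε0 : 0 ≤ ε := by positivity
  set X := q.re + ‖q‖ ^ 2 / 2 with hX
  have hXl : -(18 / 5) ≤ X := by
    have := (abs_le.1 (Complex.abs_re_le_norm q)).1
    have h5 : 0 ≤ ‖q‖ ^ 2 / 2 := by positivity
    linarith
  have h1 : ‖E1c p (fun x => Lp p (1 + z) x * (starRingEnd ℂ) (Lp p (1 + z') x))‖ ≤
      Real.exp X + 2000 * ε := by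
    have := norm_le_norm_add_norm_sub' (E1c p (fun x => Lp p (1 + z) x *
      (starRingEnd ℂ) (Lp p (1 + z') x))) (1 + q)
    have h2 := norm_one_add_le q
    linarith
  refine h1.trans ?_
  have h2 : Real.exp (-X) ≤ 80 := by
    have h3 : Real.exp (-X) ≤ Real.exp 4 := Real.exp_le_exp.2 (by linarith)
    have h4 : Real.exp 4 ≤ 80 := by
      have : Real.exp 4 = Real.exp 1 ^ 4 := by rw [← Real.exp_nat_mul]; norm_num
      rw [this]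
      calc Real.exp 1 ^ 4 ≤ (2.7182818286) ^ 4 := by
            gcongr
            exact Real.exp_one_lt_d9.le
        _ ≤ 80 := by norm_num
    linarith
  have h3 : Real.exp X + 2000 * ε ≤ Real.exp X * (1 + 160000 * ε) := by
    have h4 : 1 ≤ 80 * Real.exp X := by
      have : Real.exp X * Real.exp (-X) = 1 := by rw [← Real.exp_add]; simp
      have h5 := Real.exp_pos X
      nlinarith
    nlinarith [mul_nonneg hε0 (sub_nonneg.2 h4)]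
  refine h3.trans ?_
  have h4 : 1 + 160000 * ε ≤ Real.exp (160000 * ε) := by
    linarith [Real.add_one_le_exp (160000 * ε)]
  calc Real.exp X * (1 + 160000 * ε) ≤ Real.exp X * Real.exp (160000 * ε) := by gcongr
    _ = Real.exp (X + 160000 * ε) := by rw [← Real.exp_add]
    _ ≤ _ := Real.exp_le_exp.2 (by rw [hX]; linarith)

end P004G.E3W
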