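import Vale.Agent.P004E.H3.Poly
import Vale.Agent.P004G.H394.Moll2

/-!
# P004E, module W (part 13): the statement W2
-/

open Finset Real

namespace P004G.E3W

open P004E (zi nb li Ib gp Mi Mh BlkOK StMr)
open P004.H293 (EE EE_nonneg EE_mono EE_const)
open P004.Moll (chi_CM summable_ah_bdd Dp Q0 Dp_abs_le EN_Dp_sq)
open P004.H128 (EN_congr Xf_CM)
open Moll (tr0)

variable [Crv] {C₀ c₀ η y₀ θ z L : ℝ} {S : ℕ → Finset ℕ} {c : ℕ → ℕ → ℝ}

/-- the second moment of a product of blocks -/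
theorem EN_blocks (hz : 0 < z) (hθ : 0 < θ) (h1 : 1 ≤ li θ z 0) (hL : 0 < L)
    (hB : BlkOK C₀ c₀ η y₀ θ z L S c) {J : Finset ℕ} (hJ : ∀ i ∈ J, i ≤ nb θ z L) {N : ℕ}
    (hN : Real.exp (L * z) < N) :
    EN N (fun X => (∏ i ∈ J, Mi S c i X) ^ 2) =
      ∏ i ∈ J, EE (Ib y₀ θ z L i) (fun ω => Mi S c i (P004.H628.ffx ω) ^ 2) := by
  have hdisj := Ib_pairwise (y₀ := y₀) hz hθ h1 hL hJ
  have hsub : J.biUnion (fun i => Ib y₀ θ z L i) ⊆ range N := by
    intro p hp
    obtain ⟨i, hi, hp⟩ := mem_biUnion.1 hp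
    obtain ⟨a1, -⟩ := mem_Ib.1 hp
    have a2 : zi θ z i ≤ z := by
      have := zi_anti hz hθ h1 (Nat.zero_le i)
      rwa [zi_zero] at this
    have a3 : (p : ℝ) < N := by
      refine (a1.trans (Real.exp_le_exp.2 ?_)).trans_lt hN
      gcongr
    rw [mem_range]
    exact_mod_cast a3
  have hdep : ∀ i ∈ J, DepC (Ib y₀ θ z L i)
      (fun ω => ((Mi S c i (P004.H628.ffx ω) ^ 2 : ℝ) : ℂ)) := by
    intro i hi ω ω' h
    have e1 : Mi S c i (P004.H628.ffx ω) = Mi S c i (P004.H628.ffx ω') := by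
      unfold Mi
      refine Finset.sum_congr rfl fun a ha => ?_
      congr 1
      unfold P004.H628.ffx
      refine Finset.prod_congr rfl fun p hp => ?_
      have h3 := (hB.supp i (hJ i hi) a ha).2.2 p (Nat.prime_of_mem_primeFactors hp)
        (Nat.dvd_of_mem_primeFactors hp)
      rw [h p h3]
    simp only
    rw [e1]
  have key : ((EN N (fun X => (∏ i ∈ J, Mi S c i X) ^ 2) : ℝ) : ℂ) =
      ((∏ i ∈ J, EE (Ib y₀ θ z L i) (fun ω => Mi S c i (P004.H628.ffx ω) ^ 2) : ℝ) : ℂ) := by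
    rw [← ENc_ofReal, ENc_eq]
    have e1 : EEc (range N) (fun ω => (((∏ i ∈ J, Mi S c i (P004.H628.ffx ω)) ^ 2 : ℝ) : ℂ)) =
        EEc (range N) (fun ω => ∏ i ∈ J, ((Mi S c i (P004.H628.ffx ω) ^ 2 : ℝ) : ℂ)) := by
      congr 1
      funext ω
      rw [← Finset.prod_pow, Complex.ofReal_prod]
    rw [e1]
    have hd2 : DepC (J.biUnion (fun i => Ib y₀ θ z L i))
        (fun ω => ∏ i ∈ J, ((Mi S c i (P004.H628.ffx ω) ^ 2 : ℝ) : ℂ)) :=
      DepC.prod J fun k hk => (hdep k hk).mono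
        (Finset.subset_biUnion_of_mem (fun i => Ib y₀ θ z L i) hk)
    rw [EEc_of_dep hsub hd2, EEc_biUnion J (fun i => Ib y₀ θ z L i) hdisj _ hdep,
      Complex.ofReal_prod]
    exact Finset.prod_congr rfl fun i _ => EEc_ofReal _ _
  exact_mod_cast key

/-- the product of the second moments of the blocks `i < i₀` -/
theorem two_prod (hz : 0 < z) (hθ : 0 < θ) (h1 : 1 ≤ li θ z 0) (hη : 0 < η)
    (hCη : C₀ ≤ η * li θ z 0)
    (hB : BlkOK C₀ c₀ η y₀ θ z L S c) {i₀ : ℕ} (hi₀ : i₀ ≤ nb θ z L + 1) :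
    ∏ i ∈ Ico 0 i₀, EE (Ib y₀ θ z L i) (fun ω => Mi S c i (P004.H628.ffx ω) ^ 2) ≤
      (z / zi θ z i₀) ^ (1 + 2 * η) := by
  have hsum : ∑ i ∈ Ico 0 i₀, li θ z i = Real.log z - Real.log (zi θ z i₀) := by
    rw [← Finset.range_eq_Ico]
    have e1 : ∀ i ∈ range i₀, li θ z i = Real.log (zi θ z i) - Real.log (zi θ z (i + 1)) :=
      fun i _ => li_eq hz i
    rw [Finset.sum_congr rfl e1, Finset.sum_range_sub', zi_zero]
  have hli : ∀ i, li θ z 0 ≤ li θ z i := by
    intro i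
    rw [li_eq' hz i]
    have : 1 ≤ (1 + θ) ^ i := one_le_pow₀ (by linarith)
    nlinarith
  calc ∏ i ∈ Ico 0 i₀, EE (Ib y₀ θ z L i) (fun ω => Mi S c i (P004.H628.ffx ω) ^ 2)
      ≤ ∏ i ∈ Ico 0 i₀, Real.exp ((1 + 2 * η) * li θ z i) := by
        refine Finset.prod_le_prod (fun i _ => EE_nonneg Ib_one fun ω _ => sq_nonneg _)
          fun i hi => ?_
        have hi' : i ≤ nb θ z L := by
          have := (mem_Ico.1 hi).2
          omega
        refine (hB.two i hi').trans (Real.exp_le_exp.2 ?_)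
        have := hli i
        nlinarith
    _ = Real.exp ((1 + 2 * η) * ∑ i ∈ Ico 0 i₀, li θ z i) := by
        rw [← Real.exp_sum, Finset.mul_sum]
    _ = (z / zi θ z i₀) ^ (1 + 2 * η) := by
        rw [hsum, Real.rpow_def_of_pos (div_pos hz (zi_pos hz _)),
          Real.log_div hz.ne' (zi_pos hz _).ne']
        congr 1
        ring

/-- Module W2. -/
theorem pfMr (hD : P004.StDiv) (h0 : StTw0) : StMr := by
  intro C₀ c₀ η hC₀ hc₀ hη hη1 y₀ θ hy₀ hθ hθ10
  obtain ⟨C, hC1, hT⟩ := tr0 hD h0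
  refine ⟨5040 + C, min (Real.exp (-((1 + C₀ / η) / θ))) ((1 / (128 * C₀)) ^ 2), by linarith,
    lt_min (Real.exp_pos _) (by positivity), ?_⟩
  intro z hz hzz
  refine ⟨⌈Real.exp (1 / z)⌉₊ + 3, ?_⟩
  intro Y S c hYY hBl i₀ hi₀
  -- basic facts
  have hY3 : 3 ≤ Y := by omega
  have hY1 : (1 : ℝ) ≤ Y := by exact_mod_cast (by omega : 1 ≤ Y)
  have hY0 : (0 : ℝ) < Y := by linarith
  have hL := P004.Moll.logY_ge_one hY3
  set L := Real.log Y with hLdef
  have hL0 : 0 < L := by linarith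
  have hLz : 1 ≤ L * z := by
    have e1 : Real.exp (1 / z) ≤ Y := by
      have e1 := Nat.le_ceil (Real.exp (1 / z))
      have e2 : ((⌈Real.exp (1 / z)⌉₊ + 3 : ℕ) : ℝ) ≤ Y := by exact_mod_cast hYY
      push_cast at e2
      linarith
    have e2 : 1 / z ≤ L := by
      rw [hLdef, Real.le_log_iff_exp_le hY0]
      exact e1
    rwa [div_le_iff₀ hz] at e2
  have hli : 1 + C₀ / η ≤ li θ z 0 := by
    unfold li
    rw [zi_zero, one_div, Real.log_inv]
    have e1 : Real.log z ≤ -((1 + C₀ / η) / θ) := by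
      rw [Real.log_le_iff_le_exp hz]
      exact hzz.trans (min_le_left _ _)
    calc 1 + C₀ / η = θ * ((1 + C₀ / η) / θ) := by field_simp
      _ ≤ θ * -Real.log z := by gcongr; linarith
  have h1 : 1 ≤ li θ z 0 := by
    have : 0 < C₀ / η := by positivity
    linarith
  have hCη : C₀ ≤ η * li θ z 0 := by
    calc C₀ = η * (C₀ / η) := by field_simp
      _ ≤ η * li θ z 0 := by
          gcongr
          linarith
  have hz1 := z_lt_one hz hθ h1
  -- the length
  have hlen : 2 * C₀ * (L * zi θ z 0) * Real.exp (η * li θ z 0) ≤ L / 64 := by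
    have e1 : Real.exp (η * li θ z 0) ≤ z ^ (-(1 / 2) : ℝ) := by
      rw [Real.rpow_def_of_pos hz]
      apply Real.exp_le_exp.2
      unfold li
      rw [zi_zero, one_div, Real.log_inv]
      have h3 : Real.log z < 0 := Real.log_neg hz hz1
      have h4 : η * θ ≤ 1 / 2 := by nlinarith
      nlinarith
    have e2 : z * z ^ (-(1 / 2) : ℝ) = z ^ (1 / 2 : ℝ) := by
      nth_rewrite 1 [← Real.rpow_one z]
      rw [← Real.rpow_add hz]
      norm_num
    have e3 : z ^ (1 / 2 : ℝ) ≤ 1 / (128 * C₀) := by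
      rw [← Real.sqrt_eq_rpow]
      rw [Real.sqrt_le_left (by positivity)]
      exact hzz.trans (min_le_right _ _)
    rw [zi_zero]
    calc 2 * C₀ * (L * z) * Real.exp (η * li θ z 0) ≤ 2 * C₀ * (L * z) * z ^ (-(1 / 2) : ℝ) := by
          gcongr
      _ = 2 * C₀ * L * (z * z ^ (-(1 / 2) : ℝ)) := by ring
      _ ≤ 2 * C₀ * L * (1 / (128 * C₀)) := by
          rw [e2]
          gcongr
      _ = L / 64 := by
          field_simp
          norm_num
  obtain ⟨A, m, hm, hA, hmA⟩ := moll_poly hz hθ hθ10 h1 hη.le hη1 hC₀ hL0 hBl 0 hi₀ hlen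
  have hA0 : ∀ a ∈ A, a ≠ 0 := fun a ha => (hA a ha).1.1
  set E := Real.exp (L / 64) with hEdef
  have hE0 : 0 < E := Real.exp_pos _
  have hMh : ∀ k : ℤ, Mh S c 0 i₀ k = Dp A m (fun n => chi k n) := by
    intro k
    unfold Mh
    rw [hm _ (chi_CM k)]
    rfl
  have hG : ∀ k : ℤ, |Mh S c 0 i₀ k ^ 2| ≤ (∑ a ∈ A, |m a|) ^ 2 := by
    intro k
    rw [abs_pow, hMh]
    exact pow_le_pow_left₀ (by positivity) (Dp_abs_le A m k) 2
  refine ⟨summable_ah_bdd hY0 hG, ?_⟩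
  -- the normalised polynomial
  set m' : ℕ → ℝ := fun a => m a / E with hm'
  have hm'1 : ∀ a ∈ A, |m' a| ≤ 1 := by
    intro a ha
    simp only [hm']
    rw [abs_div, abs_of_pos hE0, div_le_one hE0]
    exact (Finset.single_le_sum (f := fun a => |m a|) (fun _ _ => abs_nonneg _) ha).trans hmA
  have hDp : ∀ X : ℕ → ℝ, Dp A m' X = Dp A m X / E := by
    intro X
    unfold Dp
    rw [Finset.sum_div]
    refine Finset.sum_congr rfl fun a _ => ?_
    simp only [hm']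
    ring
  have hQ0 : Q0 A m' = Q0 A m / E ^ 2 := by
    unfold Q0
    rw [Finset.sum_div]
    refine Finset.sum_congr rfl fun a _ => ?_
    rw [Finset.sum_div]
    refine Finset.sum_congr rfl fun a' _ => ?_
    simp only [hm']
    ring
  have h4 := hT Y E A m' hY1 hm'1 (fun a ha => (hA a ha).1) (fun a ha => (hA a ha).2)
  have h5 := (abs_le.1 h4).2
  have e2 : ∑' k : ℤ, P004.H1.ah Y k * Mh S c 0 i₀ k ^ 2 =
      E ^ 2 * ∑' k : ℤ, P004.H1.ah Y k * Dp A m' (fun n => chi k n) ^ 2 := by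
    rw [← tsum_mul_left]
    refine tsum_congr fun k => ?_
    rw [hMh, hDp]
    field_simp
  rw [e2]
  -- the main term
  have hmain : Q0 A m ≤ (z / zi θ z i₀) ^ (1 + 2 * η) := by
    set N := ⌊Real.exp (L * z)⌋₊ + 1 + ∑ a ∈ A, ∑ a' ∈ A, a * a' with hN
    have hN1 : Real.exp (L * z) < N := by
      have h4 := Nat.lt_floor_add_one (Real.exp (L * z))
      have h5 : ((⌊Real.exp (L * z)⌋₊ : ℝ) + 1) ≤ N := by
        rw [hN]
        push_cast
        have : (0 : ℝ) ≤ ∑ a ∈ A, ∑ a' ∈ A, (a : ℝ) * a' := by positivity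
        linarith
      linarith
    have hN2 : ∀ a ∈ A, ∀ a' ∈ A, a * a' < N := by
      intro a ha a' ha'
      have h6 : a * a' ≤ ∑ a' ∈ A, a * a' :=
        Finset.single_le_sum (f := fun a' => a * a') (fun _ _ => Nat.zero_le _) ha'
      have h7 : ∑ a' ∈ A, a * a' ≤ ∑ a ∈ A, ∑ a' ∈ A, a * a' :=
        Finset.single_le_sum (f := fun a => ∑ a' ∈ A, a * a') (fun _ _ => Nat.zero_le _) ha
      omega
    rw [← EN_Dp_sq m hA0 hN2]
    have e3 : EN N (fun X => Dp A m X ^ 2) = EN N (fun X => (∏ i ∈ Ico 0 i₀, Mi S c i X) ^ 2) := by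
      refine EN_congr fun ω => ?_
      rw [hm _ (Xf_CM ω)]
      rfl
    rw [e3, EN_blocks hz hθ h1 hL0 hBl (fun i hi => by have := (mem_Ico.1 hi).2; omega) hN1]
    exact two_prod hz hθ h1 hη hCη hBl hi₀
  set R := if i₀ ≤ nb θ z L then (z / zi θ z i₀) ^ (1 + 2 * η) else L ^ ((1 + 2 * η) * (1 + θ))
    with hR
  have hmR : (z / zi θ z i₀) ^ (1 + 2 * η) ≤ R := by
    rw [hR]
    split_ifs with hi
    · exact le_rfl
    · have hi' : i₀ = nb θ z L + 1 := by omega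
      have e4 : 0 < zi θ z (nb θ z L) := zi_pos hz _
      have e5 : z / zi θ z i₀ ≤ L ^ (1 + θ) := by
        rw [hi', zi_succ hz, div_le_iff₀ (by positivity), ← Real.mul_rpow hL0.le e4.le]
        have e6 := nb_ge (θ := θ) hLz (i := nb θ z L) le_rfl
        have e7 : 1 ≤ (L * zi θ z (nb θ z L)) ^ (1 + θ) := Real.one_le_rpow e6 (by linarith)
        linarith
      calc (z / zi θ z i₀) ^ (1 + 2 * η) ≤ (L ^ (1 + θ)) ^ (1 + 2 * η) := by
            have : 0 < zi θ z i₀ := zi_pos hz _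
            gcongr
        _ = L ^ ((1 + 2 * η) * (1 + θ)) := by
            rw [← Real.rpow_mul hL0.le, mul_comm]
  have hR1 : 1 ≤ R := by
    refine le_trans ?_ hmR
    apply Real.one_le_rpow _ (by linarith)
    rw [one_le_div (zi_pos hz _)]
    have := zi_anti hz hθ h1 (Nat.zero_le i₀)
    rwa [zi_zero] at this
  have herr : E ^ 2 * (C * E ^ 4) ≤ C * Y := by
    have e6 : E ^ 6 ≤ Y := by
      rw [hEdef, ← Real.exp_nat_mul, ← Real.exp_log hY0, ← hLdef]
      apply Real.exp_le_exp.2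
      push_cast
      linarith
    calc E ^ 2 * (C * E ^ 4) = C * E ^ 6 := by ring
      _ ≤ C * Y := by gcongr
  calc E ^ 2 * ∑' k : ℤ, P004.H1.ah Y k * Dp A m' (fun n => chi k n) ^ 2
      ≤ E ^ 2 * (5040 * Y * Q0 A m' + C * E ^ 4) := by
        gcongr
        linarith
    _ = 5040 * Y * Q0 A m + E ^ 2 * (C * E ^ 4) := by
        rw [hQ0]
        field_simp
    _ ≤ 5040 * Y * R + C * Y * 1 := by
        have := hmain.trans hmR
        have e8 : 5040 * (Y : ℝ) * Q0 A m ≤ 5040 * Y * R := by gcongr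
        linarith
    _ ≤ 5040 * Y * R + C * Y * R := by gcongr
    _ = _ := by ring

end P004G.E3W
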