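import Vale.Agent.P004E.H3.EC
import Vale.Agent.P004G.H394.Moll1

/-!
# P004E, module W (part 2): the quadratic form by means of the two-point function
-/

open Real MeasureTheory Set Filter Topology
open scoped ENNReal

namespace P004G.E3W

variable [Crv]

open P004.H128 (sl sl_re Kf norm_Kf_le continuous_sl continuous_Kf half_lt tendsto_quad)
open P004G.H128

/-- the mollified two-point function -/
noncomputable def TPf (N : ℕ) (S : Finset ℕ) (m : ℕ → ℝ) (σ τ τ' : ℝ) : ℂ :=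
  ENc N (fun X => (((∑ a ∈ S, m a * X a) ^ 2 : ℝ) : ℂ) *
    (LN N X (sl σ τ) * (starRingEnd ℂ) (LN N X (sl σ τ'))))

lemma measurable_TPf (N : ℕ) (S : Finset ℕ) (m : ℕ → ℝ) (σ : ℝ) :
    Measurable fun p : ℝ × ℝ => TPf N S m σ p.1 p.2 := by
  unfold TPf ENc
  refine Finset.measurable_sum _ fun ω _ => ?_
  refine measurable_const.mul (measurable_const.mul ?_)
  refine ((measurable_LN N _ σ).comp measurable_fst).mul ?_
  exact Complex.continuous_conj.measurable.comp ((measurable_LN N _ σ).comp measurable_snd)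

/-- the second moment of the linear form in the random model -/
lemma EN_sq_le2 (hc : StCoef) {Y : ℕ} {S : Finset ℕ} {m : ℕ → ℝ} {σ : ℝ} {N : ℕ}
    {h : ℝ → ℝ} {g : ℝ → ℂ} (hY : 1 ≤ Y) (h0 : 0 < σ) (h1 : σ ≤ 2)
    (hg : Continuous g) (hgi : Integrable g)
    (hrep : ∀ x : ℝ, (h x * Real.exp (-σ * x) : ℂ) =
      ∫ τ : ℝ, g τ * Complex.exp (τ * x * Complex.I)) :
    ENNReal.ofReal (EN N (fun X => (∑ a ∈ S, m a * X a) ^ 2 *
      (∑' n : ℕ, bet (cfY Y h) n * X n) ^ 2)) ≤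
      ENNReal.ofReal (16 * ((Y : ℝ) ^ σ) ^ 2) *
        ∫⁻ p : ℝ × ℝ, ENNReal.ofReal (‖g p.1‖ * ‖g p.2‖ * ‖TPf N S m σ p.1 p.2‖) := by
  have hKc := continuous_Kf (Y := Y) hY h0 hg
  set F : (Fin N → SignType) → ℝ → ℂ := fun ω τ => 4 * (Kf Y σ g τ * LN N (Xf ω) (sl σ τ)) with hF
  have hYσ : 0 ≤ (Y : ℝ) ^ σ := by positivity
  have hFint : ∀ ω, Integrable (F ω) := fun ω => by
    refine Integrable.mono' (hgi.norm.const_mul (4 * (Y : ℝ) ^ σ * DX σ (Xf ω))) ?_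
      (Eventually.of_forall fun τ => ?_)
    · exact (measurable_const.mul (hKc.measurable.mul (measurable_LN N _ σ))).aestronglyMeasurable
    · simp only [hF]
      rw [norm_mul, norm_mul]
      have e1 := norm_Kf_le hY h0 h1 g τ
      have e2 := norm_LN_le hc ω h0 τ
      have e3 : 0 ≤ DX σ (Xf ω) := (norm_nonneg _).trans e2
      calc ‖(4 : ℂ)‖ * (‖Kf Y σ g τ‖ * ‖LN N (Xf ω) (sl σ τ)‖) ≤
          4 * ((‖g τ‖ * (Y : ℝ) ^ σ) * DX σ (Xf ω)) := by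
            gcongr
            norm_num
        _ = _ := by ring
  have hFconj : ∀ ω, Integrable (fun τ => (starRingEnd ℂ) (F ω τ)) := fun ω =>
    (Complex.conjLIE.integrable_comp_iff (φ := F ω)).2 (hFint ω)
  have hT : ∀ ω : Fin N → SignType, (((∑' n : ℕ, bet (cfY Y h) n * Xf ω n) ^ 2 : ℝ) : ℂ) =
      ∫ p : ℝ × ℝ, F ω p.1 * (starRingEnd ℂ) (F ω p.2) := by
    intro ω
    have e1 := TX_eq hc ω hY h0 h1 hg hgi hrep
    have e2 : (starRingEnd ℂ) ((∑' n : ℕ, bet (cfY Y h) n * Xf ω n : ℝ) : ℂ) =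
        ((∑' n : ℕ, bet (cfY Y h) n * Xf ω n : ℝ) : ℂ) := Complex.conj_ofReal _
    have e3 : ∫ p : ℝ × ℝ, F ω p.1 * (starRingEnd ℂ) (F ω p.2) =
        (∫ τ, F ω τ) * ∫ τ, (starRingEnd ℂ) (F ω τ) :=
      integral_prod_mul (μ := volume) (ν := volume) (F ω) (fun τ => (starRingEnd ℂ) (F ω τ))
    rw [e3, integral_conj, sq, Complex.ofReal_mul]
    nth_rw 2 [← e2]
    rw [e1]
  have hint : ∀ ω : Fin N → SignType, Integrable (fun p : ℝ × ℝ =>
      ((∏ i : Fin N, wp i (ω i) : ℝ) : ℂ) * ((((∑ a ∈ S, m a * Xf ω a) ^ 2 : ℝ) : ℂ) *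
        (F ω p.1 * (starRingEnd ℂ) (F ω p.2)))) := fun ω =>
    (((hFint ω).mul_prod (hFconj ω)).const_mul _).const_mul _
  have hmain : ((EN N (fun X => (∑ a ∈ S, m a * X a) ^ 2 *
      (∑' n : ℕ, bet (cfY Y h) n * X n) ^ 2) : ℝ) : ℂ) =
      ∫ p : ℝ × ℝ, 16 * (Kf Y σ g p.1 * (starRingEnd ℂ) (Kf Y σ g p.2)) *
        TPf N S m σ p.1 p.2 := by
    have e1 : ((EN N (fun X => (∑ a ∈ S, m a * X a) ^ 2 *
      (∑' n : ℕ, bet (cfY Y h) n * X n) ^ 2) : ℝ) : ℂ) =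
        ∑ ω : Fin N → SignType, ∫ p : ℝ × ℝ,
          ((∏ i : Fin N, wp i (ω i) : ℝ) : ℂ) * ((((∑ a ∈ S, m a * Xf ω a) ^ 2 : ℝ) : ℂ) *
            (F ω p.1 * (starRingEnd ℂ) (F ω p.2))) := by
      unfold EN
      rw [Complex.ofReal_sum]
      refine Finset.sum_congr rfl fun ω _ => ?_
      rw [integral_const_mul, integral_const_mul, ← hT ω]
      push_cast
      ring
    rw [e1, ← integral_finsetSum _ fun ω _ => hint ω]
    refine integral_congr_ae (Eventually.of_forall fun p => ?_)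
    simp only
    unfold TPf ENc
    rw [Finset.mul_sum]
    refine Finset.sum_congr rfl fun ω _ => ?_
    simp only [hF, map_mul]
    have e4 : (starRingEnd ℂ) (4 : ℂ) = 4 := by
      have := Complex.conj_ofReal 4
      push_cast at this
      exact this
    rw [e4]
    ring
  have hnn : EN N (fun X => (∑ a ∈ S, m a * X a) ^ 2 *
      (∑' n : ℕ, bet (cfY Y h) n * X n) ^ 2) ≤ ‖((EN N (fun X => (∑ a ∈ S, m a * X a) ^ 2 *
      (∑' n : ℕ, bet (cfY Y h) n * X n) ^ 2) : ℝ) : ℂ)‖ := by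
    rw [Complex.norm_real]
    exact le_abs_self _
  refine (ENNReal.ofReal_le_ofReal hnn).trans ?_
  rw [hmain, ← lintegral_const_mul' _ _ ENNReal.ofReal_ne_top, ofReal_norm]
  refine (enorm_integral_le_lintegral_enorm _).trans (lintegral_mono fun p => ?_)
  rw [← ofReal_norm, ← ENNReal.ofReal_mul (by positivity)]
  apply ENNReal.ofReal_le_ofReal
  rw [norm_mul, norm_mul, norm_mul, RCLike.norm_conj]
  have e1 := norm_Kf_le hY h0 h1 g p.1
  have e2 := norm_Kf_le hY h0 h1 g p.2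
  calc ‖(16 : ℂ)‖ * (‖Kf Y σ g p.1‖ * ‖Kf Y σ g p.2‖) * ‖TPf N S m σ p.1 p.2‖ ≤
      16 * ((‖g p.1‖ * (Y : ℝ) ^ σ) * (‖g p.2‖ * (Y : ℝ) ^ σ)) * ‖TPf N S m σ p.1 p.2‖ := by
        gcongr
        norm_num
    _ = _ := by ring

/-- the quadratic form is bounded by means of the limit of the two-point function -/
theorem pass2 (hc : StCoef) {Y : ℕ} {S : Finset ℕ} {m : ℕ → ℝ} {σ U b Kb : ℝ}
    {h : ℝ → ℝ} {g : ℝ → ℂ} {K : ℝ → ℝ → ℝ} (hY : 1 ≤ Y) (h0 : 0 < σ) (h1 : σ ≤ 2) (hU : 0 < U)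
    (hb : ∀ u, 0 < u → |cfY Y h u| ≤ b) (hfU : ∀ u, 0 < u → u < U → cfY Y h u = 0)
    (hS : ∀ a ∈ S, a ≠ 0)
    (hg : Continuous g) (hgi : Integrable g)
    (hrep : ∀ x : ℝ, (h x * Real.exp (-σ * x) : ℂ) =
      ∫ τ : ℝ, g τ * Complex.exp (τ * x * Complex.I))
    (hKb : ∀ (N : ℕ) (τ τ' : ℝ), ‖TPf N S m σ τ τ'‖ ≤ Kb)
    (hK : ∀ τ τ' ε : ℝ, 0 < ε → ∀ᶠ N : ℕ in atTop, ‖TPf N S m σ τ τ'‖ ≤ K τ τ' + ε) :
    ENNReal.ofReal (Moll.Q2 S m (cfY Y h)) ≤ ENNReal.ofReal (16 * ((Y : ℝ) ^ σ) ^ 2) *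
        ∫⁻ p : ℝ × ℝ, ENNReal.ofReal (‖g p.1‖ * ‖g p.2‖ * K p.1 p.2) := by
  have hβ := summable_bet hc (f := cfY Y h) hU hb hfU
  have ht := tendsto_quad hβ (bet_zero hc _) hS m
  set D : ℕ → ℝ × ℝ → ℝ≥0∞ := fun N p =>
    ENNReal.ofReal (‖g p.1‖ * ‖g p.2‖ * ‖TPf N S m σ p.1 p.2‖) with hD
  have hDm : ∀ N, Measurable (D N) := fun N => by
    have m1 : Measurable fun p : ℝ × ℝ => ‖g p.1‖ := (hg.measurable.comp measurable_fst).norm
    have m2 : Measurable fun p : ℝ × ℝ => ‖g p.2‖ := (hg.measurable.comp measurable_snd).norm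
    exact ((m1.mul m2).mul (measurable_TPf N S m σ).norm).ennreal_ofReal
  have hbound : ∀ N, D N ≤ᵐ[volume] fun p : ℝ × ℝ => ENNReal.ofReal (‖g p.1‖ * ‖g p.2‖ * Kb) := by
    intro N
    refine Eventually.of_forall fun p => ENNReal.ofReal_le_ofReal ?_
    exact mul_le_mul_of_nonneg_left (hKb N _ _) (by positivity)
  have hfin : ∫⁻ p : ℝ × ℝ, ENNReal.ofReal (‖g p.1‖ * ‖g p.2‖ * Kb) ≠ ∞ := by
    have : Integrable (fun p : ℝ × ℝ => ‖g p.1‖ * ‖g p.2‖ * Kb) :=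
      (hgi.norm.mul_prod hgi.norm).mul_const Kb
    exact this.lintegral_lt_top.ne
  have hlim := limsup_lintegral_le (f := D) _ (fun N => hDm N) hbound hfin
  have hle1 : ENNReal.ofReal (Moll.Q2 S m (cfY Y h)) ≤
      limsup (fun N => ENNReal.ofReal (16 * ((Y : ℝ) ^ σ) ^ 2) * ∫⁻ p, D N p) atTop := by
    have h2 : Tendsto (fun N => ENNReal.ofReal (EN N (fun X => (∑ a ∈ S, m a * X a) ^ 2 *
      (∑' n : ℕ, bet (cfY Y h) n * X n) ^ 2))) atTop
      (𝓝 (ENNReal.ofReal (Moll.Q2 S m (cfY Y h)))) := (ENNReal.continuous_ofReal.tendsto _).comp ht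
    rw [← h2.limsup_eq]
    exact limsup_le_limsup (Eventually.of_forall fun N =>
      EN_sq_le2 hc hY h0 h1 hg hgi hrep)
  refine hle1.trans ?_
  rw [ENNReal.limsup_const_mul_of_ne_top ENNReal.ofReal_ne_top]
  refine mul_le_mul_right ?_ _
  refine hlim.trans (lintegral_mono fun p => ?_)
  -- the pointwise bound
  set c := ‖g p.1‖ * ‖g p.2‖ with hc'
  have hc0 : 0 ≤ c := by positivity
  have hδ : ∀ δ : ℝ, 0 < δ → limsup (fun N => D N p) atTop ≤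
      ENNReal.ofReal (c * (K p.1 p.2 + δ)) := by
    intro δ hδ
    refine limsup_le_of_le (by isBoundedDefault) ?_
    filter_upwards [hK p.1 p.2 δ hδ] with N hN
    exact ENNReal.ofReal_le_ofReal (mul_le_mul_of_nonneg_left hN hc0)
  have hten : Tendsto (fun δ : ℝ => ENNReal.ofReal (c * (K p.1 p.2 + δ))) (𝓝[>] 0)
      (𝓝 (ENNReal.ofReal (c * K p.1 p.2))) := by
    have h4 : Continuous (fun δ : ℝ => ENNReal.ofReal (c * (K p.1 p.2 + δ))) :=
      ENNReal.continuous_ofReal.comp (by fun_prop)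
    have h5 := (h4.tendsto 0)
    rw [add_zero] at h5
    exact h5.mono_left nhdsWithin_le_nhds
  refine ge_of_tendsto hten ?_
  filter_upwards [self_mem_nhdsWithin] with δ hδ'
  exact hδ δ hδ'

end P004G.E3W
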