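import Vale.Agent.P004E.H3.TP

/-!
# P004E, module W (part 9): the mollifier as a Dirichlet polynomial
-/

open Finset Real

namespace P004G.E3W

open P004E (zi nb li Ib gp Mi BlkOK)
open P004.H293 (EE E1 EE_prod E1_const E1_mono EE_of_depOn)
open P004G.H293 (Lp QN mem_QN three_le LN_eq)
open P004.H128 (sl EN_mono EN_const_mul EN_congr wp_nonneg wprod_nonneg abs_Xf_le)

variable [Crv] {C₀ c₀ η y₀ θ z L : ℝ} {S : ℕ → Finset ℕ} {c : ℕ → ℕ → ℝ}

/-- a product of Dirichlet polynomials is a Dirichlet polynomial -/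
theorem exists_poly (J : Finset ℕ) (B : ℕ → ℝ)
    (hS : ∀ i ∈ J, ∀ a ∈ S i, Good a ∧ (a : ℝ) ≤ B i) :
    ∃ (A : Finset ℕ) (m : ℕ → ℝ),
      (∀ X : ℕ → ℝ, P004.CM X → ∏ i ∈ J, Mi S c i X = ∑ a ∈ A, m a * X a) ∧
      (∀ a ∈ A, Good a ∧ (a : ℝ) ≤ ∏ i ∈ J, B i) ∧
      ∑ a ∈ A, |m a| ≤ ∏ i ∈ J, ∑ a ∈ S i, |c i a| := by
  classical
  induction J using Finset.induction_on with
  | empty =>
    refine ⟨{1}, fun _ => 1, fun X hX => ?_, fun a ha => ?_, by simp⟩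
    · simp [hX.1]
    · rw [mem_singleton.1 ha]
      exact ⟨Good.one, by simp⟩
  | insert i J hi ih =>
    obtain ⟨A, m, h1, h2, h3⟩ := ih fun j hj => hS j (mem_insert_of_mem hj)
    have hSi := hS i (mem_insert_self i J)
    set T := S i ×ˢ A with hT
    set f : ℕ × ℕ → ℕ := fun q => q.1 * q.2 with hf
    refine ⟨T.image f, fun n => ∑ q ∈ T.filter (fun q => f q = n), c i q.1 * m q.2,
      fun X hX => ?_, fun a ha => ?_, ?_⟩
    · rw [Finset.prod_insert hi, h1 X hX]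
      unfold Mi
      rw [Finset.sum_mul_sum, ← Finset.sum_product']
      rw [← Finset.sum_fiberwise_of_maps_to (s := T) (t := T.image f) (g := f)
        (fun q hq => mem_image_of_mem f hq)]
      refine Finset.sum_congr rfl fun n _ => ?_
      rw [Finset.sum_mul]
      refine Finset.sum_congr rfl fun q hq => ?_
      obtain ⟨hq1, hq2⟩ := mem_filter.1 hq
      obtain ⟨hq3, hq4⟩ := mem_product.1 hq1
      rw [← hq2]
      simp only [hf]
      rw [hX.2 q.1 q.2 (hSi q.1 hq3).1.1 (h2 q.2 hq4).1.1]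
      ring
    · obtain ⟨q, hq, rfl⟩ := mem_image.1 ha
      obtain ⟨hq3, hq4⟩ := mem_product.1 hq
      have e1 := hSi q.1 hq3
      have e2 := h2 q.2 hq4
      refine ⟨e1.1.mul e2.1, ?_⟩
      rw [Finset.prod_insert hi]
      simp only [hf]
      push_cast
      exact mul_le_mul e1.2 e2.2 (Nat.cast_nonneg _) ((Nat.cast_nonneg _).trans e1.2)
    · rw [Finset.prod_insert hi]
      calc ∑ n ∈ T.image f, |∑ q ∈ T.filter (fun q => f q = n), c i q.1 * m q.2|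
          ≤ ∑ n ∈ T.image f, ∑ q ∈ T.filter (fun q => f q = n), |c i q.1 * m q.2| :=
            Finset.sum_le_sum fun n _ => Finset.abs_sum_le_sum_abs _ _
        _ = ∑ q ∈ T, |c i q.1 * m q.2| :=
            Finset.sum_fiberwise_of_maps_to (fun q hq => mem_image_of_mem f hq) _
        _ = (∑ a ∈ S i, |c i a|) * ∑ a ∈ A, |m a| := by
            rw [Finset.sum_mul_sum, ← Finset.sum_product']
            exact Finset.sum_congr rfl fun q _ => abs_mul _ _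
        _ ≤ _ := by
            have : 0 ≤ ∑ a ∈ S i, |c i a| := Finset.sum_nonneg fun _ _ => abs_nonneg _
            gcongr

/-- the total length of the blocks -/
lemma len_sum (hz : 0 < z) (hθ : 0 < θ) (hθ1 : θ ≤ 1 / 10) (h1 : 1 ≤ li θ z 0) (hη0 : 0 ≤ η)
    (hη : η ≤ 1) (i₀ n : ℕ) :
    ∑ i ∈ Ico i₀ n, zi θ z i * Real.exp (η * li θ z i) ≤
      2 * (zi θ z i₀ * Real.exp (η * li θ z i₀)) := by
  set a : ℕ → ℝ := fun i => zi θ z i * Real.exp (η * li θ z i) with ha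
  have ha0 : ∀ i, 0 < a i := fun i => mul_pos (zi_pos hz i) (Real.exp_pos _)
  have hstep : ∀ i, a (i + 1) ≤ a i * (1 / 2) := by
    intro i
    have e1 := li_one_le hz hθ h1 i
    have e2 : li θ z (i + 1) = (1 + θ) * li θ z i := by
      rw [li_eq' hz (i + 1), li_eq' hz i, pow_succ]; ring
    have e3 : zi θ z (i + 1) = zi θ z i * Real.exp (-li θ z i) := by
      rw [li_eq hz, neg_sub, Real.exp_sub, Real.exp_log (zi_pos hz _), Real.exp_log (zi_pos hz _)]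
      field_simp [(zi_pos (θ := θ) hz i).ne']
    simp only [ha]
    rw [e3, e2, mul_assoc, mul_assoc, ← Real.exp_add]
    refine mul_le_mul_of_nonneg_left ?_ (zi_pos hz i).le
    have e4 : -li θ z i + η * ((1 + θ) * li θ z i) ≤ η * li θ z i + -Real.log 2 := by
      have e5 : η * θ ≤ 1 / 10 := by nlinarith
      have e6 : Real.log 2 ≤ 7 / 10 := by linarith [Real.log_two_lt_d9]
      nlinarith
    calc Real.exp (-li θ z i + η * ((1 + θ) * li θ z i)) ≤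
        Real.exp (η * li θ z i + -Real.log 2) := Real.exp_le_exp.2 e4
      _ = _ := by
          rw [Real.exp_add, Real.exp_neg, Real.exp_log (by norm_num)]
          norm_num
  have hpow : ∀ j, a (i₀ + j) ≤ a i₀ * (1 / 2) ^ j := by
    intro j
    induction j with
    | zero => simp
    | succ j ih =>
      have := hstep (i₀ + j)
      rw [← add_assoc, pow_succ]
      have h3 : (0 : ℝ) ≤ 1 / 2 := by norm_num
      nlinarith
  rw [Finset.sum_Ico_eq_sum_range]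
  calc ∑ j ∈ range (n - i₀), a (i₀ + j) ≤ ∑ j ∈ range (n - i₀), a i₀ * (1 / 2) ^ j :=
        Finset.sum_le_sum fun j _ => hpow j
    _ = a i₀ * ∑ j ∈ range (n - i₀), (1 / 2 : ℝ) ^ j := by rw [Finset.mul_sum]
    _ ≤ a i₀ * 2 := by
        refine mul_le_mul_of_nonneg_left ?_ (ha0 i₀).le
        have h7 := (summable_geometric_of_lt_one (r := (1 / 2 : ℝ)) (by norm_num)
          (by norm_num)).sum_le_tsum (range (n - i₀)) (fun _ _ => by positivity)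
        rw [tsum_geometric_of_lt_one (by norm_num) (by norm_num)] at h7
        norm_num at h7 ⊢
        exact h7
    _ = _ := by ring

/-- the Dirichlet polynomial of the blocks `i₀ ≤ i < i₁` -/
theorem moll_poly (hz : 0 < z) (hθ : 0 < θ) (hθ1 : θ ≤ 1 / 10) (h1 : 1 ≤ li θ z 0) (hη0 : 0 ≤ η)
    (hη : η ≤ 1) (hC₀ : 1 ≤ C₀) (hL : 0 < L) (hB : BlkOK C₀ c₀ η y₀ θ z L S c) (i₀ : ℕ) {i₁ : ℕ}
    (hi₁ : i₁ ≤ nb θ z L + 1) {Λ : ℝ}
    (hΛ : 2 * C₀ * (L * zi θ z i₀) * Real.exp (η * li θ z i₀) ≤ Λ) :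
    ∃ (A : Finset ℕ) (m : ℕ → ℝ),
      (∀ X : ℕ → ℝ, P004.CM X → ∏ i ∈ Ico i₀ i₁, Mi S c i X = ∑ a ∈ A, m a * X a) ∧
      (∀ a ∈ A, Good a ∧ (a : ℝ) ≤ Real.exp Λ) ∧ ∑ a ∈ A, |m a| ≤ Real.exp Λ := by
  have hJ : ∀ i ∈ Ico i₀ i₁, i ≤ nb θ z L := fun i hi => by
    have := (mem_Ico.1 hi).2
    omega
  obtain ⟨A, m, h3, h4, h5⟩ := exists_poly (S := S) (c := c) (Ico i₀ i₁)
    (fun i => Real.exp (C₀ * (L * zi θ z i) * Real.exp (η * li θ z i)))
    (fun i hi a ha => ⟨(hB.supp i (hJ i hi) a ha).1, (hB.supp i (hJ i hi) a ha).2.1⟩)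
  have hprod : ∏ i ∈ Ico i₀ i₁, Real.exp (C₀ * (L * zi θ z i) * Real.exp (η * li θ z i)) ≤
      Real.exp Λ := by
    rw [← Real.exp_sum]
    apply Real.exp_le_exp.2
    refine le_trans ?_ hΛ
    have h6 := len_sum hz hθ hθ1 h1 hη0 hη i₀ i₁
    calc ∑ i ∈ Ico i₀ i₁, C₀ * (L * zi θ z i) * Real.exp (η * li θ z i) =
        (C₀ * L) * ∑ i ∈ Ico i₀ i₁, zi θ z i * Real.exp (η * li θ z i) := by
          rw [Finset.mul_sum]
          exact Finset.sum_congr rfl fun i _ => by ring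
      _ ≤ (C₀ * L) * (2 * (zi θ z i₀ * Real.exp (η * li θ z i₀))) := by gcongr
      _ = _ := by ring
  refine ⟨A, m, h3, fun a ha => ⟨(h4 a ha).1, (h4 a ha).2.trans hprod⟩, h5.trans ?_⟩
  refine (Finset.prod_le_prod (fun i _ => Finset.sum_nonneg fun _ _ => abs_nonneg _)
    fun i hi => hB.coef i (hJ i hi)).trans hprod

/-! ### a crude bound, all `N` -/

lemma norm_ENc_le (N : ℕ) (G : (ℕ → ℝ) → ℂ) : ‖ENc N G‖ ≤ EN N (fun X => ‖G X‖) := by
  unfold ENc EN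
  refine (norm_sum_le _ _).trans (Finset.sum_le_sum fun ω _ => ?_)
  rw [norm_mul, Complex.norm_real, Real.norm_eq_abs, abs_of_nonneg (wprod_nonneg ω)]

lemma EN_LN_sq (hc : StCoef) (hL : 1 ≤ L) (N : ℕ) (τ : ℝ) :
    EN N (fun X => ‖LN N X (sl (1 / L) τ)‖ ^ 2) ≤ (6 * (1 + L)) ^ 792000 := by
  have hsl : sl (1 / L) τ = 1 + (((1 / L : ℝ) : ℂ) + τ * Complex.I) := by
    unfold sl
    push_cast
    ring
  rw [P004.H628.EN_eq]
  have e1 : (fun ω : ℕ → ℝ => ‖LN N (P004.H628.ffx ω) (sl (1 / L) τ)‖ ^ 2) =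
      fun ω => ∏ p ∈ QN N, ‖Lp p (1 + (((1 / L : ℝ) : ℂ) + τ * Complex.I)) (ω p)‖ ^ 2 := by
    funext ω
    rw [LN_eq, hsl, norm_prod, Finset.prod_pow]
  have hdep : P004.H293.DepOn (QN N) (fun ω : ℕ → ℝ =>
      ∏ p ∈ QN N, ‖Lp p (1 + (((1 / L : ℝ) : ℂ) + τ * Complex.I)) (ω p)‖ ^ 2) := by
    intro ω ω' h
    exact Finset.prod_congr rfl fun p hp => by rw [h p hp]
  rw [e1, EE_of_depOn (fun p hp => mem_range.2 (mem_QN.1 hp).1) hdep,
    EE_prod (QN N) (fun p x => ‖Lp p (1 + (((1 / L : ℝ) : ℂ) + τ * Complex.I)) x‖ ^ 2)]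
  exact crude_two hc hL fun p hp => (mem_QN.1 hp).2

theorem tp_all (hc : StCoef) (hL : 1 ≤ L) (N : ℕ) (A : Finset ℕ) (m : ℕ → ℝ) (τ τ' : ℝ) :
    ‖TPf N A m (1 / L) τ τ'‖ ≤ (∑ a ∈ A, |m a|) ^ 2 * (6 * (1 + L)) ^ 792000 := by
  obtain ⟨e6, he6⟩ : ∃ e : ℕ, e = 792000 := ⟨_, rfl⟩
  have h1 := EN_LN_sq hc hL N τ
  have h2 := EN_LN_sq hc hL N τ'
  rw [← he6] at h1 h2 ⊢
  unfold TPf
  refine (norm_ENc_le N _).trans ?_
  set P := ∑ a ∈ A, |m a| with hP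
  have hP0 : 0 ≤ P := Finset.sum_nonneg fun _ _ => abs_nonneg _
  have h3 : EN N (fun X => ‖(((∑ a ∈ A, m a * X a) ^ 2 : ℝ) : ℂ) *
      (LN N X (sl (1 / L) τ) * (starRingEnd ℂ) (LN N X (sl (1 / L) τ')))‖) ≤
      EN N (fun X => P ^ 2 / 2 * (‖LN N X (sl (1 / L) τ)‖ ^ 2 + ‖LN N X (sl (1 / L) τ')‖ ^ 2)) := by
    refine EN_mono fun ω => ?_
    rw [norm_mul, norm_mul, RCLike.norm_conj, Complex.norm_real, Real.norm_eq_abs,
      abs_of_nonneg (sq_nonneg _)]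
    have h4 : (∑ a ∈ A, m a * Xf ω a) ^ 2 ≤ P ^ 2 := by
      have h6 : |∑ a ∈ A, m a * Xf ω a| ≤ P := by
        refine (Finset.abs_sum_le_sum_abs _ _).trans (Finset.sum_le_sum fun a _ => ?_)
        rw [abs_mul]
        exact mul_le_of_le_one_right (abs_nonneg _) (abs_Xf_le ω a)
      exact sq_le_sq' (abs_le.1 h6).1 (abs_le.1 h6).2
    have h5 := two_mul_le_add_sq ‖LN N (Xf ω) (sl (1 / L) τ)‖ ‖LN N (Xf ω) (sl (1 / L) τ')‖
    calc (∑ a ∈ A, m a * Xf ω a) ^ 2 *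
        (‖LN N (Xf ω) (sl (1 / L) τ)‖ * ‖LN N (Xf ω) (sl (1 / L) τ')‖) ≤
        P ^ 2 * (‖LN N (Xf ω) (sl (1 / L) τ)‖ * ‖LN N (Xf ω) (sl (1 / L) τ')‖) := by gcongr
      _ ≤ P ^ 2 * ((‖LN N (Xf ω) (sl (1 / L) τ)‖ ^ 2 + ‖LN N (Xf ω) (sl (1 / L) τ')‖ ^ 2) / 2) := by
          refine mul_le_mul_of_nonneg_left ?_ (by positivity)
          linarith
      _ = _ := by ring
  refine h3.trans ?_
  rw [EN_const_mul]
  have e2 : EN N (fun X => ‖LN N X (sl (1 / L) τ)‖ ^ 2 + ‖LN N X (sl (1 / L) τ')‖ ^ 2) =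
      EN N (fun X => ‖LN N X (sl (1 / L) τ)‖ ^ 2) + EN N (fun X => ‖LN N X (sl (1 / L) τ')‖ ^ 2) := by
    unfold EN
    rw [← Finset.sum_add_distrib]
    exact Finset.sum_congr rfl fun ω _ => by ring
  rw [e2]
  calc P ^ 2 / 2 * (EN N (fun X => ‖LN N X (sl (1 / L) τ)‖ ^ 2) +
        EN N (fun X => ‖LN N X (sl (1 / L) τ')‖ ^ 2)) ≤
      P ^ 2 / 2 * ((6 * (1 + L)) ^ e6 + (6 * (1 + L)) ^ e6) := by gcongr
    _ = _ := by ring

end P004G.E3W
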