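import Vale.Agent.P004E.H3.Fac2
import Vale.Agent.P004E.H3.Abel
import Vale.Agent.P004E.Iface

/-!
# P004E, module W (part 5): the large primes in the two-point function
-/

open Finset Real

namespace P004E

variable [P004G.Crv]

open P004G

/-- Mertens over the good primes. -/
def StMert1 : Prop := ∃ C : ℝ, 1 ≤ C ∧ ∀ x : ℝ, 1 ≤ x →
  |∑ p ∈ gp x, Real.log p / p - Real.log x| ≤ C

end P004E

namespace P004G.E3W

variable [Crv]

open P004G.H293 (Lp tt norm_tt_le norm_tt_le' abs_lam_le QN mem_QN three_le)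
open P004E (gp StMert StMert1)
open P004E.Abel

/-- `p^{-1-w}` -/
noncomputable def kf (w : ℂ) (p : ℕ) : ℂ := (p : ℂ)⁻¹ * Complex.exp (-w * (Real.log p : ℝ))

lemma tt_exp {p : ℕ} (hp : p.Prime) (z : ℂ) :
    tt p z = (((p : ℝ) ^ (-(1 / 2) : ℝ) : ℝ) : ℂ) * Complex.exp (-z * (Real.log p : ℝ)) := by
  have hp0 : (p : ℂ) ≠ 0 := by exact_mod_cast hp.ne_zero
  have hpR : (0 : ℝ) < p := by exact_mod_cast hp.pos
  unfold tt
  rw [sub_eq_add_neg, Complex.cpow_add _ _ hp0]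
  congr 1
  · rw [Complex.ofReal_cpow hpR.le]
    push_cast
    rfl
  · rw [Complex.cpow_def_of_ne_zero hp0, ← Complex.natCast_log]
    congr 1
    ring

lemma sqrt_sq {p : ℕ} (hp : p.Prime) : (((p : ℝ) ^ (-(1 / 2) : ℝ) : ℝ) : ℂ) *
    (((p : ℝ) ^ (-(1 / 2) : ℝ) : ℝ) : ℂ) = (p : ℂ)⁻¹ := by
  have := P004G.H293.inv_sqrt_sq hp.pos
  rw [← Complex.ofReal_mul, ← sq, this]
  push_cast
  ring

lemma tt_mul {p : ℕ} (hp : p.Prime) (z z' : ℂ) :
    tt p z * (starRingEnd ℂ) (tt p z') = kf (z + (starRingEnd ℂ) z') p := by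
  rw [tt_exp hp, tt_exp hp]
  unfold kf
  rw [map_mul, Complex.conj_ofReal, ← Complex.exp_conj, map_mul, map_neg, Complex.conj_ofReal,
    ← sqrt_sq hp]
  have : Complex.exp (-(z + (starRingEnd ℂ) z') * (Real.log p : ℝ)) =
      Complex.exp (-z * (Real.log p : ℝ)) * Complex.exp (-(starRingEnd ℂ) z' * (Real.log p : ℝ)) := by
    rw [← Complex.exp_add]
    ring_nf
  rw [this]
  ring

lemma tt_sq {p : ℕ} (hp : p.Prime) (z : ℂ) : tt p z ^ 2 = kf (2 * z) p := by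
  rw [tt_exp hp]
  unfold kf
  rw [mul_pow, sq, sqrt_sq hp, ← Complex.exp_nat_mul]
  congr 2
  push_cast
  ring

lemma tt_conj_sq {p : ℕ} (hp : p.Prime) (z : ℂ) :
    ((starRingEnd ℂ) (tt p z)) ^ 2 = kf (2 * (starRingEnd ℂ) z) p := by
  rw [tt_exp hp, map_mul, Complex.conj_ofReal, ← Complex.exp_conj, map_mul, map_neg,
    Complex.conj_ofReal]
  unfold kf
  rw [mul_pow, sq, sqrt_sq hp, ← Complex.exp_nat_mul]
  congr 2
  push_cast
  ring

lemma qt_re {p : ℕ} (hp : p.Prime) (z z' : ℂ) :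
    (qt (lam p) (tt p z) ((starRingEnd ℂ) (tt p z'))).re =
      lam p ^ 2 * (kf (z + (starRingEnd ℂ) z') p).re + (lam p ^ 2 - 1) * (kf (2 * z) p).re +
        (lam p ^ 2 - 1) * (kf (2 * (starRingEnd ℂ) z') p).re := by
  unfold qt
  rw [tt_mul hp, tt_sq hp, tt_conj_sq hp]
  have e1 : (lam p : ℂ) ^ 2 = ((lam p ^ 2 : ℝ) : ℂ) := by push_cast; ring
  have e2 : (lam p : ℂ) ^ 2 - 1 = ((lam p ^ 2 - 1 : ℝ) : ℂ) := by push_cast; ring
  rw [e2, e1, Complex.add_re, Complex.re_ofReal_mul, Complex.re_ofReal_mul, Complex.add_re]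
  ring

/-- the good primes `exp u₀ < p < N` -/
noncomputable def RR (N : ℕ) (u₀ : ℝ) : Finset ℕ := (QN N).filter (fun p => Real.exp u₀ < p)

lemma mem_RR {N : ℕ} {u₀ : ℝ} {p : ℕ} :
    p ∈ RR N u₀ ↔ p < N ∧ p.Prime ∧ ¬ p ∣ bd ∧ Real.exp u₀ < p := by
  unfold RR
  rw [mem_filter, mem_QN]
  tauto

open scoped Classical in
lemma sum_RR {M : Type*} [AddCommMonoid M] {N : ℕ} (hN : 2 ≤ N) (u₀ : ℝ) (f : ℕ → M) :
    ∑ p ∈ RR N u₀, f p = ∑ k ∈ Ioc ⌊Real.exp u₀⌋₊ ⌊Real.exp (Real.log ((N - 1 : ℕ) : ℝ))⌋₊,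
      if k.Prime ∧ ¬ k ∣ bd then f k else 0 := by
  have h1 : Real.exp (Real.log ((N - 1 : ℕ) : ℝ)) = ((N - 1 : ℕ) : ℝ) :=
    Real.exp_log (by exact_mod_cast (by omega : 0 < N - 1))
  rw [h1, Nat.floor_natCast, ← Finset.sum_filter]
  refine Finset.sum_congr ?_ fun _ _ => rfl
  ext p
  rw [mem_RR, mem_filter, mem_Ioc, Nat.floor_lt (Real.exp_pos _).le]
  constructor
  · rintro ⟨h1, h2, h3, h4⟩
    exact ⟨⟨h4, by omega⟩, h2, h3⟩
  · rintro ⟨⟨h1, h2⟩, h3, h4⟩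
    exact ⟨by omega, h3, h4, h1⟩

open scoped Classical in
lemma sum_gp (x : ℝ) (f : ℕ → ℝ) : ∑ k ∈ Icc 0 ⌊x⌋₊, (if k.Prime ∧ ¬ k ∣ bd then f k else 0) =
    ∑ p ∈ gp x, f p := by
  rw [← Finset.sum_filter]
  unfold gp
  rw [Finset.range_eq_Ico, ← Finset.Ico_add_one_right_eq_Icc]

lemma kf_eq {w : ℂ} {k : ℕ} (hk : k.Prime) (a : ℝ) :
    Complex.exp (-w * (Real.log k : ℝ)) * ((Real.log k : ℝ) : ℂ)⁻¹ *
      ((a * Real.log k / k : ℝ) : ℂ) = a * kf w k := by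
  have h1 : ((Real.log k : ℝ) : ℂ) ≠ 0 := by
    have : Real.log k ≠ 0 := (Real.log_pos (by exact_mod_cast hk.one_lt)).ne'
    exact_mod_cast this
  unfold kf
  rw [Complex.ofReal_div, Complex.ofReal_mul, Complex.ofReal_natCast]
  generalize ((Real.log k : ℝ) : ℂ) = l at h1 ⊢
  field_simp

/-- the sum with the weights `λ² - 1` -/
lemma rest_M {C : ℝ} (hM : ∀ x : ℝ, 1 ≤ x → |∑ p ∈ gp x, (lam p ^ 2 - 1) * Real.log p / p| ≤ C)
    {N : ℕ} {w : ℂ} (hw : 0 < w.re) {u₀ : ℝ} (h0 : 0 < u₀) (hN : 2 ≤ N)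
    (h01 : u₀ ≤ Real.log ((N - 1 : ℕ) : ℝ)) :
    |∑ p ∈ RR N u₀, (lam p ^ 2 - 1) * (kf w p).re| ≤
      C * (3 / u₀ + ‖w‖ * Real.log (1 + 1 / (w.re * u₀))) := by
  classical
  have h := prime_norm (c := fun k => if k.Prime ∧ ¬ k ∣ bd then
    (lam k ^ 2 - 1) * Real.log k / k else 0) (C := C) (fun x hx => by
      rw [sum_gp x (fun k => (lam k ^ 2 - 1) * Real.log k / k)]
      exact hM x hx) hw h0 h01
  have e1 : ∑ p ∈ RR N u₀, ((lam p ^ 2 - 1 : ℝ) : ℂ) * kf w p =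
      ∑ k ∈ Ioc ⌊Real.exp u₀⌋₊ ⌊Real.exp (Real.log ((N - 1 : ℕ) : ℝ))⌋₊,
        Complex.exp (-w * (Real.log k : ℝ)) * ((Real.log k : ℝ) : ℂ)⁻¹ *
          (((if k.Prime ∧ ¬ k ∣ bd then (lam k ^ 2 - 1) * Real.log k / k else 0 : ℝ)) : ℂ) := by
    rw [sum_RR hN]
    refine Finset.sum_congr rfl fun k _ => ?_
    split_ifs with h3
    · rw [kf_eq h3.1]
    · simp
  rw [← e1] at h
  refine le_trans ?_ h
  refine le_trans (le_of_eq ?_) (Complex.abs_re_le_norm _)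
  rw [Complex.re_sum]
  congr 1
  exact Finset.sum_congr rfl fun p _ => (Complex.re_ofReal_mul _ _).symm

/-- the sum with the weights `λ²` -/
lemma rest_P {C C' : ℝ}
    (hM : ∀ x : ℝ, 1 ≤ x → |∑ p ∈ gp x, (lam p ^ 2 - 1) * Real.log p / p| ≤ C)
    (hM1 : ∀ x : ℝ, 1 ≤ x → |∑ p ∈ gp x, Real.log p / p - Real.log x| ≤ C')
    {N : ℕ} {w : ℂ} (hw : 0 < w.re) {u₀ : ℝ} (h0 : 0 < u₀) (hN : 2 ≤ N)
    (h01 : u₀ ≤ Real.log ((N - 1 : ℕ) : ℝ)) :
    ∑ p ∈ RR N u₀, lam p ^ 2 * (kf w p).re ≤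
      (Real.log (1 + 1 / (‖w‖ * u₀)) + 3) +
        (C + C') * (3 / u₀ + ‖w‖ * Real.log (1 + 1 / (w.re * u₀))) := by
  classical
  have h := prime_re (κ := 1) zero_le_one (c := fun k => if k.Prime ∧ ¬ k ∣ bd then
    lam k ^ 2 * Real.log k / k else 0) (C := C + C') (fun x hx => by
      rw [sum_gp x (fun k => lam k ^ 2 * Real.log k / k), one_mul]
      have e : ∑ p ∈ gp x, lam p ^ 2 * Real.log p / p - Real.log x =
          ∑ p ∈ gp x, (lam p ^ 2 - 1) * Real.log p / p +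
            (∑ p ∈ gp x, Real.log p / p - Real.log x) := by
        rw [add_sub, ← Finset.sum_add_distrib]
        congr 1
        exact Finset.sum_congr rfl fun p _ => by ring
      rw [e]
      exact (abs_add_le _ _).trans (add_le_add (hM x hx) (hM1 x hx))) hw h0 h01
  have e1 : ∑ p ∈ RR N u₀, ((lam p ^ 2 : ℝ) : ℂ) * kf w p =
      ∑ k ∈ Ioc ⌊Real.exp u₀⌋₊ ⌊Real.exp (Real.log ((N - 1 : ℕ) : ℝ))⌋₊,
        Complex.exp (-w * (Real.log k : ℝ)) * ((Real.log k : ℝ) : ℂ)⁻¹ *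
          (((if k.Prime ∧ ¬ k ∣ bd then lam k ^ 2 * Real.log k / k else 0 : ℝ)) : ℂ) := by
    rw [sum_RR hN]
    refine Finset.sum_congr rfl fun k _ => ?_
    split_ifs with h3
    · rw [kf_eq h3.1]
    · simp
  rw [← e1, Complex.re_sum, one_mul] at h
  refine le_trans (le_of_eq ?_) h
  exact Finset.sum_congr rfl fun p _ => (Complex.re_ofReal_mul _ _).symm

/-- a bound for the error terms -/
lemma log_small {L : ℝ} (hL : 1 ≤ L) {t : ℝ} (ht : t ≤ 4 * L ^ (-(1 / 400) : ℝ)) (ht0 : 0 ≤ t)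
    {u₀ : ℝ} (hu : 1 ≤ u₀) : t * Real.log (1 + 1 / ((2 / L) * u₀)) ≤ 1604 := by
  have hL0 : 0 < L := by linarith
  have h1 : 1 + 1 / ((2 / L) * u₀) ≤ 2 * L := by
    have : 1 / ((2 / L) * u₀) ≤ L := by
      rw [div_le_iff₀ (by positivity)]
      have : L * (2 / L * u₀) = 2 * u₀ := by field_simp
      rw [this]
      linarith
    linarith
  have h2 : Real.log (1 + 1 / ((2 / L) * u₀)) ≤ 1 + 400 * L ^ (1 / 400 : ℝ) := by
    have h3 : Real.log (1 + 1 / ((2 / L) * u₀)) ≤ Real.log (2 * L) :=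
      Real.log_le_log (by positivity) h1
    have h4 : Real.log (2 * L) = Real.log 2 + Real.log L := Real.log_mul (by norm_num) hL0.ne'
    have h5 : Real.log 2 ≤ 1 := by linarith [Real.log_two_lt_d9]
    have h6 := Real.log_le_rpow_div hL0.le (ε := 1 / 400) (by norm_num)
    have h7 : L ^ (1 / 400 : ℝ) / (1 / 400) = 400 * L ^ (1 / 400 : ℝ) := by ring
    linarith
  have h8 : 1 ≤ L ^ (1 / 400 : ℝ) := Real.one_le_rpow hL (by norm_num)
  have h9 : L ^ (-(1 / 400) : ℝ) * L ^ (1 / 400 : ℝ) = 1 := by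
    rw [← Real.rpow_add hL0]
    norm_num
  have h10 : 0 ≤ L ^ (-(1 / 400) : ℝ) := by positivity
  calc t * Real.log (1 + 1 / ((2 / L) * u₀)) ≤ t * (1 + 400 * L ^ (1 / 400 : ℝ)) := by gcongr
    _ ≤ (4 * L ^ (-(1 / 400) : ℝ)) * (1 + 400 * L ^ (1 / 400 : ℝ)) := by gcongr
    _ ≤ (4 * L ^ (-(1 / 400) : ℝ)) * (401 * L ^ (1 / 400 : ℝ)) := by gcongr; linarith
    _ = 1604 * (L ^ (-(1 / 400) : ℝ) * L ^ (1 / 400 : ℝ)) := by ring
    _ = 1604 := by rw [h9, mul_one]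

/-- the constant `∑ n^{-3/2}` -/
noncomputable def K32 : ℝ := ∑' n : ℕ, (n : ℝ) ^ (-(3 / 2) : ℝ)

lemma sum32 (T : Finset ℕ) : ∑ p ∈ T, (p : ℝ) ^ (-(3 / 2) : ℝ) ≤ K32 :=
  (Real.summable_nat_rpow.2 (by norm_num)).sum_le_tsum T fun _ _ => by positivity

lemma K32_nonneg : 0 ≤ K32 := tsum_nonneg fun _ => by positivity

/-- the two-point function of the large primes, small frequencies -/
theorem rest_two (hc : StCoef) (hM : StMert) (hM1 : StMert1) : ∃ C : ℝ, 1 ≤ C ∧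
    ∀ (L τ τ' u₀ : ℝ) (N : ℕ), 1 ≤ L → |τ| ≤ L ^ (-(1 / 400) : ℝ) → |τ'| ≤ L ^ (-(1 / 400) : ℝ) →
      1 ≤ u₀ → Real.exp u₀ + 2 ≤ N →
      ∏ p ∈ RR N u₀, ‖E1c p (fun x => Lp p (1 + (((1 / L : ℝ) : ℂ) + τ * Complex.I)) x *
        (starRingEnd ℂ) (Lp p (1 + (((1 / L : ℝ) : ℂ) + τ' * Complex.I)) x))‖ ≤
      C * (1 + 1 / (u₀ * (|τ - τ'| + 1 / L))) := by
  obtain ⟨C₁, hC₁, h1⟩ := hM
  obtain ⟨C₂, hC₂, h2⟩ := hM1
  set E : ℝ := 3 + (3 * C₁ + C₂) * 1607 + 200000 * K32 with hE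
  refine ⟨max 1 (2 * Real.exp E), le_max_left _ _, fun L τ τ' u₀ N hL hτ hτ' hu hN => ?_⟩
  have hL0 : 0 < L := by linarith
  have hu0 : 0 < u₀ := by linarith
  set z : ℂ := ((1 / L : ℝ) : ℂ) + τ * Complex.I with hz
  set z' : ℂ := ((1 / L : ℝ) : ℂ) + τ' * Complex.I with hz'
  have hzre : z.re = 1 / L := by rw [hz]; simp
  have hzre' : z'.re = 1 / L := by rw [hz']; simp
  have hzim : z.im = τ := by rw [hz]; simp
  have hzim' : z'.im = τ' := by rw [hz']; simp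
  have hN2 : 2 ≤ N := by
    have := Real.exp_pos u₀
    have h3 : (2 : ℝ) ≤ N := by linarith
    exact_mod_cast h3
  have h01 : u₀ ≤ Real.log ((N - 1 : ℕ) : ℝ) := by
    rw [Real.le_log_iff_exp_le (by exact_mod_cast (by omega : 0 < N - 1))]
    have e : ((N - 1 : ℕ) : ℝ) = (N : ℝ) - 1 := by
      rw [Nat.cast_sub (by omega)]
      simp
    rw [e]
    linarith
  have hκ : (2 / L : ℝ) ≤ 2 * L ^ (-(1 / 400) : ℝ) := by
    have : L ^ (-1 : ℝ) ≤ L ^ (-(1 / 400) : ℝ) :=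
      Real.rpow_le_rpow_of_exponent_le hL (by norm_num)
    rw [Real.rpow_neg_one] at this
    rw [div_eq_mul_inv]
    linarith
  -- the three frequencies
  have hw1 : ‖z + (starRingEnd ℂ) z'‖ ≤ 4 * L ^ (-(1 / 400) : ℝ) ∧ (z + (starRingEnd ℂ) z').re = 2 / L
      ∧ (|τ - τ'| + 1 / L) ≤ 2 * ‖z + (starRingEnd ℂ) z'‖ := by
    have e1 : (z + (starRingEnd ℂ) z').re = 2 / L := by
      rw [Complex.add_re, Complex.conj_re, hzre, hzre']; ring
    have e2 : (z + (starRingEnd ℂ) z').im = τ - τ' := by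
      rw [Complex.add_im, Complex.conj_im, hzim, hzim']; ring
    refine ⟨?_, e1, ?_⟩
    · have := Complex.norm_le_abs_re_add_abs_im (z + (starRingEnd ℂ) z')
      rw [e1, e2, abs_of_pos (by positivity : (0 : ℝ) < 2 / L)] at this
      have h3 := abs_sub τ τ'
      linarith
    · have a1 := Complex.abs_re_le_norm (z + (starRingEnd ℂ) z')
      have a2 := Complex.abs_im_le_norm (z + (starRingEnd ℂ) z')
      rw [e1, abs_of_pos (by positivity : (0 : ℝ) < 2 / L)] at a1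
      rw [e2] at a2
      have : 1 / L ≤ 2 / L := by gcongr; norm_num
      linarith
  have hw2 : ∀ y : ℂ, ∀ t : ℝ, y.re = 1 / L → |y.im| = |t| → |t| ≤ L ^ (-(1 / 400) : ℝ) →
      ‖2 * y‖ ≤ 4 * L ^ (-(1 / 400) : ℝ) ∧ (2 * y).re = 2 / L := by
    intro y t hy1 hy2 ht
    have e1 : (2 * y).re = 2 / L := by
      rw [Complex.mul_re]
      simp [hy1]
      ring
    refine ⟨?_, e1⟩
    rw [norm_mul, Complex.norm_ofNat]
    have := Complex.norm_le_abs_re_add_abs_im y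
    rw [hy1, hy2, abs_of_pos (by positivity : (0 : ℝ) < 1 / L)] at this
    have h3 : 2 * (1 / L) = 2 / L := by ring
    linarith
  have hlog0 : 0 ≤ Real.log (1 + 1 / ((2 / L) * u₀)) := Real.log_nonneg (by
    have : 0 < 1 / ((2 / L) * u₀) := by positivity
    linarith)
  have h3u : 3 / u₀ ≤ 3 := by
    rw [div_le_iff₀ hu0]; linarith
  -- the three sums
  have s1 := rest_P h1 h2 (w := z + (starRingEnd ℂ) z') (by rw [hw1.2.1]; positivity) hu0 hN2 h01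
  have s2 := rest_M h1 (w := 2 * z) (by rw [(hw2 z τ hzre (by rw [hzim]) hτ).2]; positivity)
    hu0 hN2 h01
  have hcz : ((starRingEnd ℂ) z').re = 1 / L := by rw [Complex.conj_re, hzre']
  have hcz' : |((starRingEnd ℂ) z').im| = |τ'| := by rw [Complex.conj_im, hzim', abs_neg]
  have s3 := rest_M h1 (w := 2 * (starRingEnd ℂ) z')
    (by rw [(hw2 _ τ' hcz hcz' hτ').2]; positivity) hu0 hN2 h01
  rw [hw1.2.1] at s1
  rw [(hw2 z τ hzre (by rw [hzim]) hτ).2] at s2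
  rw [(hw2 _ τ' hcz hcz' hτ').2] at s3
  have t1 := log_small hL hw1.1 (norm_nonneg _) hu
  have t2 := log_small hL (hw2 z τ hzre (by rw [hzim]) hτ).1 (norm_nonneg _) hu
  have t3 := log_small hL (hw2 _ τ' hcz hcz' hτ').1 (norm_nonneg _) hu
  have s2' := (le_abs_self _).trans s2
  have s3' := (le_abs_self _).trans s3
  -- the product
  have hprod : ∏ p ∈ RR N u₀, ‖E1c p (fun x => Lp p (1 + z) x *
        (starRingEnd ℂ) (Lp p (1 + z') x))‖ ≤
      Real.exp (∑ p ∈ RR N u₀, ((qt (lam p) (tt p z) ((starRingEnd ℂ) (tt p z'))).re +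
        200000 * (p : ℝ) ^ (-(3 / 2) : ℝ))) := by
    rw [Real.exp_sum]
    refine Finset.prod_le_prod (fun p _ => norm_nonneg _) fun p hp => ?_
    obtain ⟨_, hpp, hpb, _⟩ := mem_RR.1 hp
    exact two_point_exp hc hpp (three_le hpp hpb) (by rw [hzre]; positivity)
      (by rw [hzre']; positivity)
  have hsum : ∑ p ∈ RR N u₀, ((qt (lam p) (tt p z) ((starRingEnd ℂ) (tt p z'))).re +
        200000 * (p : ℝ) ^ (-(3 / 2) : ℝ)) ≤
      Real.log (1 + 1 / (‖z + (starRingEnd ℂ) z'‖ * u₀)) + E := by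
    rw [Finset.sum_add_distrib, ← Finset.mul_sum]
    have e1 : ∑ p ∈ RR N u₀, (qt (lam p) (tt p z) ((starRingEnd ℂ) (tt p z'))).re =
        ∑ p ∈ RR N u₀, lam p ^ 2 * (kf (z + (starRingEnd ℂ) z') p).re +
        ∑ p ∈ RR N u₀, (lam p ^ 2 - 1) * (kf (2 * z) p).re +
        ∑ p ∈ RR N u₀, (lam p ^ 2 - 1) * (kf (2 * (starRingEnd ℂ) z') p).re := by
      rw [← Finset.sum_add_distrib, ← Finset.sum_add_distrib]
      exact Finset.sum_congr rfl fun p hp => qt_re (mem_RR.1 hp).2.1 z z'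
    have e2 := sum32 (RR N u₀)
    rw [e1, hE]
    have c1 : (C₁ + C₂) * (3 / u₀ + ‖z + (starRingEnd ℂ) z'‖ *
        Real.log (1 + 1 / (2 / L * u₀))) ≤ (C₁ + C₂) * 1607 :=
      mul_le_mul_of_nonneg_left (by linarith) (by linarith)
    have c2 : C₁ * (3 / u₀ + ‖2 * z‖ * Real.log (1 + 1 / (2 / L * u₀))) ≤ C₁ * 1607 :=
      mul_le_mul_of_nonneg_left (by linarith) (by linarith)
    have c3 : C₁ * (3 / u₀ + ‖2 * (starRingEnd ℂ) z'‖ * Real.log (1 + 1 / (2 / L * u₀))) ≤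
        C₁ * 1607 := mul_le_mul_of_nonneg_left (by linarith) (by linarith)
    linarith
  refine hprod.trans ((Real.exp_le_exp.2 hsum).trans ?_)
  have hwn : 0 < ‖z + (starRingEnd ℂ) z'‖ := by
    have : 0 < |τ - τ'| + 1 / L := by positivity
    linarith [hw1.2.2]
  have hδ : 0 < |τ - τ'| + 1 / L := by positivity
  rw [Real.exp_add, Real.exp_log (by positivity)]
  have f1 : 1 + 1 / (‖z + (starRingEnd ℂ) z'‖ * u₀) ≤ 2 * (1 + 1 / (u₀ * (|τ - τ'| + 1 / L))) := by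
    have f2 : 1 / (‖z + (starRingEnd ℂ) z'‖ * u₀) ≤ 2 * (1 / (u₀ * (|τ - τ'| + 1 / L))) := by
      rw [mul_one_div, div_le_div_iff₀ (by positivity) (by positivity)]
      nlinarith [hw1.2.2]
    linarith
  calc (1 + 1 / (‖z + (starRingEnd ℂ) z'‖ * u₀)) * Real.exp E ≤
      (2 * (1 + 1 / (u₀ * (|τ - τ'| + 1 / L)))) * Real.exp E := by gcongr
    _ = (2 * Real.exp E) * (1 + 1 / (u₀ * (|τ - τ'| + 1 / L))) := by ring
    _ ≤ _ := by
        gcongr
        exact le_max_right _ _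

/-- crude bound for the second moment of the Euler factors -/
theorem crude_two (hc : StCoef) {L : ℝ} (hL : 1 ≤ L) {τ : ℝ} {T : Finset ℕ}
    (hT : ∀ p ∈ T, p.Prime ∧ ¬ p ∣ bd) :
    ∏ p ∈ T, P004.H293.E1 p (fun x => ‖Lp p (1 + (((1 / L : ℝ) : ℂ) + τ * Complex.I)) x‖ ^ 2) ≤
      (6 * (1 + L)) ^ 792000 := by
  have hL0 : 0 < L := by linarith
  set z : ℂ := ((1 / L : ℝ) : ℂ) + τ * Complex.I with hz
  have hzre : z.re = 1 / L := by rw [hz]; simp
  have h1 : ∏ p ∈ T, P004.H293.E1 p (fun x => ‖Lp p (1 + z) x‖ ^ 2) ≤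
      Real.exp (∑ p ∈ T, 3000 * ‖tt p z‖ ^ 2) := by
    rw [Real.exp_sum]
    refine Finset.prod_le_prod (fun p hp => ?_) fun p hp => ?_
    · have := P004.H293.E1_mono (hT p hp).1.one_lt.le (G := fun _ => 0)
        (H := fun x => ‖Lp p (1 + z) x‖ ^ 2) (fun x _ => by positivity)
      rwa [P004.H293.E1_const] at this
    · refine (P004G.H293.E1_Lp2 hc (hT p hp).1 (three_le (hT p hp).1 (hT p hp).2)
        (by rw [hzre]; positivity)).trans ?_
      linarith [Real.add_one_le_exp (3000 * ‖tt p z‖ ^ 2)]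
  refine h1.trans ?_
  have h2 : ∑ p ∈ T, ‖tt p z‖ ^ 2 ≤ ∑ p ∈ T, (p : ℝ) ^ (-1 - 1 / L) := by
    refine Finset.sum_le_sum fun p hp => ?_
    rw [P004G.H293.norm_tt_sq (hT p hp).1.pos, hzre]
    apply Real.rpow_le_rpow_of_exponent_le (by exact_mod_cast (hT p hp).1.one_lt.le)
    have : 0 < 1 / L := by positivity
    linarith
  have h3 := P004.H293.sum_rpow_tail' (S := T) (fun p hp => (hT p hp).1) le_rfl (σ := 1 / L)
    (by positivity) (by rw [div_le_one hL0]; exact hL)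
    (fun p hp => by exact_mod_cast (hT p hp).1.two_le)
  have hlog2 : 0 < Real.log 2 := Real.log_pos (by norm_num)
  have h4 : 264 * Real.exp (-(1 / L) * Real.log 2) * (1 + Real.log (1 + 1 / (1 / L * Real.log 2)))
      ≤ 264 * (1 + Real.log (2 * (1 + L))) := by
    have a1 : Real.exp (-(1 / L) * Real.log 2) ≤ 1 := by
      apply Real.exp_le_one_iff.2
      have : 0 < 1 / L * Real.log 2 := by positivity
      linarith
    have a2 : 1 + 1 / (1 / L * Real.log 2) ≤ 2 * (1 + L) := by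
      have : 1 / (1 / L * Real.log 2) ≤ 2 * L := by
        rw [div_le_iff₀ (by positivity)]
        have e : 2 * L * (1 / L * Real.log 2) = 2 * Real.log 2 := by field_simp
        rw [e]
        linarith [Real.log_two_gt_d9]
      linarith
    have a3 : Real.log (1 + 1 / (1 / L * Real.log 2)) ≤ Real.log (2 * (1 + L)) :=
      Real.log_le_log (by positivity) a2
    have a4 : 0 ≤ Real.log (1 + 1 / (1 / L * Real.log 2)) := Real.log_nonneg (by
      have : 0 < 1 / (1 / L * Real.log 2) := by positivity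
      linarith)
    calc _ ≤ 264 * 1 * (1 + Real.log (2 * (1 + L))) := by gcongr
      _ = _ := by ring
  have h5 : ∑ p ∈ T, 3000 * ‖tt p z‖ ^ 2 ≤ ((792000 : ℕ) : ℝ) * (1 + Real.log (2 * (1 + L))) := by
    rw [← Finset.mul_sum]
    push_cast
    linarith
  refine (Real.exp_le_exp.2 h5).trans ?_
  rw [Real.exp_nat_mul, Real.exp_add, Real.exp_log (by positivity)]
  refine pow_le_pow_left₀ (by positivity) ?_ _
  have := Real.exp_one_lt_d9
  nlinarith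

end P004G.E3W
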