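import Mathlib

/-!
# P004E, module W (part 10): the Schur-type integral, and a pointwise Fourier bound
-/

open Real MeasureTheory Set
open scoped FourierTransform ENNReal

namespace P004E.Schur

/-- the kernel near the diagonal -/
noncomputable def Dk (w L t : ℝ) : ℝ := if |t| < 1 / w then 1 / (w * (|t| + 1 / L)) else 0

lemma Dk_nonneg {w L : ℝ} (hw : 0 < w) (hL : 0 < L) (t : ℝ) : 0 ≤ Dk w L t := by
  unfold Dk
  split_ifs
  · positivity
  · exact le_rfl

lemma Dk_meas (w L : ℝ) : Measurable (Dk w L) := by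
  unfold Dk
  refine Measurable.ite ?_ ?_ measurable_const
  · exact measurableSet_lt measurable_norm measurable_const
  · exact measurable_const.div (measurable_const.mul (measurable_norm.add_const _))

lemma Dk_int {w L : ℝ} (hw : 0 < w) (hL : 0 < L) :
    Integrable (Dk w L) ∧ ∫ t, Dk w L t = 2 / w * Real.log (1 + L / w) := by
  have hcont : ContinuousOn (fun x : ℝ => 1 / (w * (x + 1 / L))) (Icc 0 (1 / w)) := by
    refine ContinuousOn.div continuousOn_const (by fun_prop) fun x hx => ?_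
    have : 0 < x + 1 / L := by
      have := hx.1
      positivity
    positivity
  constructor
  · have h1 : Integrable ((Ioo (-(1 / w)) (1 / w)).indicator fun _ : ℝ => L / w) := by
      rw [integrable_indicator_iff measurableSet_Ioo]
      exact integrableOn_const (by simp)
    refine h1.mono' (Dk_meas w L).aestronglyMeasurable (Filter.Eventually.of_forall fun t => ?_)
    rw [Real.norm_of_nonneg (Dk_nonneg hw hL t)]
    unfold Dk
    split_ifs with h
    · rw [indicator_of_mem (show t ∈ Ioo (-(1 / w)) (1 / w) from abs_lt.1 h)]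
      rw [div_le_div_iff₀ (by positivity) hw]
      have : 1 / L * L = 1 := by field_simp
      have h2 : 0 ≤ |t| := abs_nonneg t
      have h3 : L * (w * (|t| + 1 / L)) = w * (L * |t|) + w := by
        field_simp
      rw [h3]
      have : 0 ≤ w * (L * |t|) := by positivity
      linarith
    · exact indicator_nonneg (fun _ _ => by positivity) _
  · have e1 : (fun t => Dk w L t) = fun t => (fun x : ℝ => if x < 1 / w then
        1 / (w * (x + 1 / L)) else 0) |t| := rfl
    rw [e1]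
    refine (integral_comp_abs (f := fun x : ℝ => if x < 1 / w then
      1 / (w * (x + 1 / L)) else 0)).trans ?_
    have e2 : ∫ x in Ioi (0 : ℝ), (if x < 1 / w then 1 / (w * (x + 1 / L)) else 0) =
        ∫ x in (0 : ℝ)..(1 / w), 1 / (w * (x + 1 / L)) := by
      rw [intervalIntegral.integral_of_le (by positivity), integral_Ioc_eq_integral_Ioo]
      have e3 : (fun x : ℝ => if x < 1 / w then 1 / (w * (x + 1 / L)) else 0) =
          (Iio (1 / w)).indicator (fun x => 1 / (w * (x + 1 / L))) := by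
        funext x
        by_cases h : x < 1 / w
        · rw [if_pos h, indicator_of_mem (show x ∈ Iio (1 / w) from h)]
        · rw [if_neg h, indicator_of_notMem (show x ∉ Iio (1 / w) from h)]
      rw [e3, setIntegral_indicator measurableSet_Iio]
      rfl
    have e4 : ∫ x in (0 : ℝ)..(1 / w), 1 / (w * (x + 1 / L)) = 1 / w * Real.log (1 + L / w) := by
      have hd : ∀ x ∈ uIcc (0 : ℝ) (1 / w), HasDerivAt (fun x : ℝ => 1 / w * Real.log (x + 1 / L))
          (1 / (w * (x + 1 / L))) x := by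
        intro x hx
        rw [uIcc_of_le (by positivity)] at hx
        have hx0 : 0 < x + 1 / L := by
          have := hx.1
          positivity
        have h1 : HasDerivAt (fun x : ℝ => x + 1 / L) 1 x := (hasDerivAt_id' x).add_const _
        refine ((h1.log hx0.ne').const_mul (1 / w)).congr_deriv ?_
        field_simp
      rw [intervalIntegral.integral_eq_sub_of_hasDerivAt hd (by
        rw [intervalIntegrable_iff_integrableOn_Icc_of_le (by positivity)]
        exact hcont.integrableOn_Icc)]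
      have e5 : Real.log (1 / w + 1 / L) - Real.log (0 + 1 / L) = Real.log (1 + L / w) := by
        rw [zero_add, ← Real.log_div (by positivity) (by positivity)]
        congr 1
        field_simp
        ring
      rw [← mul_sub, e5]
    rw [e2, e4]
    ring

/-- pointwise bound of the kernel -/
lemma kern_le {w L : ℝ} (hw : 0 < w) (hL : 0 < L) (τ τ' : ℝ) :
    (1 + (τ * w) ^ 2)⁻¹ * (1 + (τ' * w) ^ 2)⁻¹ * (1 + 1 / (w * (|τ - τ'| + 1 / L))) ≤
      2 * ((1 + (τ * w) ^ 2)⁻¹ * (1 + (τ' * w) ^ 2)⁻¹) + (1 + (τ * w) ^ 2)⁻¹ * Dk w L (τ - τ') := by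
  have ha : 0 < (1 + (τ * w) ^ 2)⁻¹ := by positivity
  have hb : 0 < (1 + (τ' * w) ^ 2)⁻¹ := by positivity
  have hb1 : (1 + (τ' * w) ^ 2)⁻¹ ≤ 1 := by
    apply inv_le_one_of_one_le₀
    have := sq_nonneg (τ' * w)
    linarith
  set a := (1 + (τ * w) ^ 2)⁻¹
  set b := (1 + (τ' * w) ^ 2)⁻¹
  have h0 : 0 < |τ - τ'| + 1 / L := by positivity
  unfold Dk
  split_ifs with h
  · have h1 : 0 ≤ 1 / (w * (|τ - τ'| + 1 / L)) := by positivity
    have h2 : a * b * (1 / (w * (|τ - τ'| + 1 / L))) ≤ a * (1 / (w * (|τ - τ'| + 1 / L))) := by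
      refine mul_le_mul_of_nonneg_right ?_ h1
      nlinarith
    have h3 : 0 ≤ a * b := by positivity
    nlinarith
  · rw [not_lt] at h
    have h1 : 1 / (w * (|τ - τ'| + 1 / L)) ≤ 1 := by
      rw [div_le_one (by positivity)]
      have h2 : 1 ≤ w * |τ - τ'| := by
        calc (1 : ℝ) = w * (1 / w) := by field_simp
          _ ≤ _ := by gcongr
      have h3 : 0 ≤ w * (1 / L) := by positivity
      nlinarith
    have h3 : 0 ≤ a * b := by positivity
    nlinarith

/-- the double integral -/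
theorem schur {w L : ℝ} (hw : 0 < w) (hL : 0 < L) :
    ∫⁻ p : ℝ × ℝ, ENNReal.ofReal ((1 + (p.1 * w) ^ 2)⁻¹ * (1 + (p.2 * w) ^ 2)⁻¹ *
      (1 + 1 / (w * (|p.1 - p.2| + 1 / L)))) ≤
      ENNReal.ofReal (w⁻¹ ^ 2 * (20 + 7 * Real.log (1 + L / w))) := by
  set a : ℝ → ℝ := fun τ => (1 + (τ * w) ^ 2)⁻¹ with ha
  have ham : Measurable a := by
    simp only [ha]
    fun_prop
  have ha0 : ∀ τ, 0 ≤ a τ := fun τ => by simp only [ha]; positivity
  have hai : Integrable a := (integrable_inv_one_add_sq).comp_mul_right' hw.ne'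
  have haint : ∫ τ, a τ = w⁻¹ * π := by
    simp only [ha]
    rw [MeasureTheory.Measure.integral_comp_mul_right (fun y : ℝ => (1 + y ^ 2)⁻¹) w,
      integral_univ_inv_one_add_sq, abs_of_pos (inv_pos.mpr hw)]
    rfl
  obtain ⟨hDi, hDint⟩ := Dk_int hw hL
  have hlog : 0 ≤ Real.log (1 + L / w) := Real.log_nonneg (by
    have : 0 < L / w := by positivity
    linarith)
  set W := 2 * (w⁻¹ * π) + 2 / w * Real.log (1 + L / w) with hW
  have hW0 : 0 ≤ W := by positivity
  calc ∫⁻ p : ℝ × ℝ, ENNReal.ofReal ((1 + (p.1 * w) ^ 2)⁻¹ * (1 + (p.2 * w) ^ 2)⁻¹ *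
      (1 + 1 / (w * (|p.1 - p.2| + 1 / L))))
      ≤ ∫⁻ p : ℝ × ℝ, ENNReal.ofReal (2 * (a p.1 * a p.2) + a p.1 * Dk w L (p.1 - p.2)) :=
        lintegral_mono fun p => ENNReal.ofReal_le_ofReal (kern_le hw hL p.1 p.2)
    _ = ∫⁻ τ : ℝ, ∫⁻ τ' : ℝ, ENNReal.ofReal (2 * (a τ * a τ') + a τ * Dk w L (τ - τ')) := by
        rw [Measure.volume_eq_prod, lintegral_prod]
        refine Measurable.aemeasurable (Measurable.ennreal_ofReal ?_)
        have m1 : Measurable fun p : ℝ × ℝ => a p.1 := ham.comp measurable_fst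
        have m2 : Measurable fun p : ℝ × ℝ => a p.2 := ham.comp measurable_snd
        have m3 : Measurable fun p : ℝ × ℝ => Dk w L (p.1 - p.2) :=
          (Dk_meas w L).comp (measurable_fst.sub measurable_snd)
        exact (measurable_const.mul (m1.mul m2)).add (m1.mul m3)
    _ = ∫⁻ τ : ℝ, ENNReal.ofReal (a τ * W) := by
        refine lintegral_congr fun τ => ?_
        have hi1 : Integrable fun τ' => 2 * (a τ * a τ') := (hai.const_mul _).const_mul _
        have hi2 : Integrable fun τ' => a τ * Dk w L (τ - τ') :=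
          (hDi.comp_sub_left τ).const_mul _
        have hh := ofReal_integral_eq_lintegral_ofReal
          (f := fun τ' => 2 * (a τ * a τ') + a τ * Dk w L (τ - τ')) (hi1.add hi2)
          (Filter.Eventually.of_forall fun τ' => by
            have h1 := ha0 τ
            have h2 := ha0 τ'
            have h3 := Dk_nonneg hw hL (τ - τ')
            simp only [Pi.zero_apply]
            positivity)
        rw [← hh]
        congr 1
        rw [integral_add hi1 hi2, integral_const_mul, integral_const_mul, integral_const_mul,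
          haint, integral_sub_left_eq_self (fun t => Dk w L t) volume τ, hDint]
        rw [hW]
        ring
    _ = ENNReal.ofReal (w⁻¹ * π * W) := by
        rw [← ofReal_integral_eq_lintegral_ofReal (hai.mul_const W)
          (Filter.Eventually.of_forall fun τ => by
            have h1 := ha0 τ
            simp only [Pi.zero_apply]
            positivity), integral_mul_const, haint]
    _ ≤ _ := by
        apply ENNReal.ofReal_le_ofReal
        rw [hW]
        have hπ1 := Real.pi_lt_d2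
        have hπ0 := Real.pi_pos
        have e1 : w⁻¹ * π * (2 * (w⁻¹ * π) + 2 / w * Real.log (1 + L / w)) =
            w⁻¹ ^ 2 * (2 * π ^ 2 + 2 * π * Real.log (1 + L / w)) := by
          field_simp
        rw [e1]
        have h1 : 2 * π ^ 2 ≤ 20 := by nlinarith
        have h2 : 2 * π * Real.log (1 + L / w) ≤ 7 * Real.log (1 + L / w) := by
          refine mul_le_mul_of_nonneg_right ?_ hlog
          linarith
        gcongr

/-! ### the Fourier transform, pointwise -/

lemma iteratedDeriv_ofReal (k : ℝ → ℝ) : ∀ n : ℕ, ContDiff ℝ n k →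
    iteratedDeriv n (fun x => (k x : ℂ)) = fun x => ((iteratedDeriv n k x : ℝ) : ℂ) := by
  intro n
  induction n with
  | zero => intro _; simp
  | succ n ih =>
    intro h
    have h1 : ContDiff ℝ n k := h.of_le (by exact_mod_cast Nat.le_succ n)
    rw [iteratedDeriv_succ, ih h1, iteratedDeriv_succ]
    ext x
    have h2 : Differentiable ℝ (iteratedDeriv n k) :=
      h.differentiable_iteratedDeriv n (by exact_mod_cast Nat.lt_succ_self n)
    exact (h2 x).hasDerivAt.ofReal_comp.deriv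

lemma pow_aux (n : ℕ) (x : ℝ) (hx : 0 ≤ x) : (1 + x) ^ n ≤ 2 ^ n * (1 + x ^ n) := by
  rcases le_total x 1 with h | h
  · calc (1 + x) ^ n ≤ 2 ^ n := pow_le_pow_left₀ (by linarith) (by linarith) n
      _ ≤ 2 ^ n * (1 + x ^ n) := le_mul_of_one_le_right (by positivity)
          (by have := pow_nonneg hx n; linarith)
  · calc (1 + x) ^ n ≤ (2 * x) ^ n := pow_le_pow_left₀ (by linarith) (by linarith) n
      _ = 2 ^ n * x ^ n := by rw [mul_pow]
      _ ≤ 2 ^ n * (1 + x ^ n) := by gcongr; linarith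

/-- the Fourier representation of a smooth function, pointwise bound -/
theorem four_pt (B : ℕ) {w I₀ I₁ : ℝ} {k : ℝ → ℝ} (hw : 0 < w) (hk : ContDiff ℝ (B + 2 : ℕ) k)
    (hint : ∀ i ≤ B + 2, Integrable (iteratedDeriv i k))
    (h0 : (∫ x, |k x|) ≤ I₀) (h1 : (∫ x, |iteratedDeriv (B + 2) k x|) ≤ I₁) :
    ∃ g : ℝ → ℂ, Continuous g ∧ Integrable g ∧
      (∀ x : ℝ, (k x : ℂ) = ∫ τ : ℝ, g τ * Complex.exp (τ * x * Complex.I)) ∧
      ∀ τ, ‖g τ‖ * (1 + |τ| * w) ^ B ≤
        (2 ^ (B + 2) * (I₀ + w ^ (B + 2) * I₁)) * (1 + (τ * w) ^ 2)⁻¹ := by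
  set f : ℝ → ℂ := fun x => (k x : ℂ) with hf
  have hfc : ContDiff ℝ (B + 2 : ℕ) f := Complex.ofRealCLM.contDiff.comp hk
  have hder : ∀ n ≤ B + 2, iteratedDeriv n f = fun x => ((iteratedDeriv n k x : ℝ) : ℂ) := by
    intro n hn
    exact iteratedDeriv_ofReal k n (hk.of_le (by exact_mod_cast hn))
  have hfint : ∀ n ≤ B + 2, Integrable (iteratedDeriv n f) := by
    intro n hn
    rw [hder n hn]
    exact (hint n hn).ofReal
  have hfi : Integrable f := by simpa using hfint 0 (Nat.zero_le _)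
  set F : ℝ → ℂ := 𝓕 f with hF
  have hFc : Continuous F := by
    have := VectorFourier.fourierIntegral_continuous (e := Real.fourierChar) (μ := volume)
      (L := innerₗ ℝ) Real.continuous_fourierChar continuous_inner hfi
    exact this
  have hF0 : ∀ t, ‖F t‖ ≤ I₀ := by
    intro t
    refine le_trans (VectorFourier.norm_fourierIntegral_le_integral_norm _ _ _ _ _) ?_
    simpa [hf] using h0
  have hF1 : ∀ t, (2 * π * |t|) ^ (B + 2) * ‖F t‖ ≤ I₁ := by
    intro t
    have h2 : 𝓕 (iteratedDeriv (B + 2) f) t = (2 * π * Complex.I * t) ^ (B + 2) • F t := by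
      have := Real.fourier_iteratedDeriv (f := f) (N := ((B + 2 : ℕ) : ℕ∞)) (n := B + 2)
        (by exact_mod_cast hfc) (fun n hn => hfint n (by exact_mod_cast hn)) (by rfl)
      exact congrFun this t
    have h3 : ‖𝓕 (iteratedDeriv (B + 2) f) t‖ ≤ I₁ := by
      refine le_trans (VectorFourier.norm_fourierIntegral_le_integral_norm _ _ _ _ _) ?_
      rw [hder (B + 2) le_rfl]
      simpa using h1
    rw [h2] at h3
    simpa [norm_smul, abs_of_pos pi_pos] using h3
  have hpi : (0 : ℝ) < 2 * π := by positivity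
  have hpc : ((2 * π : ℝ) : ℂ) ≠ 0 := by exact_mod_cast hpi.ne'
  have hpi1 : (2 * π)⁻¹ ≤ 1 := by
    apply inv_le_one_of_one_le₀
    linarith [Real.pi_gt_three]
  have hI₀ : 0 ≤ I₀ := le_trans (norm_nonneg _) (hF0 0)
  have hI₁ : 0 ≤ I₁ := le_trans (by positivity) (hF1 0)
  set g : ℝ → ℂ := fun τ => ((2 * π : ℝ) : ℂ)⁻¹ * F (τ * (2 * π)⁻¹) with hg
  have hgc : Continuous g := by
    refine continuous_const.mul (hFc.comp (continuous_id.mul continuous_const))
  have hgn : ∀ τ, ‖g τ‖ = (2 * π)⁻¹ * ‖F (τ * (2 * π)⁻¹)‖ := by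
    intro τ
    simp [hg, abs_of_pos pi_pos]
  have key : ∀ τ, ‖g τ‖ * (1 + |τ| * w) ^ B ≤
      (2 ^ (B + 2) * (I₀ + w ^ (B + 2) * I₁)) * (1 + (τ * w) ^ 2)⁻¹ := by
    intro τ
    have e1 : ‖g τ‖ ≤ I₀ := by
      rw [hgn]
      calc (2 * π)⁻¹ * ‖F (τ * (2 * π)⁻¹)‖ ≤ 1 * I₀ :=
            mul_le_mul hpi1 (hF0 _) (norm_nonneg _) zero_le_one
        _ = I₀ := one_mul _
    have e2 : |τ| ^ (B + 2) * ‖g τ‖ ≤ I₁ := by
      have := hF1 (τ * (2 * π)⁻¹)
      rw [abs_mul, abs_of_pos (inv_pos.mpr hpi), show 2 * π * (|τ| * (2 * π)⁻¹) = |τ| by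
        field_simp] at this
      rw [hgn]
      calc |τ| ^ (B + 2) * ((2 * π)⁻¹ * ‖F (τ * (2 * π)⁻¹)‖)
          = (2 * π)⁻¹ * (|τ| ^ (B + 2) * ‖F (τ * (2 * π)⁻¹)‖) := by ring
        _ ≤ 1 * I₁ := mul_le_mul hpi1 this (by positivity) zero_le_one
        _ = I₁ := one_mul _
    have e3 : (1 + |τ| * w) ^ (B + 2) * ‖g τ‖ ≤ 2 ^ (B + 2) * (I₀ + w ^ (B + 2) * I₁) := by
      calc (1 + |τ| * w) ^ (B + 2) * ‖g τ‖
          ≤ (2 ^ (B + 2) * (1 + (|τ| * w) ^ (B + 2))) * ‖g τ‖ := by
            gcongr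
            exact pow_aux _ _ (by positivity)
        _ = 2 ^ (B + 2) * (‖g τ‖ + w ^ (B + 2) * (|τ| ^ (B + 2) * ‖g τ‖)) := by
            rw [mul_pow]; ring
        _ ≤ 2 ^ (B + 2) * (I₀ + w ^ (B + 2) * I₁) := by
            gcongr
    have e4 : (1 + (τ * w) ^ 2) ≤ (1 + |τ| * w) ^ 2 := by
      have : (τ * w) ^ 2 = (|τ| * w) ^ 2 := by rw [mul_pow, mul_pow, sq_abs]
      rw [this]
      have h5 : 0 ≤ |τ| * w := by positivity
      nlinarith
    rw [← div_eq_mul_inv, le_div_iff₀ (by positivity)]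
    calc ‖g τ‖ * (1 + |τ| * w) ^ B * (1 + (τ * w) ^ 2)
        ≤ ‖g τ‖ * (1 + |τ| * w) ^ B * (1 + |τ| * w) ^ 2 := by gcongr
      _ = (1 + |τ| * w) ^ (B + 2) * ‖g τ‖ := by ring
      _ ≤ _ := e3
  have hmi : Integrable (fun τ : ℝ => (1 + (τ * w) ^ 2)⁻¹) := by
    exact (integrable_inv_one_add_sq).comp_mul_right' hw.ne'
  have hgi : Integrable g := by
    refine (hmi.const_mul (2 ^ (B + 2) * (I₀ + w ^ (B + 2) * I₁))).mono'
      hgc.aestronglyMeasurable ?_
    refine Filter.Eventually.of_forall fun τ => (le_trans ?_ (key τ))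
    refine le_mul_of_one_le_right (norm_nonneg _) (one_le_pow₀ ?_)
    have : 0 ≤ |τ| * w := by positivity
    linarith
  have hFi : Integrable F := by
    have h6 : Integrable (fun t : ℝ => g (t * (2 * π))) := hgi.comp_mul_right' hpi.ne'
    have h7 : (fun t : ℝ => ((2 * π : ℝ) : ℂ) * g (t * (2 * π))) = F := by
      ext t
      simp only [hg]
      rw [← mul_assoc, mul_inv_cancel₀ hpc, one_mul, mul_assoc, mul_inv_cancel₀ hpi.ne', mul_one]
    rw [← h7]
    exact h6.const_mul _
  refine ⟨g, hgc, hgi, ?_, key⟩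
  intro x
  have h8 : 𝓕⁻ (𝓕 f) x = f x :=
    hfi.fourierInv_fourier_eq hFi (hfc.continuous.continuousAt)
  rw [← show f x = (k x : ℂ) from rfl, ← h8, Real.fourierInv_eq']
  have h9 := MeasureTheory.Measure.integral_comp_mul_right
    (fun t : ℝ => Complex.exp ((2 * π * (t * x) : ℝ) * Complex.I) * F t) (2 * π)⁻¹
  rw [inv_inv, abs_of_pos hpi] at h9
  have h10 : (∫ v : ℝ, Complex.exp ((2 * π * (v * x) : ℝ) * Complex.I) * F v) =
      ((2 * π : ℝ) : ℂ)⁻¹ * ∫ τ : ℝ, Complex.exp ((2 * π * (τ * (2 * π)⁻¹ * x) : ℝ) * Complex.I) *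
        F (τ * (2 * π)⁻¹) := by
    rw [h9, Complex.real_smul, ← mul_assoc, inv_mul_cancel₀ hpc, one_mul]
  have h11 : (∫ v : ℝ, Complex.exp (((2 * π * inner ℝ v x : ℝ) : ℂ) * Complex.I) • (𝓕 f) v) =
      ∫ v : ℝ, Complex.exp ((2 * π * (v * x) : ℝ) * Complex.I) * F v := by
    refine integral_congr_ae (Filter.Eventually.of_forall fun v => ?_)
    simp [hF, mul_comm]
  rw [h11, h10, ← integral_const_mul]
  refine integral_congr_ae (Filter.Eventually.of_forall fun τ => ?_)
  have h12 : 2 * π * (τ * (2 * π)⁻¹ * x) = τ * x := by field_simp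
  simp only [hg]
  rw [h12]
  push_cast
  ring

end P004E.Schur
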