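import Vale.Agent.P004E.H3.BlkProd
import Vale.Agent.P004E.H3.Pass4

/-!
# P004E, module W (part 8): the two-point function
-/

open Finset Real

namespace P004G.E3W

open P004E (zi nb li Ib gp Mi BlkOK StMert StMert1)
open P004.H293 (EE E1 EE_nonneg EE_mono EE_add EE_mul_left EE_const EE_prod E1_const E1_mono DepOn
  EE_of_depOn EE_singleton)
open P004G.H293 (Lp tt norm_tt_le norm_tt_le' abs_lam_le QN mem_QN three_le LN_eq)
open P004.H128 (sl)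

variable [Crv] {C₀ c₀ η y₀ θ z L : ℝ} {S : ℕ → Finset ℕ} {c : ℕ → ℕ → ℝ}

/-- expectation of a product over blocks and over the remaining primes -/
theorem EEc_blocks {N : ℕ} (J : Finset ℕ) (I : ℕ → Finset ℕ)
    (hI : (J : Set ℕ).PairwiseDisjoint I) (hsub : J.biUnion I ⊆ QN N)
    (F : ℕ → (ℕ → ℝ) → ℂ) (hF : ∀ k ∈ J, DepC (I k) (F k)) (G : ℕ → ℝ → ℂ) :
    EEc (range N) (fun ω => (∏ k ∈ J, F k ω) * ∏ p ∈ QN N \ J.biUnion I, G p (ω p)) =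
      (∏ k ∈ J, EEc (I k) (F k)) * ∏ p ∈ QN N \ J.biUnion I, E1c p (G p) := by
  set U := J.biUnion I with hU
  have hsub' : U ∪ (QN N \ U) ⊆ range N := by
    rw [Finset.union_sdiff_of_subset hsub]
    intro p hp
    exact mem_range.2 (mem_QN.1 hp).1
  have h1 : DepC U (fun ω => ∏ k ∈ J, F k ω) :=
    DepC.prod J fun k hk => (hF k hk).mono (Finset.subset_biUnion_of_mem _ hk)
  have h2 : DepC (QN N \ U) (fun ω => ∏ p ∈ QN N \ U, G p (ω p)) := by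
    intro ω ω' h
    exact Finset.prod_congr rfl fun p hp => by rw [h p hp]
  have h3 : DepC (U ∪ (QN N \ U)) (fun ω => (∏ k ∈ J, F k ω) * ∏ p ∈ QN N \ U, G p (ω p)) :=
    (h1.mono subset_union_left).mul (h2.mono subset_union_right)
  rw [EEc_of_dep hsub' h3, EEc_union disjoint_sdiff h1 h2, hU, EEc_biUnion J I hI F hF, EEc_prod]

lemma E1_sq_nonneg {p : ℕ} (hp : 1 ≤ p) (s : ℂ) : 0 ≤ E1 p (fun x => ‖Lp p s x‖ ^ 2) := by
  have := E1_mono hp (G := fun _ => 0) (H := fun x => ‖Lp p s x‖ ^ 2) (fun x _ => by positivity)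
  rwa [E1_const] at this

/-- Cauchy-Schwarz for one factor -/
lemma E1c_cs {p : ℕ} (hp : 1 ≤ p) (s s' : ℂ) :
    ‖E1c p (fun x => Lp p s x * (starRingEnd ℂ) (Lp p s' x))‖ ≤
      √(E1 p (fun x => ‖Lp p s x‖ ^ 2)) * √(E1 p (fun x => ‖Lp p s' x‖ ^ 2)) := by
  have h1 : ∀ q ∈ ({p} : Finset ℕ), 1 ≤ q := fun q hq => by rw [mem_singleton.1 hq]; exact hp
  rw [← EEc_singleton, ← EE_singleton p (fun x => ‖Lp p s x‖ ^ 2),
    ← EE_singleton p (fun x => ‖Lp p s' x‖ ^ 2)]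
  refine (norm_EEc_le h1 _).trans ?_
  have h2 := EE_cs h1 (fun ω => ‖Lp p s (ω p)‖) (fun ω => ‖Lp p s' (ω p)‖)
  refine le_trans (le_of_eq ?_) h2
  congr 1
  funext ω
  rw [norm_mul, RCLike.norm_conj]

/-- Cauchy-Schwarz for one block -/
lemma blk_cs (i : ℕ) (ζ ζ' : ℂ) :
    ‖EEc (Ib y₀ θ z L i) (fun ω => ((Mi S c i (P004.H628.ffx ω) ^ 2 : ℝ) : ℂ) *
      ∏ p ∈ Ib y₀ θ z L i, (Lp p (1 + ζ) (ω p) * (starRingEnd ℂ) (Lp p (1 + ζ') (ω p))))‖ ≤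
      √(bl S c y₀ θ z L i ζ) * √(bl S c y₀ θ z L i ζ') := by
  refine (norm_EEc_le Ib_one _).trans ?_
  have h2 := EE_cs (Ib_one (y₀ := y₀) (θ := θ) (z := z) (L := L) (i := i))
    (fun ω => |Mi S c i (P004.H628.ffx ω)| * ∏ p ∈ Ib y₀ θ z L i, ‖Lp p (1 + ζ) (ω p)‖)
    (fun ω => |Mi S c i (P004.H628.ffx ω)| * ∏ p ∈ Ib y₀ θ z L i, ‖Lp p (1 + ζ') (ω p)‖)
  have e1 : ∀ ξ : ℂ, EE (Ib y₀ θ z L i) (fun ω => (|Mi S c i (P004.H628.ffx ω)| *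
      ∏ p ∈ Ib y₀ θ z L i, ‖Lp p (1 + ξ) (ω p)‖) ^ 2) = bl S c y₀ θ z L i ξ := by
    intro ξ
    unfold bl
    congr 1
    funext ω
    rw [mul_pow, sq_abs, Finset.prod_pow]
    rfl
  rw [e1, e1] at h2
  refine le_trans (le_of_eq ?_) h2
  congr 1
  funext ω
  rw [norm_mul, Complex.norm_real, norm_prod, Real.norm_eq_abs, abs_of_nonneg (sq_nonneg _)]
  have e2 : ∏ p ∈ Ib y₀ θ z L i, ‖Lp p (1 + ζ) (ω p) * (starRingEnd ℂ) (Lp p (1 + ζ') (ω p))‖ =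
      (∏ p ∈ Ib y₀ θ z L i, ‖Lp p (1 + ζ) (ω p)‖) *
        ∏ p ∈ Ib y₀ θ z L i, ‖Lp p (1 + ζ') (ω p)‖ := by
    rw [← Finset.prod_mul_distrib]
    exact Finset.prod_congr rfl fun p _ => by rw [norm_mul, RCLike.norm_conj]
  rw [e2, ← sq_abs (Mi S c i (P004.H628.ffx ω))]
  ring

/-- the mollified two-point function as a product -/
theorem TPf_eq (hz : 0 < z) (hθ : 0 < θ) (h1 : 1 ≤ li θ z 0) (hL : 0 < L)
    (hB : BlkOK C₀ c₀ η y₀ θ z L S c) {i₀ : ℕ} (hi₀ : i₀ ≤ nb θ z L) {N : ℕ}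
    (hN : Real.exp (L * zi θ z i₀) < N) {A : Finset ℕ} {m : ℕ → ℝ}
    (hm : ∀ X : ℕ → ℝ, P004.CM X → ∏ i ∈ Ico i₀ (nb θ z L + 1), Mi S c i X = ∑ a ∈ A, m a * X a)
    (σ τ τ' : ℝ) (ζ ζ' : ℂ) (hζ : sl σ τ = 1 + ζ) (hζ' : sl σ τ' = 1 + ζ') :
    TPf N A m σ τ τ' =
      (∏ i ∈ Ico i₀ (nb θ z L + 1), EEc (Ib y₀ θ z L i) (fun ω =>
        ((Mi S c i (P004.H628.ffx ω) ^ 2 : ℝ) : ℂ) *
        ∏ p ∈ Ib y₀ θ z L i, (Lp p (1 + ζ) (ω p) * (starRingEnd ℂ) (Lp p (1 + ζ') (ω p))))) *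
      ∏ p ∈ QN N \ (Ico i₀ (nb θ z L + 1)).biUnion (fun i => Ib y₀ θ z L i),
        E1c p (fun x => Lp p (1 + ζ) x * (starRingEnd ℂ) (Lp p (1 + ζ') x)) := by
  have hJ : ∀ i ∈ Ico i₀ (nb θ z L + 1), i ≤ nb θ z L := fun i hi => by
    have := (mem_Ico.1 hi).2
    omega
  have hdisj := Ib_pairwise (y₀ := y₀) hz hθ h1 hL hJ
  have hsub : (Ico i₀ (nb θ z L + 1)).biUnion (fun i => Ib y₀ θ z L i) ⊆ QN N := by
    intro p hp
    obtain ⟨a1, a2, a3, -⟩ := (mem_blocks hz hθ h1 hL hi₀).1 hp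
    rw [mem_QN]
    refine ⟨?_, a2, a3⟩
    have : (p : ℝ) < N := a1.trans_lt hN
    exact_mod_cast this
  rw [← EEc_blocks (Ico i₀ (nb θ z L + 1)) (fun i => Ib y₀ θ z L i) hdisj hsub _ (fun i hi => ?_)]
  · unfold TPf
    rw [ENc_eq]
    congr 1
    funext ω
    rw [← hm _ (P004.H628.ffx_cm ω), hζ, hζ', LN_eq, LN_eq, map_prod, ← Finset.prod_pow]
    set g : ℕ → ℂ := fun p => Lp p (1 + ζ) (ω p) * (starRingEnd ℂ) (Lp p (1 + ζ') (ω p)) with hg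
    have e1 : (∏ p ∈ QN N, Lp p (1 + ζ) (ω p)) * ∏ p ∈ QN N, (starRingEnd ℂ) (Lp p (1 + ζ') (ω p)) =
        ∏ p ∈ QN N, g p := Finset.prod_mul_distrib.symm
    have e2 : ∏ p ∈ QN N, g p = (∏ i ∈ Ico i₀ (nb θ z L + 1), ∏ p ∈ Ib y₀ θ z L i, g p) *
        ∏ p ∈ QN N \ (Ico i₀ (nb θ z L + 1)).biUnion (fun i => Ib y₀ θ z L i), g p := by
      rw [← Finset.prod_biUnion hdisj, mul_comm, Finset.prod_sdiff hsub]
    have e3 : ∏ i ∈ Ico i₀ (nb θ z L + 1), (((Mi S c i (P004.H628.ffx ω) ^ 2 : ℝ) : ℂ) *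
        ∏ p ∈ Ib y₀ θ z L i, g p) = (∏ i ∈ Ico i₀ (nb θ z L + 1),
          ((Mi S c i (P004.H628.ffx ω) ^ 2 : ℝ) : ℂ)) *
        ∏ i ∈ Ico i₀ (nb θ z L + 1), ∏ p ∈ Ib y₀ θ z L i, g p := Finset.prod_mul_distrib
    rw [e1, e2, e3, Complex.ofReal_prod]
    ring
  · intro ω ω' h
    have e1 : Mi S c i (P004.H628.ffx ω) = Mi S c i (P004.H628.ffx ω') := by
      unfold Mi
      refine Finset.sum_congr rfl fun a ha => ?_
      congr 1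
      unfold P004.H628.ffx
      refine Finset.prod_congr rfl fun p hp => ?_
      have h3 := (hB.supp i (hJ i hi) a ha).2.2 p (Nat.prime_of_mem_primeFactors hp)
        (Nat.dvd_of_mem_primeFactors hp)
      rw [h p h3]
    simp only
    rw [e1]
    congr 1
    exact Finset.prod_congr rfl fun p hp => by rw [h p hp]

/-- the product of the second moments, in terms of the scale `w` -/
lemma bl_final (hc : StCoef) (hC₀ : 1 ≤ C₀) (hc₀ : 0 < c₀) (hz : 0 < z) (hθ : 0 < θ) (hθ1 : θ ≤ 1)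
    (h1 : 1 ≤ li θ z 0) (h2 : 2 ≤ c₀ * θ * li θ z 0) (hL : 1 ≤ L) (hLz : 1 ≤ L * z)
    (hB : BlkOK C₀ c₀ η y₀ θ z L S c) {i₀ : ℕ} (hi₀ : i₀ ≤ nb θ z L) {w : ℝ}
    (hw : L * zi θ z i₀ ≤ w) (hw3 : w ≤ 3 * L) (τ : ℝ) :
    ∏ i ∈ Ico i₀ (nb θ z L + 1), bl S c y₀ θ z L i (((1 / L : ℝ) : ℂ) + τ * Complex.I) ≤
      Kb C₀ * 4 ^ A1 C₀ * (1 + |τ| * w) ^ (2 * A1 C₀) * (3 * L / w) ^ (A1 C₀ * θ) := by
  have hL0 : 0 < L := by linarith
  set ζ : ℂ := ((1 / L : ℝ) : ℂ) + τ * Complex.I with hζ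
  have hζre : ζ.re = 1 / L := by rw [hζ]; simp
  have hζim : ζ.im = τ := by rw [hζ]; simp
  have hA1 : 0 < A1 C₀ := by unfold A1; linarith
  have hzi := zi_pos (θ := θ) hz i₀
  have hw0 : 0 < w := lt_of_lt_of_le (by positivity) hw
  refine (bl_prod hc hC₀ hc₀ hz hθ h1 h2 hL0 hLz hB hi₀ (ζ := ζ) (by rw [hζre]; positivity)
    (by rw [hζre, div_le_one hL0]; exact hL)).trans ?_
  have hn : ‖ζ‖ ≤ 1 / L + |τ| := by
    have := Complex.norm_le_abs_re_add_abs_im ζ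
    rwa [hζre, hζim, abs_of_pos (by positivity : (0 : ℝ) < 1 / L)] at this
  have hz1 : zi θ z i₀ ≤ 1 := by
    have := zi_anti hz hθ h1 (Nat.zero_le i₀)
    rw [zi_zero] at this
    linarith [z_lt_one hz hθ h1]
  have hH : 1 ≤ 3 * L / w := by rw [le_div_iff₀ hw0]; linarith
  have ht : 0 ≤ |τ| := abs_nonneg _
  have b1 : 1 + ‖ζ‖ * (L * zi θ z i₀) ≤ 2 * (1 + |τ| * w) := by
    calc 1 + ‖ζ‖ * (L * zi θ z i₀) ≤ 1 + (1 / L + |τ|) * (L * zi θ z i₀) := by gcongr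
      _ = 1 + (zi θ z i₀ + |τ| * (L * zi θ z i₀)) := by field_simp
      _ ≤ 1 + (1 + |τ| * w) := by gcongr
      _ ≤ _ := by
          have : 0 ≤ |τ| * w := by positivity
          linarith
  have b2 : 1 + ‖ζ‖ * L ≤ (2 * (1 + |τ| * w)) * (3 * L / w) := by
    have e1 : |τ| * w * (3 * L / w) = 3 * (|τ| * L) := by field_simp
    have e2 : 0 ≤ |τ| * L := by positivity
    have e3 : 1 + ‖ζ‖ * L ≤ 2 + |τ| * L := by
      calc 1 + ‖ζ‖ * L ≤ 1 + (1 / L + |τ|) * L := by gcongr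
        _ = 2 + |τ| * L := by rw [add_mul, one_div, inv_mul_cancel₀ hL0.ne']; ring
    nlinarith
  have hn0 : 0 ≤ ‖ζ‖ := norm_nonneg _
  have hKb : 0 ≤ Kb C₀ := by unfold Kb; positivity
  have hx : 1 ≤ 2 * (1 + |τ| * w) := by
    have : 0 ≤ |τ| * w := by positivity
    linarith
  calc Kb C₀ * (1 + ‖ζ‖ * (L * zi θ z i₀)) ^ A1 C₀ * (1 + ‖ζ‖ * L) ^ (A1 C₀ * θ)
      ≤ Kb C₀ * (2 * (1 + |τ| * w)) ^ A1 C₀ * ((2 * (1 + |τ| * w)) * (3 * L / w)) ^ (A1 C₀ * θ) := by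
        gcongr
    _ = Kb C₀ * ((2 * (1 + |τ| * w)) ^ A1 C₀ * (2 * (1 + |τ| * w)) ^ (A1 C₀ * θ)) *
          (3 * L / w) ^ (A1 C₀ * θ) := by
        rw [Real.mul_rpow (x := 2 * (1 + |τ| * w)) (y := 3 * L / w) (by positivity)
          (by positivity)]
        ring
    _ ≤ Kb C₀ * ((2 * (1 + |τ| * w)) ^ A1 C₀ * (2 * (1 + |τ| * w)) ^ (A1 C₀)) *
          (3 * L / w) ^ (A1 C₀ * θ) := by
        have e1 : (2 * (1 + |τ| * w)) ^ (A1 C₀ * θ) ≤ (2 * (1 + |τ| * w)) ^ (A1 C₀) :=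
          Real.rpow_le_rpow_of_exponent_le hx (by nlinarith)
        gcongr
    _ = _ := by
        rw [Real.mul_rpow (by norm_num) (by positivity), two_mul (A1 C₀),
          Real.rpow_add (by positivity),
          show (4 : ℝ) = 2 * 2 by norm_num, Real.mul_rpow (by norm_num) (by norm_num)]
        ring

/-- the exponent of the frequencies -/
noncomputable def Bn (C₀ : ℝ) : ℕ := ⌈A1 C₀⌉₊ + 316800000

/-- **The two-point function.** -/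
theorem tp_bound (hc : StCoef) (hM : StMert) (hM1 : StMert1) (hC₀ : 1 ≤ C₀) (hy₀ : 2 ≤ y₀) :
    ∃ K : ℝ, 1 ≤ K ∧ ∀ (c₀ η θ z L : ℝ) (S : ℕ → Finset ℕ) (c : ℕ → ℕ → ℝ), 0 < c₀ → 0 < z →
    0 < θ → θ ≤ 1 → 1 ≤ li θ z 0 → 2 ≤ c₀ * θ * li θ z 0 → 1 ≤ L → 1 ≤ L * z →
    BlkOK C₀ c₀ η y₀ θ z L S c → ∀ i₀ ≤ nb θ z L, ∀ (w : ℝ), L * zi θ z i₀ ≤ w → w ≤ 3 * L →
    L ^ (1 / 200 : ℝ) ≤ w → ∀ (A : Finset ℕ) (m : ℕ → ℝ),
    (∀ X : ℕ → ℝ, P004.CM X → ∏ i ∈ Ico i₀ (nb θ z L + 1), Mi S c i X = ∑ a ∈ A, m a * X a) →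
    ∀ (τ τ' : ℝ) (N : ℕ), Real.exp (L * zi θ z i₀) + 2 ≤ N →
    ‖TPf N A m (1 / L) τ τ'‖ ≤ K * (3 * L / w) ^ (A1 C₀ * θ) * (w / (L * zi θ z i₀)) *
      ((1 + |τ| * w) ^ Bn C₀ * (1 + |τ'| * w) ^ Bn C₀ * (1 + 1 / (w * (|τ - τ'| + 1 / L)))) := by
  classical
  obtain ⟨CR, hCR, hR⟩ := rest_two hc hM hM1
  obtain ⟨e6, he6⟩ : ∃ e : ℕ, e = 792000 := ⟨_, rfl⟩
  have hBn : Bn C₀ = ⌈A1 C₀⌉₊ + 400 * e6 := by rw [he6]; rfl
  set Kmax : ℝ := max CR (12 ^ e6) with hKmax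
  have hKmax1 : 1 ≤ Kmax := hCR.trans (le_max_left _ _)
  have hA1 : 0 < A1 C₀ := by unfold A1; linarith
  have hKb : 1 ≤ Kb C₀ := by
    unfold Kb
    exact Real.one_le_exp (by
      have := K32_nonneg
      positivity)
  set K : ℝ := Kb C₀ * 4 ^ A1 C₀ * 3001 ^ (⌊y₀⌋₊ + 1) * Kmax with hK
  refine ⟨max 1 K, le_max_left _ _, ?_⟩
  intro c₀ η θ z L S c hc₀ hz hθ hθ1 h1 h2 hL hLz hB i₀ hi₀ w hw hw3 hw200 A m hm τ τ' N hN
  have hL0 : 0 < L := by linarith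
  set ζ : ℂ := ((1 / L : ℝ) : ℂ) + τ * Complex.I with hζ
  set ζ' : ℂ := ((1 / L : ℝ) : ℂ) + τ' * Complex.I with hζ'
  have hζre : ζ.re = 1 / L := by rw [hζ]; simp
  have hζre' : ζ'.re = 1 / L := by rw [hζ']; simp
  have hiL : (0 : ℝ) ≤ 1 / L := by positivity
  have hzi := zi_pos (θ := θ) hz i₀
  have hu1 := nb_ge (θ := θ) hLz hi₀
  set u₀ := L * zi θ z i₀ with hu₀
  have hu0 : 0 < u₀ := by linarith
  have hw0 : 0 < w := hu0.trans_le hw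
  have hsl : sl (1 / L) τ = 1 + ζ := by
    unfold sl
    rw [hζ]
    push_cast
    ring
  have hsl' : sl (1 / L) τ' = 1 + ζ' := by
    unfold sl
    rw [hζ']
    push_cast
    ring
  rw [TPf_eq hz hθ h1 hL0 hB hi₀ (by linarith) hm (1 / L) τ τ' ζ ζ' hsl hsl', norm_mul, norm_prod,
    norm_prod]
  set J := Ico i₀ (nb θ z L + 1) with hJ
  set U := J.biUnion (fun i => Ib y₀ θ z L i) with hU
  set f : ℕ → ℝ := fun p => ‖E1c p (fun x => Lp p (1 + ζ) x *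
    (starRingEnd ℂ) (Lp p (1 + ζ') x))‖ with hf
  have hf0 : ∀ p, 0 ≤ f p := fun p => norm_nonneg _
  -- the blocks
  have hblk : ∏ i ∈ J, ‖EEc (Ib y₀ θ z L i) (fun ω =>
        ((Mi S c i (P004.H628.ffx ω) ^ 2 : ℝ) : ℂ) *
        ∏ p ∈ Ib y₀ θ z L i, (Lp p (1 + ζ) (ω p) * (starRingEnd ℂ) (Lp p (1 + ζ') (ω p))))‖ ≤
      Kb C₀ * 4 ^ A1 C₀ * (3 * L / w) ^ (A1 C₀ * θ) *
        ((1 + |τ| * w) ^ A1 C₀ * (1 + |τ'| * w) ^ A1 C₀) := by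
    have a1 : ∏ i ∈ J, ‖EEc (Ib y₀ θ z L i) (fun ω =>
        ((Mi S c i (P004.H628.ffx ω) ^ 2 : ℝ) : ℂ) *
        ∏ p ∈ Ib y₀ θ z L i, (Lp p (1 + ζ) (ω p) * (starRingEnd ℂ) (Lp p (1 + ζ') (ω p))))‖ ≤
        √(∏ i ∈ J, bl S c y₀ θ z L i ζ) * √(∏ i ∈ J, bl S c y₀ θ z L i ζ') := by
      rw [Real.sqrt_prod _ (fun i _ => bl_nonneg i ζ), Real.sqrt_prod _ (fun i _ => bl_nonneg i ζ'),
        ← Finset.prod_mul_distrib]
      exact Finset.prod_le_prod (fun _ _ => norm_nonneg _) fun i _ => blk_cs i ζ ζ'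
    have a2 := bl_final hc hC₀ hc₀ hz hθ hθ1 h1 h2 hL hLz hB hi₀ hw hw3 τ
    have a3 := bl_final hc hC₀ hc₀ hz hθ hθ1 h1 h2 hL hLz hB hi₀ hw hw3 τ'
    rw [← hζ, ← hJ] at a2
    rw [← hζ', ← hJ] at a3
    refine a1.trans ?_
    have hsq : ∀ t : ℝ, √(Kb C₀ * 4 ^ A1 C₀ * (1 + |t| * w) ^ (2 * A1 C₀) *
        (3 * L / w) ^ (A1 C₀ * θ)) = √(Kb C₀ * 4 ^ A1 C₀ * (3 * L / w) ^ (A1 C₀ * θ)) *
          (1 + |t| * w) ^ A1 C₀ := by
      intro t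
      have hb : 0 ≤ 1 + |t| * w := by positivity
      have e1 : Kb C₀ * 4 ^ A1 C₀ * (1 + |t| * w) ^ (2 * A1 C₀) * (3 * L / w) ^ (A1 C₀ * θ) =
          (Kb C₀ * 4 ^ A1 C₀ * (3 * L / w) ^ (A1 C₀ * θ)) * ((1 + |t| * w) ^ A1 C₀) ^ 2 := by
        rw [two_mul (A1 C₀), Real.rpow_add' hb (by positivity)]
        ring
      rw [e1, Real.sqrt_mul (by positivity), Real.sqrt_sq (by positivity)]
    have a4 := Real.sqrt_le_sqrt a2
    have a5 := Real.sqrt_le_sqrt a3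
    rw [hsq] at a4 a5
    have hD0 : 0 ≤ Kb C₀ * 4 ^ A1 C₀ * (3 * L / w) ^ (A1 C₀ * θ) := by positivity
    calc √(∏ i ∈ J, bl S c y₀ θ z L i ζ) * √(∏ i ∈ J, bl S c y₀ θ z L i ζ') ≤
        (√(Kb C₀ * 4 ^ A1 C₀ * (3 * L / w) ^ (A1 C₀ * θ)) * (1 + |τ| * w) ^ A1 C₀) *
        (√(Kb C₀ * 4 ^ A1 C₀ * (3 * L / w) ^ (A1 C₀ * θ)) * (1 + |τ'| * w) ^ A1 C₀) := by gcongr
      _ = (√(Kb C₀ * 4 ^ A1 C₀ * (3 * L / w) ^ (A1 C₀ * θ)) *
          √(Kb C₀ * 4 ^ A1 C₀ * (3 * L / w) ^ (A1 C₀ * θ))) *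
          ((1 + |τ| * w) ^ A1 C₀ * (1 + |τ'| * w) ^ A1 C₀) := by ring
      _ = _ := by rw [Real.mul_self_sqrt hD0]
  -- one factor
  have hfac : ∀ p, p.Prime → ¬ p ∣ bd → f p ≤ 3001 := by
    intro p hp hpb
    refine (E1c_cs hp.one_lt.le _ _).trans ?_
    have a1 : ∀ ξ : ℂ, 0 ≤ ξ.re → E1 p (fun x => ‖Lp p (1 + ξ) x‖ ^ 2) ≤ 3001 := by
      intro ξ hξ
      refine (P004G.H293.E1_Lp2 hc hp (three_le hp hpb) hξ).trans ?_
      have a2 : ‖tt p ξ‖ ≤ 3 / 5 := norm_tt_le (three_le hp hpb) hξ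
      have a3 : ‖tt p ξ‖ ^ 2 ≤ 1 := pow_le_one₀ (norm_nonneg _) (by linarith)
      linarith
    calc √(E1 p (fun x => ‖Lp p (1 + ζ) x‖ ^ 2)) * √(E1 p (fun x => ‖Lp p (1 + ζ') x‖ ^ 2)) ≤
        √3001 * √3001 := by
          gcongr
          · exact a1 ζ (by rw [hζre]; exact hiL)
          · exact a1 ζ' (by rw [hζre']; exact hiL)
      _ = 3001 := Real.mul_self_sqrt (by norm_num)
  -- the primes outside the blocks
  have hcover : QN N \ U ⊆ (range (⌊y₀⌋₊ + 1)).filter (fun p => p.Prime ∧ ¬ p ∣ bd) ∪ RR N u₀ := by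
    intro p hp
    obtain ⟨hp1, hp2⟩ := mem_sdiff.1 hp
    obtain ⟨b1, b2, b3⟩ := mem_QN.1 hp1
    rw [mem_union]
    by_cases h : Real.exp u₀ < p
    · exact Or.inr (mem_RR.2 ⟨b1, b2, b3, h⟩)
    · left
      rw [not_lt] at h
      have h3 : ¬ y₀ < p := fun h4 => hp2 ((mem_blocks hz hθ h1 hL0 hi₀).2 ⟨h, b2, b3, h4⟩)
      rw [not_lt] at h3
      rw [mem_filter, mem_range, Nat.lt_succ_iff]
      exact ⟨Nat.le_floor h3, b2, b3⟩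
  set P1 := (QN N \ U).filter (fun p => p ∉ RR N u₀) with hP1
  have hRRsub : RR N u₀ ⊆ QN N \ U := by
    intro p hp
    obtain ⟨b1, b2, b3, b4⟩ := mem_RR.1 hp
    rw [mem_sdiff]
    refine ⟨mem_QN.2 ⟨b1, b2, b3⟩, fun h => ?_⟩
    have := ((mem_blocks hz hθ h1 hL0 hi₀).1 h).1
    linarith
  have hsplit : ∏ p ∈ QN N \ U, f p = (∏ p ∈ RR N u₀, f p) * ∏ p ∈ P1, f p := by
    rw [← Finset.prod_filter_mul_prod_filter_not (QN N \ U) (fun p => p ∈ RR N u₀)]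
    congr 1
    rw [Finset.filter_mem_eq_inter, Finset.inter_eq_right.2 hRRsub]
  have hP1le : ∏ p ∈ P1, f p ≤ 3001 ^ (⌊y₀⌋₊ + 1) := by
    have hsub : P1 ⊆ range (⌊y₀⌋₊ + 1) := by
      intro p hp
      obtain ⟨b1, b2⟩ := mem_filter.1 hp
      rcases mem_union.1 (hcover b1) with h | h
      · exact (mem_filter.1 h).1
      · exact absurd h b2
    have hcard : P1.card ≤ ⌊y₀⌋₊ + 1 := by
      have := Finset.card_le_card hsub
      rwa [Finset.card_range] at this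
    calc ∏ p ∈ P1, f p ≤ ∏ _p ∈ P1, (3001 : ℝ) := by
          refine Finset.prod_le_prod (fun p _ => hf0 p) fun p hp => ?_
          have := mem_QN.1 (mem_sdiff.1 (mem_filter.1 hp).1).1
          exact hfac p this.2.1 this.2.2
      _ = 3001 ^ P1.card := by rw [Finset.prod_const]
      _ ≤ _ := pow_le_pow_right₀ (by norm_num) hcard
  -- the large primes
  set δ := |τ - τ'| + 1 / L with hδ
  have hδ0 : 0 < δ := by positivity
  have hx1 : ∀ t : ℝ, 1 ≤ 1 + |t| * w := fun t => by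
    have : 0 ≤ |t| * w := by positivity
    linarith
  have hwu : 1 ≤ w / u₀ := by rw [le_div_iff₀ hu0]; linarith
  have hlarge : ∏ p ∈ RR N u₀, f p ≤ Kmax * (w / u₀) * ((1 + |τ| * w) ^ (400 * e6) *
      (1 + |τ'| * w) ^ (400 * e6) * (1 + 1 / (w * δ))) := by
    have hp1 : 1 ≤ 1 + 1 / (w * δ) := by
      have : 0 < 1 / (w * δ) := by positivity
      linarith
    have hp2 : ∀ t : ℝ, 1 ≤ (1 + |t| * w) ^ (400 * e6) := fun t => one_le_pow₀ (hx1 t)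
    by_cases hcase : |τ| ≤ L ^ (-(1 / 400) : ℝ) ∧ |τ'| ≤ L ^ (-(1 / 400) : ℝ)
    · refine (hR L τ τ' u₀ N hL hcase.1 hcase.2 hu1 hN).trans ?_
      have e1 : 1 + 1 / (u₀ * δ) ≤ (w / u₀) * (1 + 1 / (w * δ)) := by
        have e2 : (w / u₀) * (1 + 1 / (w * δ)) = w / u₀ + 1 / (u₀ * δ) := by
          field_simp
        rw [e2]
        linarith
      have e3 : (1 : ℝ) ≤ (1 + |τ| * w) ^ (400 * e6) * (1 + |τ'| * w) ^ (400 * e6) :=
        one_le_mul_of_one_le_of_one_le (hp2 τ) (hp2 τ')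
      calc CR * (1 + 1 / (u₀ * δ)) ≤ Kmax * ((w / u₀) * (1 + 1 / (w * δ))) := by
            gcongr
            exact le_max_left _ _
        _ = Kmax * (w / u₀) * (1 * (1 + 1 / (w * δ))) := by ring
        _ ≤ _ := by gcongr
    · have hcr : ∏ p ∈ RR N u₀, f p ≤ (6 * (1 + L)) ^ e6 := by
        have hT : ∀ p ∈ RR N u₀, p.Prime ∧ ¬ p ∣ bd := fun p hp =>
          ⟨(mem_RR.1 hp).2.1, (mem_RR.1 hp).2.2.1⟩
        have a1 : ∏ p ∈ RR N u₀, f p ≤ ∏ p ∈ RR N u₀, (√(E1 p (fun x => ‖Lp p (1 + ζ) x‖ ^ 2)) *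
            √(E1 p (fun x => ‖Lp p (1 + ζ') x‖ ^ 2))) :=
          Finset.prod_le_prod (fun p _ => hf0 p) fun p hp => E1c_cs (hT p hp).1.one_lt.le _ _
        refine a1.trans ?_
        rw [Finset.prod_mul_distrib, ← Real.sqrt_prod _ (fun p hp => E1_sq_nonneg
          (hT p hp).1.one_lt.le _), ← Real.sqrt_prod _ (fun p hp => E1_sq_nonneg
          (hT p hp).1.one_lt.le _)]
        have a2 := crude_two hc hL (τ := τ) hT
        have a3 := crude_two hc hL (τ := τ') hT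
        rw [← hζ] at a2
        rw [← hζ'] at a3
        rw [← he6] at a2 a3
        calc _ ≤ √((6 * (1 + L)) ^ e6) * √((6 * (1 + L)) ^ e6) := by gcongr
          _ = _ := Real.mul_self_sqrt (by positivity)
      refine hcr.trans ?_
      have h6 : (6 * (1 + L)) ^ e6 ≤ 12 ^ e6 * L ^ e6 := by
        rw [← mul_pow]
        apply pow_le_pow_left₀ (by positivity)
        linarith
      have hLpow : L ^ e6 ≤ (1 + |τ| * w) ^ (400 * e6) * (1 + |τ'| * w) ^ (400 * e6) := by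
        have key : ∀ t : ℝ, L ^ (-(1 / 400) : ℝ) < |t| → L ^ e6 ≤ (1 + |t| * w) ^ (400 * e6) := by
          intro t ht
          rw [pow_mul]
          refine pow_le_pow_left₀ hL0.le ?_ _
          have e1 : L ^ (1 / 400 : ℝ) ≤ 1 + |t| * w := by
            have e2 : L ^ (1 / 400 : ℝ) = L ^ (-(1 / 400) : ℝ) * L ^ (1 / 200 : ℝ) := by
              rw [← Real.rpow_add hL0]
              norm_num
            have e3 : L ^ (-(1 / 400) : ℝ) * L ^ (1 / 200 : ℝ) ≤ |t| * w := by gcongr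
            linarith
          calc L = (L ^ (1 / 400 : ℝ)) ^ 400 := by
                rw [← Real.rpow_natCast, ← Real.rpow_mul hL0.le]
                norm_num
            _ ≤ _ := by gcongr
        rw [not_and_or, not_le, not_le] at hcase
        rcases hcase with h | h
        · calc L ^ e6 ≤ (1 + |τ| * w) ^ (400 * e6) := key τ h
            _ = (1 + |τ| * w) ^ (400 * e6) * 1 := (mul_one _).symm
            _ ≤ _ := mul_le_mul_of_nonneg_left (hp2 τ') (by linarith [hp2 τ])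
        · calc L ^ e6 ≤ (1 + |τ'| * w) ^ (400 * e6) := key τ' h
            _ = 1 * (1 + |τ'| * w) ^ (400 * e6) := (one_mul _).symm
            _ ≤ _ := mul_le_mul_of_nonneg_right (hp2 τ) (by linarith [hp2 τ'])
      have h12 : (12 : ℝ) ^ e6 ≤ Kmax := le_max_right _ _
      have hX0 : 0 ≤ (1 + |τ| * w) ^ (400 * e6) * (1 + |τ'| * w) ^ (400 * e6) := by positivity
      calc (6 * (1 + L)) ^ e6 ≤ 12 ^ e6 * L ^ e6 := h6
        _ ≤ Kmax * ((1 + |τ| * w) ^ (400 * e6) * (1 + |τ'| * w) ^ (400 * e6)) := by gcongr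
        _ = Kmax * 1 * ((1 + |τ| * w) ^ (400 * e6) * (1 + |τ'| * w) ^ (400 * e6) * 1) := by ring
        _ ≤ _ := by gcongr
  -- conclusion
  have hpow : ∀ t : ℝ, (1 + |t| * w) ^ A1 C₀ * (1 + |t| * w) ^ (400 * e6) ≤
      (1 + |t| * w) ^ Bn C₀ := by
    intro t
    rw [hBn, pow_add]
    refine mul_le_mul_of_nonneg_right ?_ (by positivity)
    rw [← Real.rpow_natCast]
    exact Real.rpow_le_rpow_of_exponent_le (hx1 t) (Nat.le_ceil _)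
  rw [hsplit]
  have hq0 : 0 ≤ ∏ p ∈ RR N u₀, f p := Finset.prod_nonneg fun p _ => hf0 p
  have hq1 : 0 ≤ ∏ p ∈ P1, f p := Finset.prod_nonneg fun p _ => hf0 p
  have hH0 : 0 ≤ (3 * L / w) ^ (A1 C₀ * θ) := by positivity
  have hY0 : (0 : ℝ) ≤ 3001 ^ (⌊y₀⌋₊ + 1) := by positivity
  calc _ ≤ (Kb C₀ * 4 ^ A1 C₀ * (3 * L / w) ^ (A1 C₀ * θ) *
        ((1 + |τ| * w) ^ A1 C₀ * (1 + |τ'| * w) ^ A1 C₀)) *
        ((Kmax * (w / u₀) * ((1 + |τ| * w) ^ (400 * e6) *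
          (1 + |τ'| * w) ^ (400 * e6) * (1 + 1 / (w * δ)))) * 3001 ^ (⌊y₀⌋₊ + 1)) := by
        refine mul_le_mul hblk ?_ (mul_nonneg hq0 hq1) (by positivity)
        exact mul_le_mul hlarge hP1le hq1 (by positivity)
    _ = K * (3 * L / w) ^ (A1 C₀ * θ) * (w / u₀) *
        (((1 + |τ| * w) ^ A1 C₀ * (1 + |τ| * w) ^ (400 * e6)) *
          ((1 + |τ'| * w) ^ A1 C₀ * (1 + |τ'| * w) ^ (400 * e6)) * (1 + 1 / (w * δ))) := by
        rw [hK]; ring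
    _ ≤ max 1 K * (3 * L / w) ^ (A1 C₀ * θ) * (w / u₀) *
        ((1 + |τ| * w) ^ Bn C₀ * (1 + |τ'| * w) ^ Bn C₀ * (1 + 1 / (w * δ))) := by
        have := hpow τ
        have := hpow τ'
        gcongr
        exact le_max_right _ _

end P004G.E3W
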