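import Vale.Agent.P004E.H3.Poly
import Vale.Agent.P004E.H3.Schur
import Vale.Agent.P004.H394.Rep
import Vale.Agent.P004.H394.Moll2

/-!
# P004E, module W (part 11): the mollified windows
-/

open Real MeasureTheory Set Filter Topology
open scoped ENNReal

namespace P004G.E3W

open P004E (zi nb li Ib gp Mi Mh BlkOK StMert StMert1 StWin)
open P004E.Schur (schur four_pt)
open P004.Wf (mul_bd_supp)
open P004.Moll (iter_zero iter_exp exp_smooth chi_CM summable_ah_bdd Dp Dp_abs_le)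

/-- the Fourier representation of a window -/
theorem rep_win (B : ℕ) {w L Λ b : ℝ} {h : ℝ → ℝ} (hw : 0 < w) (hw3 : w ≤ 3 * L) (hb : 0 ≤ b)
    (hh : ContDiff ℝ (B + 2 : ℕ) h) (hs : ∀ x, h x ≠ 0 → w ≤ x ∧ x ≤ Λ * w)
    (hder : ∀ i ≤ B + 2, ∀ x, |iteratedDeriv i h x| ≤ b * w⁻¹ ^ i) (hΛ : 1 ≤ Λ) :
    ∃ g : ℝ → ℂ, Continuous g ∧ Integrable g ∧
      (∀ x : ℝ, (h x * Real.exp (-(1 / L) * x) : ℂ) =
        ∫ τ : ℝ, g τ * Complex.exp (τ * x * Complex.I)) ∧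
      ∀ τ, ‖g τ‖ * (1 + |τ| * w) ^ B ≤
        (2 ^ (B + 2) * (2 * (6 ^ (B + 2) * b * (Λ * w)))) * (1 + (τ * w) ^ 2)⁻¹ := by
  have hL : 0 < L := by linarith
  have hΛ0 : 0 < Λ := by linarith
  have hs' : ∀ x, x < w ∨ Λ * w < x → h x = 0 := by
    intro x hx
    by_contra hne
    obtain ⟨h1, h2⟩ := hs x hne
    rcases hx with hx | hx <;> linarith
  set φ : ℝ → ℝ := (Icc w (Λ * w)).indicator fun _ => 1 with hφ
  have hφi : Integrable φ := by
    rw [hφ, integrable_indicator_iff measurableSet_Icc]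
    exact integrableOn_const (by simp)
  have hφJ : (∫ x, φ x) ≤ Λ * w := by
    rw [hφ, integral_indicator measurableSet_Icc, setIntegral_const]
    simp only [Measure.real, Real.volume_Icc, smul_eq_mul, mul_one]
    rw [ENNReal.toReal_ofReal (by nlinarith)]
    linarith
  set k : ℝ → ℝ := fun x => h x * Real.exp (-(1 / L) * x) with hk
  have hkc : ContDiff ℝ (B + 2 : ℕ) k := hh.mul (exp_smooth (-(1 / L)) (B + 2))
  have hbd : ∀ i ≤ B + 2, ∀ x, |iteratedDeriv i k x| ≤ (6 ^ (B + 2) * b) * w⁻¹ ^ i * φ x := by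
    intro i hi x
    by_cases hx : x ∈ Icc w (Λ * w)
    · have e1 : φ x = 1 := by
        rw [hφ, indicator_of_mem hx]
      rw [e1, mul_one]
      have h3 := mul_bd_supp (n := B + 2) (a := w) (b := Λ * w) (F := b) (G := 3 ^ (B + 2))
        hh (exp_smooth (-(1 / L)) (B + 2)) hw hb (by positivity) hs'
        (fun k hk x => hder k hk x)
        (fun k hk x hx1 hx2 => by
          rw [iter_exp, abs_mul, abs_of_pos (Real.exp_pos _), abs_pow, abs_neg,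
            abs_of_pos (by positivity : 0 < 1 / L)]
          have e2 : Real.exp (-(1 / L) * x) ≤ 1 := by
            apply Real.exp_le_one_iff.2
            have : 0 ≤ 1 / L * x := mul_nonneg (by positivity) (by linarith)
            linarith
          have e3 : (1 / L) ^ k ≤ 3 ^ k * w⁻¹ ^ k := by
            rw [← mul_pow]
            refine pow_le_pow_left₀ (by positivity) ?_ k
            rw [← div_eq_mul_inv, div_le_div_iff₀ hL hw]
            linarith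
          have e4 : (3 : ℝ) ^ k ≤ 3 ^ (B + 2) := pow_le_pow_right₀ (by norm_num) hk
          calc (1 / L) ^ k * Real.exp (-(1 / L) * x)
              ≤ (3 ^ k * w⁻¹ ^ k) * 1 :=
                mul_le_mul e3 e2 (Real.exp_pos _).le (by positivity)
            _ = 3 ^ k * w⁻¹ ^ k := mul_one _
            _ ≤ _ := by gcongr) i hi x
      refine h3.trans (le_of_eq ?_)
      rw [show (6 : ℝ) = 2 * 3 by norm_num, mul_pow]
      ring
    · have e1 : φ x = 0 := by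
        rw [hφ, indicator_of_notMem hx]
      rw [e1, mul_zero]
      have hx' : x < w ∨ Λ * w < x := by
        rw [mem_Icc, not_and_or, not_le, not_le] at hx
        exact hx
      rw [iter_zero (a := w) (b := Λ * w) (fun y hy => by
        simp only [hk, hs' y hy, zero_mul]) i x hx', abs_zero]
  have hint : ∀ i ≤ B + 2, Integrable (iteratedDeriv i k) := by
    intro i hi
    refine Integrable.mono' (hφi.const_mul ((6 ^ (B + 2) * b) * w⁻¹ ^ i)) ?_ ?_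
    · exact (hkc.continuous_iteratedDeriv i (by exact_mod_cast hi)).aestronglyMeasurable
    · exact Filter.Eventually.of_forall fun x => by
        rw [Real.norm_eq_abs]
        exact hbd i hi x
  have hI : ∀ i ≤ B + 2, (∫ x, |iteratedDeriv i k x|) ≤ (6 ^ (B + 2) * b) * w⁻¹ ^ i * (Λ * w) := by
    intro i hi
    calc (∫ x, |iteratedDeriv i k x|) ≤ ∫ x, (6 ^ (B + 2) * b) * w⁻¹ ^ i * φ x :=
          integral_mono (hint i hi).abs (hφi.const_mul _) (hbd i hi)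
      _ = (6 ^ (B + 2) * b) * w⁻¹ ^ i * ∫ x, φ x := integral_const_mul _ _
      _ ≤ _ := mul_le_mul_of_nonneg_left hφJ (by positivity)
  have h0 := hI 0 (Nat.zero_le _)
  simp only [iteratedDeriv_zero, pow_zero, mul_one] at h0
  obtain ⟨g, hg1, hg2, hg3, hg4⟩ := four_pt B hw hkc hint h0 (hI (B + 2) le_rfl)
  refine ⟨g, hg1, hg2, fun x => ?_, fun τ => (hg4 τ).trans (le_of_eq ?_)⟩
  · rw [← hg3 x]
    simp only [hk]
    push_cast
    rfl
  · have e1 : w ^ (B + 2) * (6 ^ (B + 2) * b * w⁻¹ ^ (B + 2) * (Λ * w)) =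
        6 ^ (B + 2) * b * (Λ * w) := by
      rw [inv_pow]
      field_simp
    rw [e1]
    ring

variable [Crv] {C₀ c₀ η y₀ θ z : ℝ} {S : ℕ → Finset ℕ} {c : ℕ → ℕ → ℝ}

/-- the quadratic form of a window -/
theorem win_Q2 (hc : StCoef) (hM : StMert) (hM1 : StMert1) (hC₀ : 1 ≤ C₀) (hy₀ : 2 ≤ y₀) :
    ∃ K : ℝ, 1 ≤ K ∧ ∀ (c₀ η θ z : ℝ) (Y : ℕ) (S : ℕ → Finset ℕ) (c : ℕ → ℕ → ℝ), 0 < c₀ →
    0 < z → 0 < θ → θ ≤ 1 → 1 ≤ li θ z 0 → 2 ≤ c₀ * θ * li θ z 0 → 3 ≤ Y →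
    1 ≤ Real.log Y * z → BlkOK C₀ c₀ η y₀ θ z (Real.log Y) S c →
    ∀ i₀ ≤ nb θ z (Real.log Y), ∀ (w b Λ : ℝ) (h : ℝ → ℝ),
    Real.log Y * zi θ z i₀ ≤ w → w ≤ 3 * Real.log Y → Real.log Y ^ (1 / 200 : ℝ) ≤ w → 0 ≤ b →
    1 ≤ Λ → ContDiff ℝ (Bn C₀ + 2 : ℕ) h → (∀ x, h x ≠ 0 → w ≤ x ∧ x ≤ Λ * w) →
    (∀ i ≤ Bn C₀ + 2, ∀ x, |iteratedDeriv i h x| ≤ b * w⁻¹ ^ i) →
    ∀ (A : Finset ℕ) (m : ℕ → ℝ), (∀ a ∈ A, a ≠ 0) →
    (∀ X : ℕ → ℝ, P004.CM X → ∏ i ∈ Finset.Ico i₀ (nb θ z (Real.log Y) + 1), Mi S c i X =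
      ∑ a ∈ A, m a * X a) →
    Moll.Q2 A m (cfY Y h) ≤ K * (3 * Real.log Y / w) ^ (A1 C₀ * θ) *
      (w / (Real.log Y * zi θ z i₀)) * (b ^ 2 * Λ ^ 2) * (1 + Real.log (3 * Real.log Y / w)) := by
  obtain ⟨K₁, hK₁, hTP⟩ := tp_bound hc hM hM1 hC₀ hy₀
  obtain ⟨e6, he6⟩ : ∃ e : ℕ, e = 792000 := ⟨_, rfl⟩
  have hall : ∀ (L : ℝ), 1 ≤ L → ∀ (N : ℕ) (A : Finset ℕ) (m : ℕ → ℝ) (τ τ' : ℝ),
      ‖TPf N A m (1 / L) τ τ'‖ ≤ (∑ a ∈ A, |m a|) ^ 2 * (6 * (1 + L)) ^ e6 := by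
    intro L hL N A m τ τ'
    rw [he6]
    exact tp_all hc hL N A m τ τ'
  clear he6
  obtain ⟨B, hB⟩ : ∃ B : ℕ, B = Bn C₀ := ⟨_, rfl⟩
  rw [← hB] at hTP ⊢
  clear hB
  obtain ⟨G, hG⟩ : ∃ G : ℝ, G = 2 ^ (B + 2) * (2 * 6 ^ (B + 2)) := ⟨_, rfl⟩
  have hG1 : 1 ≤ G := by
    have h1 : (1 : ℝ) ≤ 2 ^ (B + 2) := one_le_pow₀ (by norm_num)
    have h2 : (1 : ℝ) ≤ 6 ^ (B + 2) := one_le_pow₀ (by norm_num)
    rw [hG]
    nlinarith
  refine ⟨16 * 9 * K₁ * G ^ 2 * 34, by nlinarith [one_le_pow₀ (n := 2) hG1], ?_⟩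
  intro c₀ η θ z Y S c hc₀ hz hθ hθ1 h1 h2 hY hLz hBl i₀ hi₀ w b Λ h hu hw3 hw200 hb hΛ hh hs hder
    A m hA hm
  have hL := P004.Moll.logY_ge_one hY
  set L := Real.log Y with hLdef
  have hL0 : 0 < L := by linarith
  have hY0 : (0 : ℝ) < Y := by exact_mod_cast (by omega : 0 < Y)
  have hu1 := nb_ge (θ := θ) hLz hi₀
  set u₀ := L * zi θ z i₀ with hu₀
  have hu0 : 0 < u₀ := by linarith
  have hw0 : 0 < w := hu0.trans_le hu
  have hH : 1 ≤ 3 * L / w := by rw [le_div_iff₀ hw0]; linarith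
  obtain ⟨g, hg1, hg2, hg3, hg4⟩ := rep_win B hw0 hw3 hb hh hs hder hΛ
  set Kc : ℝ := K₁ * (3 * L / w) ^ (A1 C₀ * θ) * (w / u₀) with hKc
  have hKc0 : 0 ≤ Kc := by positivity
  set Kf' : ℝ → ℝ → ℝ := fun τ τ' => Kc * ((1 + |τ| * w) ^ B * (1 + |τ'| * w) ^ B *
    (1 + 1 / (w * (|τ - τ'| + 1 / L)))) with hKf
  have hsb : ∀ x, |h x| ≤ b := by
    intro x
    have := hder 0 (Nat.zero_le _) x
    rwa [iteratedDeriv_zero, pow_zero, mul_one] at this
  have hf0 : ∀ u, 0 < u → u < Real.exp w / Y → cfY Y h u = 0 := by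
    intro u hu0 hu
    unfold cfY
    by_contra hne
    have h3 := (hs _ hne).1
    have h4 : Real.log (u * Y) < w := by
      rw [Real.log_lt_iff_lt_exp (by positivity)]
      rw [lt_div_iff₀ hY0] at hu
      exact hu
    linarith
  have hp := pass2 hc (Y := Y) (S := A) (m := m) (σ := 1 / L) (U := Real.exp w / Y) (b := b)
    (Kb := (∑ a ∈ A, |m a|) ^ 2 * (6 * (1 + L)) ^ e6) (h := h) (g := g) (K := Kf')
    (by omega) (by positivity) (by
      rw [div_le_iff₀ hL0]; linarith) (by positivity) (fun u _ => hsb _) hf0 hA hg1 hg2 hg3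
    (fun N τ τ' => hall L hL N A m τ τ')
    (fun τ τ' ε hε => by
      filter_upwards [eventually_ge_atTop (⌈Real.exp u₀⌉₊ + 2)] with N hN
      have hN' : Real.exp u₀ + 2 ≤ N := by
        have e1 := Nat.le_ceil (Real.exp u₀)
        have e2 : ((⌈Real.exp u₀⌉₊ + 2 : ℕ) : ℝ) ≤ N := by exact_mod_cast hN
        push_cast at e2
        linarith
      have := hTP c₀ η θ z L S c hc₀ hz hθ hθ1 h1 h2 hL hLz hBl i₀ hi₀ w hu hw3 hw200 A m hm τ τ' N
        hN'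
      simp only [hKf, hKc]
      linarith)
  -- the double integral
  have hI : ∫⁻ p : ℝ × ℝ, ENNReal.ofReal (‖g p.1‖ * ‖g p.2‖ * Kf' p.1 p.2) ≤
      ENNReal.ofReal ((Kc * (G * b * (Λ * w)) ^ 2) * (w⁻¹ ^ 2 * (20 + 7 * Real.log (1 + L / w)))) := by
    rw [ENNReal.ofReal_mul (by positivity)]
    calc ∫⁻ p : ℝ × ℝ, ENNReal.ofReal (‖g p.1‖ * ‖g p.2‖ * Kf' p.1 p.2) ≤
        ∫⁻ p : ℝ × ℝ, ENNReal.ofReal (Kc * (G * b * (Λ * w)) ^ 2) *
          ENNReal.ofReal ((1 + (p.1 * w) ^ 2)⁻¹ * (1 + (p.2 * w) ^ 2)⁻¹ *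
            (1 + 1 / (w * (|p.1 - p.2| + 1 / L)))) := by
          refine lintegral_mono fun p => ?_
          rw [← ENNReal.ofReal_mul (by positivity)]
          apply ENNReal.ofReal_le_ofReal
          have a1 := hg4 p.1
          have a2 := hg4 p.2
          have e1 : 2 ^ (B + 2) * (2 * (6 ^ (B + 2) * b * (Λ * w))) = G * b * (Λ * w) := by
            rw [hG]; ring
          rw [e1] at a1 a2
          have hδ : 0 ≤ 1 + 1 / (w * (|p.1 - p.2| + 1 / L)) := by positivity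
          calc ‖g p.1‖ * ‖g p.2‖ * Kf' p.1 p.2 =
              Kc * ((‖g p.1‖ * (1 + |p.1| * w) ^ B) * (‖g p.2‖ * (1 + |p.2| * w) ^ B)) *
                (1 + 1 / (w * (|p.1 - p.2| + 1 / L))) := by
                simp only [hKf]
                ring
            _ ≤ Kc * (((G * b * (Λ * w)) * (1 + (p.1 * w) ^ 2)⁻¹) *
                ((G * b * (Λ * w)) * (1 + (p.2 * w) ^ 2)⁻¹)) *
                (1 + 1 / (w * (|p.1 - p.2| + 1 / L))) := by gcongr
            _ = _ := by ring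
      _ = ENNReal.ofReal (Kc * (G * b * (Λ * w)) ^ 2) * ∫⁻ p : ℝ × ℝ,
          ENNReal.ofReal ((1 + (p.1 * w) ^ 2)⁻¹ * (1 + (p.2 * w) ^ 2)⁻¹ *
            (1 + 1 / (w * (|p.1 - p.2| + 1 / L)))) :=
          lintegral_const_mul' _ _ ENNReal.ofReal_ne_top
      _ ≤ _ := mul_le_mul_right (schur hw0 hL0) _
  have hlog0 : 0 ≤ Real.log (1 + L / w) := Real.log_nonneg (by
    have : 0 < L / w := by positivity
    linarith)
  have hlog1 : Real.log (1 + L / w) ≤ 1 + Real.log (3 * L / w) := by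
    have e1 : 1 + L / w ≤ 2 * (3 * L / w) := by
      have : 3 * L / w = 3 * (L / w) := by ring
      have h3 : 0 < L / w := by positivity
      linarith
    have e2 : Real.log (1 + L / w) ≤ Real.log (2 * (3 * L / w)) :=
      Real.log_le_log (by positivity) e1
    rw [Real.log_mul (by norm_num) (by positivity)] at e2
    linarith [Real.log_two_lt_d9]
  have hYe : (Y : ℝ) ^ (1 / L) = Real.exp 1 := by
    rw [Real.rpow_def_of_pos hY0, ← hLdef]
    congr 1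
    field_simp
  have hfin := hp.trans (mul_le_mul_right hI _)
  rw [← ENNReal.ofReal_mul (by positivity)] at hfin
  have hlogH : 0 ≤ Real.log (3 * L / w) := Real.log_nonneg hH
  have hreal : Moll.Q2 A m (cfY Y h) ≤ 16 * ((Y : ℝ) ^ (1 / L)) ^ 2 *
      ((Kc * (G * b * (Λ * w)) ^ 2) * (w⁻¹ ^ 2 * (20 + 7 * Real.log (1 + L / w)))) :=
    (ENNReal.ofReal_le_ofReal_iff (by positivity)).1 hfin
  refine hreal.trans ?_
  rw [hYe]
  have he : Real.exp 1 ^ 2 ≤ 9 := by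
    have := Real.exp_one_lt_d9
    have := Real.exp_pos 1
    nlinarith
  have e1 : (Kc * (G * b * (Λ * w)) ^ 2) * (w⁻¹ ^ 2 * (20 + 7 * Real.log (1 + L / w))) =
      (Kc * G ^ 2 * (b ^ 2 * Λ ^ 2)) * (20 + 7 * Real.log (1 + L / w)) := by
    field_simp
  rw [e1]
  calc 16 * Real.exp 1 ^ 2 * ((Kc * G ^ 2 * (b ^ 2 * Λ ^ 2)) * (20 + 7 * Real.log (1 + L / w))) ≤
      16 * 9 * ((Kc * G ^ 2 * (b ^ 2 * Λ ^ 2)) * (34 * (1 + Real.log (3 * L / w)))) := by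
        gcongr
        linarith
    _ = _ := by rw [hKc]; ring

end P004G.E3W
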