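import Vale.Agent.P004E.H3.Win

/-!
# P004E, module W (part 12): the statement W1
-/

open Real MeasureTheory Set Filter Topology
open scoped ENNReal

namespace P004G.E3W

open P004E (zi nb li Ib gp Mi Mh BlkOK StMert StMert1 StWin)
open P004.Moll (chi_CM summable_ah_bdd Dp Dp_abs_le)
open Moll (Fn_bdd tr2)

lemma pow_exp_w (a : ℕ) : ∃ C : ℝ, 1 ≤ C ∧ ∀ L w : ℝ, 1 ≤ L → L ^ (1 / 200 : ℝ) ≤ w →
    L ^ a * Real.exp (-(w / 8)) ≤ C := by
  refine ⟨max 1 (8 ^ (200 * a) * (Nat.factorial (200 * a) : ℝ)), le_max_left _ _, ?_⟩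
  intro L w hL hw
  have hL0 : 0 ≤ L := by linarith
  have h0 : 0 ≤ L ^ (1 / 200 : ℝ) := Real.rpow_nonneg hL0 _
  have hw0 : 0 ≤ w := h0.trans hw
  have h1 : L ≤ w ^ 200 := by
    calc L = (L ^ (1 / 200 : ℝ)) ^ 200 := by
          rw [← Real.rpow_natCast, ← Real.rpow_mul hL0]
          norm_num
      _ ≤ w ^ 200 := pow_le_pow_left₀ h0 hw 200
  have h2 : L ^ a ≤ w ^ (200 * a) := by
    rw [pow_mul]
    exact pow_le_pow_left₀ hL0 h1 a
  have h3 := Real.pow_div_factorial_le_exp (w / 8) (by positivity) (200 * a)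
  rw [div_le_iff₀ (by positivity), div_pow, div_le_iff₀ (by positivity)] at h3
  refine le_trans ?_ (le_max_right _ _)
  rw [Real.exp_neg, ← div_eq_mul_inv, div_le_iff₀ (Real.exp_pos _)]
  linarith

variable [Crv]

/-- Module W1. -/
theorem pfWin (hC : StCoef) (hD : StDiv) (h2 : StTw2) (hM : StMert) (hM1 : StMert1) : StWin := by
  intro C₀ c₀ η hC₀ hc₀ hη hη1
  refine ⟨⌈A1 C₀⌉₊ + 1, ?_⟩
  intro y₀ θ hy₀ hθ hθ10
  obtain ⟨K, hK1, hQ⟩ := win_Q2 hC hM hM1 hC₀ hy₀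
  obtain ⟨C₂, hC₂, A₂, hT⟩ := tr2 hC hD h2
  obtain ⟨CE, hCE, hE⟩ := pow_exp_w A₂
  obtain ⟨B, hB⟩ : ∃ B : ℕ, B = Bn C₀ := ⟨_, rfl⟩
  rw [← hB] at hQ
  clear hB
  have hcθ : 0 < c₀ * θ := mul_pos hc₀ hθ
  refine ⟨B + 2, 5040 * K + C₂ * CE, Real.exp (-((1 + 2 / (c₀ * θ)) / θ)), by nlinarith,
    Real.exp_pos _, ?_⟩
  intro z hz hzz Λ hΛ
  refine ⟨⌈Real.exp (1 / z)⌉₊ + 3, ?_⟩
  intro Y S c hYY hBl i₀ w b h hi₀ hw200 hw3 hw64 hb hh hsupp hder
  -- basic facts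
  have hY3 : 3 ≤ Y := by omega
  have hY1 : (1 : ℝ) ≤ Y := by exact_mod_cast (by omega : 1 ≤ Y)
  have hY0 : (0 : ℝ) < Y := by linarith
  have hL := P004.Moll.logY_ge_one hY3
  set L := Real.log Y with hLdef
  have hL0 : 0 < L := by linarith
  have hLz : 1 ≤ L * z := by
    have e1 : Real.exp (1 / z) ≤ Y := by
      have e1 := Nat.le_ceil (Real.exp (1 / z))
      have e2 : ((⌈Real.exp (1 / z)⌉₊ + 3 : ℕ) : ℝ) ≤ Y := by exact_mod_cast hYY
      push_cast at e2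
      linarith
    have e2 : 1 / z ≤ L := by
      rw [hLdef, Real.le_log_iff_exp_le hY0]
      exact e1
    rwa [div_le_iff₀ hz] at e2
  have hli : 1 + 2 / (c₀ * θ) ≤ li θ z 0 := by
    unfold li
    rw [zi_zero, one_div, Real.log_inv]
    have e1 : Real.log z ≤ -((1 + 2 / (c₀ * θ)) / θ) := by
      rw [Real.log_le_iff_le_exp hz]
      exact hzz
    calc 1 + 2 / (c₀ * θ) = θ * ((1 + 2 / (c₀ * θ)) / θ) := by field_simp
      _ ≤ θ * -Real.log z := by gcongr; linarith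
  have h1 : 1 ≤ li θ z 0 := by
    have : 0 < 2 / (c₀ * θ) := by positivity
    linarith
  have h2' : 2 ≤ c₀ * θ * li θ z 0 := by
    calc (2 : ℝ) = c₀ * θ * (2 / (c₀ * θ)) := by field_simp
      _ ≤ c₀ * θ * li θ z 0 := by
          gcongr
          linarith
  have hu1 := nb_ge (θ := θ) hLz hi₀
  have hu0 : 0 < L * zi θ z i₀ := by linarith
  have hel : 1 ≤ Real.exp (η * li θ z i₀) := by
    apply Real.one_le_exp
    exact mul_nonneg hη.le (by have := li_one_le hz hθ h1 i₀; linarith)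
  have hu : L * zi θ z i₀ ≤ w := by
    refine le_trans ?_ hw64
    have e1 : 1 ≤ 64 * C₀ := by linarith
    have e2 : L * zi θ z i₀ ≤ 64 * C₀ * (L * zi θ z i₀) := le_mul_of_one_le_left hu0.le e1
    exact e2.trans (le_mul_of_one_le_right (by positivity) hel)
  have hw0 : 0 < w := hu0.trans_le hu
  have hH : 1 ≤ 3 * L / w := by rw [le_div_iff₀ hw0]; linarith
  have hR : 1 ≤ w / (L * zi θ z i₀) := by rw [le_div_iff₀ hu0]; linarith
  have hlogH : 0 ≤ Real.log (3 * L / w) := Real.log_nonneg hH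
  rcases hb.eq_or_lt with hb0 | hb0
  · -- `b = 0`
    have h0 : ∀ x, h x = 0 := by
      intro x
      have := hder 0 (Nat.zero_le _) x
      rw [iteratedDeriv_zero, ← hb0, zero_mul] at this
      exact abs_eq_zero.1 (le_antisymm this (abs_nonneg _))
    have e0 : ∀ m : ℤ, Fw Y h m = 0 := by
      intro m
      unfold Fw Fn cfY
      simp [h0]
    have e1 : (fun k : ℤ => P004.H1.ah Y k * (Mh S c i₀ (nb θ z L + 1) k * Fw Y h k) ^ 2) =
        fun _ => 0 := by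
      funext k
      rw [e0]
      ring
    rw [e1]
    refine ⟨summable_zero, ?_⟩
    rw [tsum_zero, ← hb0]
    positivity
  -- the Dirichlet polynomial
  obtain ⟨A, m, hm, hA, hmA⟩ := moll_poly hz hθ hθ10 h1 hη.le hη1 hC₀ hL0 hBl i₀ le_rfl
    (Λ := w / 32) (by linarith)
  have hA0 : ∀ a ∈ A, a ≠ 0 := fun a ha => (hA a ha).1.1
  set E := Real.exp (w / 32) with hEdef
  have hE0 : 0 < E := Real.exp_pos _
  have hMh : ∀ k : ℤ, Mh S c i₀ (nb θ z L + 1) k = Dp A m (fun n => chi k n) := by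
    intro k
    unfold Mh
    rw [hm _ (chi_CM k)]
    rfl
  -- the window
  have hsm : ∀ x, |h x| ≤ b := by
    intro x
    have := hder 0 (Nat.zero_le _) x
    rwa [iteratedDeriv_zero, pow_zero, mul_one] at this
  have hmeas : Measurable h := hh.continuous.measurable
  have hfm : Measurable (cfY Y h) := by
    unfold cfY
    exact hmeas.comp (Real.measurable_log.comp (measurable_id.mul_const _))
  set U := min (Real.exp w / Y) 1 with hUdef
  have hU0 : 0 < U := lt_min (by positivity) one_pos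
  have hU1 : Real.exp (-L) ≤ U := by
    rw [hUdef, le_min_iff]
    constructor
    · rw [hLdef, Real.exp_neg, Real.exp_log hY0, inv_eq_one_div]
      gcongr
      exact Real.one_le_exp hw0.le
    · exact Real.exp_le_one_iff.2 (by linarith)
  have hU2 : U ≤ 1 := min_le_right _ _
  have hUinv : 1 / U ≤ Y * Real.exp (-(w / 3)) := by
    have e3 : Real.exp (w / 3) ≤ Y := by
      rw [← Real.exp_log hY0]
      exact Real.exp_le_exp.2 (by linarith)
    rw [Real.exp_neg, ← div_eq_mul_inv, div_le_div_iff₀ hU0 (Real.exp_pos _), one_mul, hUdef]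
    rcases le_total (Real.exp w / Y) 1 with hc | hc
    · rw [min_eq_left hc]
      calc Real.exp (w / 3) ≤ Real.exp w := Real.exp_le_exp.2 (by linarith)
        _ = Y * (Real.exp w / Y) := by field_simp
    · rw [min_eq_right hc, mul_one]
      exact e3
  have hf0 : ∀ u, 0 < u → u < U → cfY Y h u = 0 := by
    intro u hu0 hu
    unfold cfY
    by_contra hne
    have h3 := (hsupp _ hne).1
    have h5 : u < Real.exp w / Y := hu.trans_le (min_le_left _ _)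
    have h4 : Real.log (u * Y) < w := by
      rw [Real.log_lt_iff_lt_exp (by positivity)]
      rw [lt_div_iff₀ hY0] at h5
      exact h5
    linarith
  have hfb : ∀ u, 0 < u → |cfY Y h u| ≤ b := fun u _ => hsm _
  obtain ⟨M, hM0, hMb⟩ := Fn_bdd hC hb0 hU0 hfm hfb hf0
  have hG : ∀ k : ℤ, |(Mh S c i₀ (nb θ z L + 1) k * Fw Y h k) ^ 2| ≤ ((∑ a ∈ A, |m a|) * M) ^ 2 := by
    intro k
    rw [abs_pow, abs_mul, hMh]
    refine pow_le_pow_left₀ (by positivity) ?_ 2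
    exact mul_le_mul (Dp_abs_le A m k) (hMb k) (abs_nonneg _)
      (Finset.sum_nonneg fun _ _ => abs_nonneg _)
  refine ⟨summable_ah_bdd hY0 hG, ?_⟩
  -- the normalised polynomial
  set m' : ℕ → ℝ := fun a => m a / E with hm'
  have hm'1 : ∀ a ∈ A, |m' a| ≤ 1 := by
    intro a ha
    simp only [hm']
    rw [abs_div, abs_of_pos hE0, div_le_one hE0]
    exact (Finset.single_le_sum (f := fun a => |m a|) (fun _ _ => abs_nonneg _) ha).trans hmA
  have hDp : ∀ X : ℕ → ℝ, Dp A m' X = Dp A m X / E := by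
    intro X
    unfold Dp
    rw [Finset.sum_div]
    refine Finset.sum_congr rfl fun a _ => ?_
    simp only [hm']
    ring
  have hQ2 : Moll.Q2 A m' (cfY Y h) = Moll.Q2 A m (cfY Y h) / E ^ 2 := by
    unfold Moll.Q2
    rw [Finset.sum_div]
    refine Finset.sum_congr rfl fun a _ => ?_
    rw [Finset.sum_div]
    refine Finset.sum_congr rfl fun a' _ => ?_
    simp only [hm']
    ring
  have h4 := hT L Y U b E A m' (cfY Y h) hL hY1 le_rfl hU1 hU2 hb0 hfm hfb hf0 hm'1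
    (fun a ha => (hA a ha).1) (fun a ha => (hA a ha).2) (by
      rw [hEdef, Real.log_exp]
      linarith)
  have h5 := (abs_le.1 h4).2
  have e2 : ∑' k : ℤ, P004.H1.ah Y k * (Mh S c i₀ (nb θ z L + 1) k * Fw Y h k) ^ 2 =
      E ^ 2 * ∑' k : ℤ, P004.H1.ah Y k * (Dp A m' (fun n => chi k n) ^ 2 * Fn (cfY Y h) k ^ 2) := by
    rw [← tsum_mul_left]
    refine tsum_congr fun k => ?_
    rw [hMh, hDp]
    unfold Fw
    field_simp
  rw [e2]
  have hmain := hQ c₀ η θ z Y S c hc₀ hz hθ (by linarith) h1 h2' hY3 hLz hBl i₀ hi₀ w b Λ h hu hw3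
    hw200 hb hΛ hh (fun x hx => ⟨(hsupp x hx).1, (hsupp x hx).2.1⟩) hder A m hA0 hm
  rw [← hLdef] at hmain
  set H := 3 * L / w with hHdef
  set R := w / (L * zi θ z i₀) with hRdef
  have hR0 : 0 < R := by linarith
  have hH0 : 0 < H := by linarith
  -- the error
  have herr : E ^ 2 * (C₂ * L ^ A₂ * b ^ 2 * E ^ 4 / U) ≤ C₂ * CE * Y * b ^ 2 := by
    have e6 : E ^ 6 * (1 / U) ≤ Y * Real.exp (-(w / 8)) := by
      calc E ^ 6 * (1 / U) ≤ E ^ 6 * (Y * Real.exp (-(w / 3))) := by gcongr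
        _ = Y * Real.exp (6 * (w / 32) + -(w / 3)) := by
            rw [Real.exp_add, hEdef, ← Real.exp_nat_mul]
            push_cast
            ring
        _ ≤ Y * Real.exp (-(w / 8)) := by
            gcongr
            linarith
    calc E ^ 2 * (C₂ * L ^ A₂ * b ^ 2 * E ^ 4 / U) = C₂ * L ^ A₂ * b ^ 2 * (E ^ 6 * (1 / U)) := by
          ring
      _ ≤ C₂ * L ^ A₂ * b ^ 2 * (Y * Real.exp (-(w / 8))) := by gcongr
      _ = C₂ * (L ^ A₂ * Real.exp (-(w / 8))) * Y * b ^ 2 := by ring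
      _ ≤ C₂ * CE * Y * b ^ 2 := by
          gcongr
          exact hE L w hL hw200
  have hA1 : H ^ (A1 C₀ * θ) ≤ H ^ ((⌈A1 C₀⌉₊ + 1 : ℕ) * θ) := by
    apply Real.rpow_le_rpow_of_exponent_le hH
    have := Nat.le_ceil (A1 C₀)
    push_cast
    gcongr
    linarith
  have hR1 : R ≤ R ^ (⌈A1 C₀⌉₊ + 1) := by
    calc R = R ^ 1 := (pow_one R).symm
      _ ≤ _ := pow_le_pow_right₀ hR (by omega)
  have hΛn : Λ ^ 2 ≤ Λ ^ (B + 2) := pow_le_pow_right₀ hΛ (by omega)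
  have hm2 : Moll.Q2 A m (cfY Y h) ≤ K * (Λ ^ (B + 2) * b ^ 2 * R ^ (⌈A1 C₀⌉₊ + 1) *
      H ^ ((⌈A1 C₀⌉₊ + 1 : ℕ) * θ) * (1 + Real.log H)) := by
    refine hmain.trans ?_
    calc K * H ^ (A1 C₀ * θ) * R * (b ^ 2 * Λ ^ 2) * (1 + Real.log H) ≤
        K * H ^ ((⌈A1 C₀⌉₊ + 1 : ℕ) * θ) * R ^ (⌈A1 C₀⌉₊ + 1) * (b ^ 2 * Λ ^ (B + 2)) *
          (1 + Real.log H) := by
          gcongr
      _ = _ := by ring
  set W := Λ ^ (B + 2) * b ^ 2 * R ^ (⌈A1 C₀⌉₊ + 1) * H ^ ((⌈A1 C₀⌉₊ + 1 : ℕ) * θ) *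
    (1 + Real.log H) with hWdef
  have hWb : b ^ 2 ≤ W := by
    have e1 : 1 ≤ Λ ^ (B + 2) := one_le_pow₀ hΛ
    have e2 : 1 ≤ R ^ (⌈A1 C₀⌉₊ + 1) := one_le_pow₀ hR
    have e3 : 1 ≤ H ^ ((⌈A1 C₀⌉₊ + 1 : ℕ) * θ) := Real.one_le_rpow hH (by positivity)
    have e4 : 1 ≤ 1 + Real.log H := by linarith
    have hb2 : 0 ≤ b ^ 2 := sq_nonneg b
    calc b ^ 2 = 1 * b ^ 2 * 1 * 1 * 1 := by ring
      _ ≤ W := by
          rw [hWdef]
          gcongr
  calc E ^ 2 * ∑' k : ℤ, P004.H1.ah Y k * (Dp A m' (fun n => chi k n) ^ 2 * Fn (cfY Y h) k ^ 2)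
      ≤ E ^ 2 * (5040 * Y * Moll.Q2 A m' (cfY Y h) + C₂ * L ^ A₂ * b ^ 2 * E ^ 4 / U) := by
        gcongr
        linarith
    _ = 5040 * Y * Moll.Q2 A m (cfY Y h) + E ^ 2 * (C₂ * L ^ A₂ * b ^ 2 * E ^ 4 / U) := by
        rw [hQ2]
        field_simp
    _ ≤ 5040 * Y * (K * W) + C₂ * CE * Y * b ^ 2 := by gcongr
    _ ≤ 5040 * Y * (K * W) + C₂ * CE * Y * W := by gcongr
    _ = _ := by
        rw [hWdef]
        ring

end P004G.E3W
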