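import Vale.Agent.P004E.Blk
import Vale.Agent.P004E.H3.Rest

/-!
# P004E, module W (part 6): the blocks
-/

open Finset Real

namespace P004G.E3W

open P004E (zi nb li Ib gp)

section num

variable {θ z L : ℝ}

lemma zi_pos (hz : 0 < z) (i : ℕ) : 0 < zi θ z i := Real.rpow_pos_of_pos hz _

lemma zi_zero : zi θ z 0 = z := by simp [zi]

lemma zi_succ (hz : 0 < z) (i : ℕ) : zi θ z (i + 1) = zi θ z i ^ (1 + θ) := by
  unfold zi
  rw [← Real.rpow_mul hz.le, pow_succ]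

lemma log_zi (hz : 0 < z) (i : ℕ) : Real.log (zi θ z i) = (1 + θ) ^ i * Real.log z := by
  unfold zi
  rw [Real.log_rpow hz]

lemma li_eq (hz : 0 < z) (i : ℕ) :
    li θ z i = Real.log (zi θ z i) - Real.log (zi θ z (i + 1)) := by
  unfold li
  rw [one_div, Real.log_inv, log_zi hz, log_zi hz, pow_succ]
  ring

lemma li_eq' (hz : 0 < z) (i : ℕ) : li θ z i = (1 + θ) ^ i * li θ z 0 := by
  unfold li
  rw [one_div, one_div, Real.log_inv, Real.log_inv, log_zi hz, log_zi hz]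
  ring

lemma one_add_le_pow (hθ : 0 < θ) (i : ℕ) : 1 + θ * i ≤ (1 + θ) ^ i := by
  have := one_add_mul_le_pow (a := θ) (by linarith) i
  linarith

lemma li_ge (hz : 0 < z) (hθ : 0 < θ) (h0 : 0 ≤ li θ z 0) (i : ℕ) :
    li θ z 0 * (1 + θ * i) ≤ li θ z i := by
  rw [li_eq' hz i, mul_comm]
  exact mul_le_mul_of_nonneg_right (one_add_le_pow hθ i) h0

lemma li_one_le (hz : 0 < z) (hθ : 0 < θ) (h1 : 1 ≤ li θ z 0) (i : ℕ) : 1 ≤ li θ z i := by
  refine le_trans ?_ (li_ge hz hθ (by linarith) i)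
  have : 0 ≤ θ * i := by positivity
  nlinarith

lemma z_lt_one (hz : 0 < z) (hθ : 0 < θ) (h1 : 1 ≤ li θ z 0) : z < 1 := by
  by_contra h
  rw [not_lt] at h
  have : Real.log (1 / z) ≤ 0 := Real.log_nonpos (by positivity) (by
    rw [div_le_one hz]; exact h)
  unfold li at h1
  rw [zi_zero] at h1
  nlinarith

/-- the block boundaries decrease at least by the factor `1/2` -/
lemma zi_half (hz : 0 < z) (hθ : 0 < θ) (h1 : 1 ≤ li θ z 0) (i : ℕ) :
    zi θ z (i + 1) ≤ zi θ z i / 2 := by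
  have h2 := li_one_le hz hθ h1 i
  rw [li_eq hz] at h2
  have h3 : Real.log (zi θ z (i + 1)) ≤ Real.log (zi θ z i / 2) := by
    rw [Real.log_div (zi_pos hz i).ne' (by norm_num)]
    linarith [Real.log_two_lt_d9]
  exact (Real.log_le_log_iff (zi_pos hz _) (by have := zi_pos (θ := θ) hz i; positivity)).1 h3

lemma zi_anti (hz : 0 < z) (hθ : 0 < θ) (h1 : 1 ≤ li θ z 0) {i j : ℕ} (hij : i ≤ j) :
    zi θ z j ≤ zi θ z i := by
  induction j, hij using Nat.le_induction with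
  | base => exact le_rfl
  | succ j _ ih =>
    have := zi_half hz hθ h1 j
    have := zi_pos (θ := θ) hz j
    linarith

lemma zi_half_pow (hz : 0 < z) (hθ : 0 < θ) (h1 : 1 ≤ li θ z 0) (k j : ℕ) :
    zi θ z (k + j) ≤ zi θ z k * (1 / 2) ^ j := by
  induction j with
  | zero => simp
  | succ j ih =>
    have := zi_half hz hθ h1 (k + j)
    rw [← add_assoc, pow_succ]
    linarith

lemma exists_small (hz : 0 < z) (hθ : 0 < θ) (h1 : 1 ≤ li θ z 0) (hL : 0 < L) :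
    ∃ n, L * zi θ z (n + 1) < 1 := by
  obtain ⟨n, hn⟩ := exists_pow_lt_of_lt_one (x := 1 / L) (y := (1 / 2 : ℝ)) (by positivity)
    (by norm_num)
  refine ⟨n, ?_⟩
  have h2 := zi_half_pow hz hθ h1 0 (n + 1)
  rw [zero_add, zi_zero] at h2
  have h3 := z_lt_one hz hθ h1
  have h4 : zi θ z (n + 1) < 1 / L := by
    have h5 : ((1 : ℝ) / 2) ^ (n + 1) ≤ (1 / 2) ^ n := by
      rw [pow_succ]
      have : (0 : ℝ) < (1 / 2) ^ n := by positivity
      linarith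
    have h6 : z * (1 / 2) ^ (n + 1) ≤ 1 * (1 / 2) ^ n := by gcongr
    linarith
  rw [lt_div_iff₀ hL] at h4
  linarith

lemma nb_spec (hz : 0 < z) (hθ : 0 < θ) (h1 : 1 ≤ li θ z 0) (hL : 0 < L) :
    L * zi θ z (nb θ z L + 1) < 1 := Nat.sInf_mem (exists_small hz hθ h1 hL)

/-- the block boundaries up to the last block -/
lemma nb_ge (hLz : 1 ≤ L * z) {i : ℕ} (hi : i ≤ nb θ z L) :
    1 ≤ L * zi θ z i := by
  rcases Nat.eq_zero_or_pos i with rfl | h
  · rwa [zi_zero]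
  · have h2 := Nat.notMem_of_lt_sInf (m := i - 1) (s := {n : ℕ | L * zi θ z (n + 1) < 1})
      (show i - 1 < nb θ z L by omega)
    rw [Set.mem_ofPred_eq, not_lt, Nat.sub_add_cancel h] at h2
    exact h2

lemma nb_exp (hz : 0 < z) (hθ : 0 < θ) (h1 : 1 ≤ li θ z 0) (hL : 0 < L) :
    L * zi θ z (nb θ z L) ≤ Real.exp (li θ z (nb θ z L)) := by
  have h2 := nb_spec hz hθ h1 hL
  have p1 := zi_pos (θ := θ) hz (nb θ z L)
  have p2 := zi_pos (θ := θ) hz (nb θ z L + 1)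
  rw [li_eq hz, Real.exp_sub, Real.exp_log p1, Real.exp_log p2, le_div_iff₀ p2]
  nlinarith

/-- a halving sequence has bounded sums over the indices where it is at most one -/
lemma half_sum {a : ℕ → ℝ} (ha : ∀ k j, a (k + j) ≤ a k * (1 / 2) ^ j)
    {J : Finset ℕ} (hJ : ∀ i ∈ J, a i ≤ 1) : ∑ i ∈ J, a i ≤ 2 := by
  rcases J.eq_empty_or_nonempty with h | h
  · rw [h]; norm_num
  set k := J.min' h with hk
  have hkJ : k ∈ J := J.min'_mem h
  have h1 : ∑ i ∈ J, a i ≤ ∑ i ∈ J, (1 / 2 : ℝ) ^ (i - k) := by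
    refine Finset.sum_le_sum fun i hi => ?_
    have hki : k ≤ i := J.min'_le i hi
    have h2 := ha k (i - k)
    rw [Nat.add_sub_cancel' hki] at h2
    refine h2.trans ?_
    have h3 : (0 : ℝ) ≤ (1 / 2) ^ (i - k) := by positivity
    have := hJ k hkJ
    nlinarith
  refine h1.trans ?_
  have h2 : ∑ i ∈ J, (1 / 2 : ℝ) ^ (i - k) = ∑ j ∈ J.image (fun i => i - k), (1 / 2 : ℝ) ^ j := by
    rw [Finset.sum_image]
    intro x hx y hy hxy
    have h3 : k ≤ x := J.min'_le x hx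
    have h4 : k ≤ y := J.min'_le y hy
    simp only at hxy
    omega
  rw [h2]
  have h5 := (summable_geometric_of_lt_one (r := (1 / 2 : ℝ)) (by norm_num)
    (by norm_num)).sum_le_tsum (J.image (fun i => i - k)) (fun _ _ => by positivity)
  rw [tsum_geometric_of_lt_one (by norm_num) (by norm_num)] at h5
  norm_num at h5 ⊢
  exact h5

end num

section primes

variable [Crv] {y₀ θ z L : ℝ}

lemma mem_gp {x : ℝ} (hx : 0 ≤ x) {p : ℕ} : p ∈ gp x ↔ (p : ℝ) ≤ x ∧ p.Prime ∧ ¬ p ∣ bd := by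
  unfold gp
  rw [mem_filter, mem_range, Nat.lt_succ_iff, Nat.le_floor_iff hx]

lemma mem_Ib {i p : ℕ} : p ∈ Ib y₀ θ z L i ↔ (p : ℝ) ≤ Real.exp (L * zi θ z i) ∧ p.Prime ∧
    ¬ p ∣ bd ∧ y₀ < p ∧ (i < nb θ z L → Real.exp (L * zi θ z (i + 1)) < p) := by
  unfold Ib
  rw [mem_filter, mem_gp (Real.exp_pos _).le]
  tauto

lemma Ib_disj (hz : 0 < z) (hθ : 0 < θ) (h1 : 1 ≤ li θ z 0) (hL : 0 < L) {i j p : ℕ} (hij : i < j)
    (hj : j ≤ nb θ z L) (hi' : p ∈ Ib y₀ θ z L i) (hj' : p ∈ Ib y₀ θ z L j) : False := by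
  have a1 := (mem_Ib.1 hi').2.2.2.2 (by omega)
  have a2 := (mem_Ib.1 hj').1
  have a3 : zi θ z j ≤ zi θ z (i + 1) := zi_anti hz hθ h1 (by omega)
  have a4 : Real.exp (L * zi θ z j) ≤ Real.exp (L * zi θ z (i + 1)) := by
    apply Real.exp_le_exp.2
    gcongr
  linarith

lemma Ib_pairwise (hz : 0 < z) (hθ : 0 < θ) (h1 : 1 ≤ li θ z 0) (hL : 0 < L) {J : Finset ℕ}
    (hJ : ∀ i ∈ J, i ≤ nb θ z L) : (J : Set ℕ).PairwiseDisjoint (fun i => Ib y₀ θ z L i) := by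
  intro i hi j hj hij
  refine Finset.disjoint_left.2 fun p hp hq => ?_
  rcases lt_or_gt_of_ne hij with h | h
  · exact Ib_disj hz hθ h1 hL h (hJ j hj) hp hq
  · exact Ib_disj hz hθ h1 hL h (hJ i hi) hq hp

/-- the union of the blocks `i₀ ≤ i ≤ n` -/
lemma mem_blocks (hz : 0 < z) (hθ : 0 < θ) (h1 : 1 ≤ li θ z 0) (hL : 0 < L) {i₀ : ℕ}
    (hi₀ : i₀ ≤ nb θ z L) {p : ℕ} :
    p ∈ (Ico i₀ (nb θ z L + 1)).biUnion (fun i => Ib y₀ θ z L i) ↔
      (p : ℝ) ≤ Real.exp (L * zi θ z i₀) ∧ p.Prime ∧ ¬ p ∣ bd ∧ y₀ < p := by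
  rw [mem_biUnion]
  constructor
  · rintro ⟨i, hi, hp⟩
    rw [mem_Ico] at hi
    obtain ⟨a1, a2, a3, a4, -⟩ := mem_Ib.1 hp
    refine ⟨a1.trans (Real.exp_le_exp.2 ?_), a2, a3, a4⟩
    have := zi_anti hz hθ h1 hi.1
    gcongr
  · rintro ⟨a1, a2, a3, a4⟩
    by_cases h : ∃ i, i₀ ≤ i ∧ i < nb θ z L ∧ Real.exp (L * zi θ z (i + 1)) < p
    · classical
      have hspec := Nat.find_spec h
      set i := Nat.find h with hi
      refine ⟨i, mem_Ico.2 ⟨hspec.1, by omega⟩, mem_Ib.2 ⟨?_, a2, a3, a4, fun _ => hspec.2.2⟩⟩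
      rcases Nat.eq_or_lt_of_le hspec.1 with h2 | h2
      · rw [← h2]; exact a1
      · have h3 := Nat.find_min h (m := i - 1) (by omega)
        rw [not_and, not_and, not_lt] at h3
        have h4 := h3 (by omega) (by omega)
        rwa [Nat.sub_add_cancel (by omega)] at h4
    · refine ⟨nb θ z L, mem_Ico.2 ⟨hi₀, by omega⟩, mem_Ib.2 ⟨?_, a2, a3, a4, fun h => by omega⟩⟩
      rcases Nat.eq_or_lt_of_le hi₀ with h2 | h2
      · rw [← h2]; exact a1
      · by_contra hcon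
        rw [not_le] at hcon
        exact h ⟨nb θ z L - 1, by omega, by omega, by rwa [Nat.sub_add_cancel (by omega)]⟩

/-- the sum of `1/p` over a block -/
lemma sum_inv_Ib (hz : 0 < z) (hθ : 0 < θ) (h1 : 1 ≤ li θ z 0) (hL : 0 < L) (hLz : 1 ≤ L * z)
    {i : ℕ} (hi : i ≤ nb θ z L) : ∑ p ∈ Ib y₀ θ z L i, (1 : ℝ) / p ≤ 8 * (2 + li θ z i) := by
  have hi1 := nb_ge hLz hi
  have he : (2 : ℝ) ≤ Real.exp 1 := by linarith [Real.exp_one_gt_d9]
  have hpr : ∀ p ∈ Ib y₀ θ z L i, p.Prime := fun p hp => (mem_Ib.1 hp).2.1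
  rcases Nat.eq_or_lt_of_le hi with h | h
  · have h2 : (2 : ℝ) ≤ Real.exp (L * zi θ z i) := he.trans (Real.exp_le_exp.2 hi1)
    have h3 := P004.H293.sum_inv_range hpr le_rfl h2
      (fun p hp => by exact_mod_cast (hpr p hp).two_le) (fun p hp => (mem_Ib.1 hp).1)
    rw [Real.log_exp] at h3
    refine h3.trans ?_
    have h4 : Real.log (L * zi θ z i / Real.log 2) ≤ 1 + li θ z i := by
      have hlog2 : 0 < Real.log 2 := Real.log_pos (by norm_num)
      rw [Real.log_div (by linarith) hlog2.ne']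
      have h5 : Real.log (L * zi θ z i) ≤ li θ z i := by
        rw [Real.log_le_iff_le_exp (by linarith), h]
        exact nb_exp hz hθ h1 hL
      have h6 : -Real.log (Real.log 2) ≤ 1 := by
        rw [← Real.log_inv]
        rw [Real.log_le_iff_le_exp (by positivity)]
        have : (Real.log 2)⁻¹ ≤ 2 := by
          rw [inv_le_comm₀ hlog2 (by norm_num)]
          linarith [Real.log_two_gt_d9]
        linarith
      linarith
    linarith
  · have hi2 : 1 ≤ L * zi θ z (i + 1) := nb_ge hLz h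
    have h2 : (2 : ℝ) ≤ Real.exp (L * zi θ z (i + 1)) := he.trans (Real.exp_le_exp.2 hi2)
    have h22 : Real.exp (L * zi θ z (i + 1)) ≤ Real.exp (L * zi θ z i) := by
      apply Real.exp_le_exp.2
      have := zi_anti hz hθ h1 (Nat.le_succ i)
      gcongr
    have h3 := P004.H293.sum_inv_range hpr h2 h22
      (fun p hp => ((mem_Ib.1 hp).2.2.2.2 h).le) (fun p hp => (mem_Ib.1 hp).1)
    rw [Real.log_exp, Real.log_exp] at h3
    refine h3.trans ?_
    have h4 : Real.log (L * zi θ z i / (L * zi θ z (i + 1))) = li θ z i := by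
      rw [mul_div_mul_left _ _ hL.ne', Real.log_div (zi_pos hz _).ne' (zi_pos hz _).ne', li_eq hz]
    rw [h4]
    linarith

/-- the sum of `log² p / p` over a block -/
lemma sum_log2_Ib (hLz : 1 ≤ L * z) {i : ℕ} (hi : i ≤ nb θ z L) :
    ∑ p ∈ Ib y₀ θ z L i, Real.log p ^ 2 / p ≤ 8 * (L * zi θ z i) ^ 2 := by
  have hi1 := nb_ge hLz hi
  have he : (2 : ℝ) ≤ Real.exp 1 := by linarith [Real.exp_one_gt_d9]
  have h2 : (2 : ℝ) ≤ Real.exp (L * zi θ z i) := he.trans (Real.exp_le_exp.2 hi1)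
  have h3 := P004.H293.sum_log_div (S := Ib y₀ θ z L i) (fun p hp => (mem_Ib.1 hp).2.1) h2
    (fun p hp => (mem_Ib.1 hp).1)
  rw [Real.log_exp] at h3
  calc ∑ p ∈ Ib y₀ θ z L i, Real.log p ^ 2 / p ≤
      ∑ p ∈ Ib y₀ θ z L i, (L * zi θ z i) * (Real.log p / p) := by
        refine Finset.sum_le_sum fun p hp => ?_
        have hp0 : (0 : ℝ) < p := by exact_mod_cast (mem_Ib.1 hp).2.1.pos
        have h4 : Real.log p ≤ L * zi θ z i := (Real.log_le_iff_le_exp hp0).2 (mem_Ib.1 hp).1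
        have h5 : 0 ≤ Real.log p := Real.log_natCast_nonneg p
        rw [sq, mul_div_assoc]
        gcongr
    _ = (L * zi θ z i) * ∑ p ∈ Ib y₀ θ z L i, Real.log p / p := by rw [Finset.mul_sum]
    _ ≤ (L * zi θ z i) * (8 * (L * zi θ z i)) := by gcongr
    _ = _ := by ring

/-- the constant `∑ n^{-5/4}` -/
noncomputable def K54 : ℝ := ∑' n : ℕ, (n : ℝ) ^ (-(5 / 4) : ℝ)

lemma K54_nonneg : 0 ≤ K54 := tsum_nonneg fun _ => by positivity

/-- the sum of `p^{-3/2}` over a block, not the last one -/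
lemma sum_32_Ib {i : ℕ} (hi : i < nb θ z L) :
    ∑ p ∈ Ib y₀ θ z L i, (p : ℝ) ^ (-3 / 2 : ℝ) ≤ K54 * Real.exp (-(L * zi θ z (i + 1) / 4)) := by
  have h1 : ∑ p ∈ Ib y₀ θ z L i, (p : ℝ) ^ (-(5 / 4) : ℝ) ≤ K54 :=
    (Real.summable_nat_rpow.2 (by norm_num)).sum_le_tsum _ fun _ _ => by positivity
  calc ∑ p ∈ Ib y₀ θ z L i, (p : ℝ) ^ (-3 / 2 : ℝ) ≤
      ∑ p ∈ Ib y₀ θ z L i, (p : ℝ) ^ (-(5 / 4) : ℝ) * Real.exp (-(L * zi θ z (i + 1) / 4)) := by
        refine Finset.sum_le_sum fun p hp => ?_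
        have hp0 : (0 : ℝ) < p := by exact_mod_cast (mem_Ib.1 hp).2.1.pos
        have h2 := (mem_Ib.1 hp).2.2.2.2 hi
        have h3 : (p : ℝ) ^ (-3 / 2 : ℝ) = (p : ℝ) ^ (-(5 / 4) : ℝ) * (p : ℝ) ^ (-(1 / 4) : ℝ) := by
          rw [← Real.rpow_add hp0]
          norm_num
        rw [h3]
        refine mul_le_mul_of_nonneg_left ?_ (by positivity)
        have h4 : L * zi θ z (i + 1) ≤ Real.log p := ((Real.lt_log_iff_exp_lt hp0).2 h2).le
        rw [Real.rpow_def_of_pos hp0]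
        apply Real.exp_le_exp.2
        linarith
    _ = (∑ p ∈ Ib y₀ θ z L i, (p : ℝ) ^ (-(5 / 4) : ℝ)) *
          Real.exp (-(L * zi θ z (i + 1) / 4)) := by rw [Finset.sum_mul]
    _ ≤ _ := by gcongr

end primes

end P004G.E3W
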